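import Vale.Agent.P097.H82.Ser

/-!
# P097 (helper82): regularity at `s = 0` of a chain whose first line is regular

`L` is the field of fractions of `κ⟦X⟧`, `Dt` and `Ds` extend the coefficientwise derivation and the
formal derivative.  Vertices `(p j, q j)`, directions `e j`, `m j = p j - e j ^ 2 * q j`.
-/

open PowerSeries

set_option linter.unusedSectionVars false

namespace Vale.Agent.P097.H82

/-- the derivations on the field of fractions -/
structure Ders (κ : Type*) [Field κ] (d : κ → κ) (L : Type*) [Field L] [Algebra κ⟦X⟧ L]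
    (Dt Ds : L → L) : Prop where
  d_der : IsDer (RingHom.id κ) d
  t_der : IsDer (RingHom.id L) Dt
  s_der : IsDer (RingHom.id L) Ds
  t_alg : ∀ f : κ⟦X⟧, Dt (algebraMap κ⟦X⟧ L f) = algebraMap κ⟦X⟧ L (ct d f)
  s_alg : ∀ f : κ⟦X⟧, Ds (algebraMap κ⟦X⟧ L f) = algebraMap κ⟦X⟧ L (d⁄dX κ f)

/-- they exist -/
theorem exists_ders (κ : Type*) [Field κ] (d : κ → κ) (hd : IsDer (RingHom.id κ) d) (L : Type*)
    [Field L] [Algebra κ⟦X⟧ L] [IsFractionRing κ⟦X⟧ L] : ∃ Dt Ds : L → L, Ders κ d L Dt Ds := by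
  have h1 : IsDer ((RingHom.id L).comp (algebraMap κ⟦X⟧ L))
      (fun f : κ⟦X⟧ => algebraMap κ⟦X⟧ L (ct d f)) := by
    have := (ct_isDer hd).comp_left (algebraMap κ⟦X⟧ L)
    rw [RingHom.comp_id] at this
    rw [RingHom.id_comp]
    exact this
  have h2 : IsDer ((RingHom.id L).comp (algebraMap κ⟦X⟧ L))
      (fun f : κ⟦X⟧ => algebraMap κ⟦X⟧ L (d⁄dX κ f)) := by
    have := (ds_isDer (κ := κ)).comp_left (algebraMap κ⟦X⟧ L)
    rw [RingHom.comp_id] at this
    rw [RingHom.id_comp]
    exact this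
  obtain ⟨Dt, ht, ht'⟩ := IsDer.exists_frac (RingHom.id L) h1
  obtain ⟨Ds, hs, hs'⟩ := IsDer.exists_frac (RingHom.id L) h2
  exact ⟨Dt, Ds, hd, ht, hs, ht', hs'⟩

/-- A billiard chain of length `n` over a field with two derivations. -/
structure BChain {L : Type*} [Field L] (Dt Ds : L → L) (n : ℕ) (p q e m : ℕ → L) : Prop where
  e_ne : ∀ j ≤ n, e j ≠ 0
  inc : ∀ j < n, p j = e j ^ 2 * q j + m j
  inc' : ∀ j < n, p j = e (j + 1) ^ 2 * q j + m (j + 1)
  lawt : ∀ j < n, Dt (p j) = e j * e (j + 1) * Dt (q j)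
  laws : ∀ j < n, Ds (p j) = e j * e (j + 1) * Ds (q j)
  nc : ∀ j < n, Dt (q j) ≠ 0

variable {κ : Type*} [Field κ] [CharZero κ] {d : κ → κ} {L : Type*} [Field L] [Algebra κ⟦X⟧ L]
  [IsFractionRing κ⟦X⟧ L] {Dt Ds : L → L}

/-- the form `p dφ` of the line with data `e m` -/
noncomputable def om (d : κ → κ) (e m : κ) : κ := - (m * d e) / (2 * e ^ 2)


theorem map_inj {f g : κ⟦X⟧} (h : algebraMap κ⟦X⟧ L f = algebraMap κ⟦X⟧ L g) : f = g := IsFractionRing.injective κ⟦X⟧ L h

theorem rank_L (_hD : Ders κ d L Dt Ds) {p q ε : L} (ht : Dt p = ε * Dt q) (hs : Ds p = ε * Ds q) :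
    Dt p * Ds q = Ds p * Dt q := by rw [ht, hs]; ring

/-- `p dφ` is exact along a pencil -/
theorem om_pencil (hd : IsDer (RingHom.id κ) d) {e m p q : κ} (he : e ≠ 0)
    (hp : p = e ^ 2 * q + m) (hdp : d p = 0) (hdq : d q = 0) :
    om d e m = d ((p / e + q * e) / 2) := by
  have h2 : d (2 : κ) = 0 := by exact_mod_cast hd.natCast 2
  have hm : m = p - e ^ 2 * q := by rw [hp]; ring
  rw [hd.div _ two_ne_zero, hd.add, hd.div _ he, hd.mul, h2, hdp, hdq, om, hm]
  simp only [RingHom.id_apply]
  field_simp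
  ring

/-- the change of `p dφ` at a vertex -/
theorem om_step (hd : IsDer (RingHom.id κ) d) {e m e' m' p q : κ} (he : e ≠ 0) (he' : e' ≠ 0)
    (hp : p = e ^ 2 * q + m) (hp' : p = e' ^ 2 * q + m') (hlaw : d p = e * e' * d q) :
    om d e m = om d e' m' + d ((p / e + q * e) / 2 - (p / e' + q * e') / 2) := by
  have h2 : d (2 : κ) = 0 := by exact_mod_cast hd.natCast 2
  have hm : m = p - e ^ 2 * q := by rw [hp]; ring
  have hm' : m' = p - e' ^ 2 * q := by rw [hp']; ring
  rw [hd.sub, hd.div _ two_ne_zero, hd.div _ two_ne_zero, hd.add, hd.add, hd.div _ he,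
    hd.div _ he', hd.mul, hd.mul, h2, hlaw, om, om, hm, hm']
  simp only [RingHom.id_apply]
  field_simp
  ring

/-- what is known about the `j`-th line -/
def LineOK (L : Type*) [Field L] [Algebra κ⟦X⟧ L] (d : κ → κ) (om0 : κ) (e m : L) : Prop :=
  ∃ E M : κ⟦X⟧, algebraMap κ⟦X⟧ L E = e ∧ algebraMap κ⟦X⟧ L M = m ∧ constantCoeff E ≠ 0 ∧
    ∃ G : κ, om0 = om d (constantCoeff E) (constantCoeff M) + d G

/-- what is known about the `j`-th vertex -/
def VertOK (L : Type*) [Field L] [Algebra κ⟦X⟧ L] (d : κ → κ) (p q : L) : Prop :=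
  ∃ P Q : κ⟦X⟧, algebraMap κ⟦X⟧ L P = p ∧ algebraMap κ⟦X⟧ L Q = q ∧
    d (constantCoeff P) ≠ 0 ∧ d (constantCoeff Q) ≠ 0

/-- one step: a vertex on a regular line is regular, not constant, and the next line is regular -/
theorem step_ok (hD : Ders κ d L Dt Ds) {om0 : κ} (hex : ∀ G, om0 ≠ d G) {p q e m e' m' : L}
    (hl : LineOK L d om0 e m) (hinc : p = e ^ 2 * q + m) (hinc' : p = e' ^ 2 * q + m')
    (ht : Dt p = e * e' * Dt q) (hs : Ds p = e * e' * Ds q) (hnc : Dt q ≠ 0) (he' : e' ≠ 0) :
    VertOK L d p q ∧ LineOK L d om0 e' m' := by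
  obtain ⟨E, M, hE, hM, hE0, G, hG⟩ := hl
  have hd := hD.d_der
  have he : e ≠ 0 := by
    rintro rfl
    have : E = 0 := map_inj (L := L) (by rw [hE, map_zero])
    rw [this, map_zero] at hE0
    exact hE0 rfl
  have hrank : Dt p * Ds q = Ds p * Dt q := rank_L hD ht hs
  rcases reg_or_inv (κ := κ) q with ⟨Q, hQ⟩ | ⟨g, hg0, hgc, hgq⟩
  · -- regular vertex
    set P : κ⟦X⟧ := E ^ 2 * Q + M with hP
    have hPp : algebraMap κ⟦X⟧ L P = p := by rw [hP, map_add, map_mul, map_pow, hE, hQ, hM, hinc]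
    have hr1 : ct d P * d⁄dX κ Q = d⁄dX κ P * ct d Q := by
      apply map_inj (L := L)
      rw [map_mul, map_mul, ← hD.t_alg, ← hD.s_alg, ← hD.t_alg, ← hD.s_alg, hPp, hQ, hrank]
    have hr2 : ct d Q * d⁄dX κ P = d⁄dX κ Q * ct d P := by
      linear_combination -hr1
    by_cases hdQ : d (constantCoeff Q) = 0
    · by_cases hdP : d (constantCoeff P) = 0
      · exfalso
        have h1 : constantCoeff P = constantCoeff E ^ 2 * constantCoeff Q + constantCoeff M := by
          rw [hP]; simp
        have h2 := om_pencil hd hE0 h1 hdP hdQ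
        refine hex (((constantCoeff P / constantCoeff E + constantCoeff Q * constantCoeff E) / 2)
          + G) ?_
        rw [hG, h2, hd.add]
      · exfalso
        have h1 := ct_eq_zero_of_rank hd hr2 hdQ hdP
        apply hnc
        rw [← hQ, hD.t_alg, h1, map_zero]
    · by_cases hdP : d (constantCoeff P) = 0
      · exfalso
        have h1 := ct_eq_zero_of_rank hd hr1 hdP hdQ
        have h2 : Dt p = 0 := by rw [← hPp, hD.t_alg, h1, map_zero]
        rw [h2] at ht
        exact hnc ((mul_eq_zero.1 ht.symm).resolve_left (mul_ne_zero he he'))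
      · refine ⟨⟨P, Q, hPp, hQ, hdP, hdQ⟩, ?_⟩
        -- the new direction
        have hc : constantCoeff (E * ct d Q) ≠ 0 := by
          rw [map_mul, constantCoeff_ct]
          exact mul_ne_zero hE0 hdQ
        set E' : κ⟦X⟧ := ct d P * (E * ct d Q)⁻¹ with hE'
        have h3 : E' * (E * ct d Q) = ct d P := by
          rw [hE', mul_assoc, PowerSeries.inv_mul_cancel _ hc, mul_one]
        have h4 : algebraMap κ⟦X⟧ L E' = e' := by
          have h5a : algebraMap κ⟦X⟧ L (E * ct d Q) = e * Dt q := by rw [map_mul, hE, ← hD.t_alg, hQ]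
          have h5 : algebraMap κ⟦X⟧ L E' * (e * Dt q) = e * e' * Dt q := by
            rw [← h5a, ← map_mul, h3, ← hD.t_alg, hPp, ht]
          have h6 : (algebraMap κ⟦X⟧ L E' - e') * (e * Dt q) = 0 := by linear_combination h5
          exact sub_eq_zero.1 ((mul_eq_zero.1 h6).resolve_right (mul_ne_zero he hnc))
        have h5 : constantCoeff E' ≠ 0 := by
          intro h6
          have h7 := congrArg constantCoeff h3
          rw [map_mul, h6, zero_mul, constantCoeff_ct] at h7
          exact hdP h7.symm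
        set M' : κ⟦X⟧ := P - E' ^ 2 * Q with hM'
        have h6 : algebraMap κ⟦X⟧ L M' = m' := by
          rw [hM', map_sub, map_mul, map_pow, h4, hQ, hPp, hinc']
          ring
        refine ⟨E', M', h4, h6, h5, ?_⟩
        have h7 : constantCoeff P = constantCoeff E ^ 2 * constantCoeff Q + constantCoeff M := by
          rw [hP]; simp
        have h8 : constantCoeff P = constantCoeff E' ^ 2 * constantCoeff Q + constantCoeff M' := by
          rw [hM']; simp
        have h9 : d (constantCoeff P) =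
            constantCoeff E * constantCoeff E' * d (constantCoeff Q) := by
          have := congrArg constantCoeff h3
          simp only [map_mul, constantCoeff_ct] at this
          rw [← this]
          ring
        refine ⟨(constantCoeff P / constantCoeff E + constantCoeff Q * constantCoeff E) / 2 -
          (constantCoeff P / constantCoeff E' + constantCoeff Q * constantCoeff E') / 2 + G, ?_⟩
        rw [hG, om_step hd hE0 h5 h7 h8 h9, hd.add]
        ring
  · -- vertex at infinity at `s = 0`: impossible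
    exfalso
    have hgL : algebraMap κ⟦X⟧ L g ≠ 0 := by
      intro h
      exact hg0 (map_inj (L := L) (by rw [h, map_zero]))
    by_cases hdE : d (constantCoeff E) = 0
    · refine hex G ?_
      rw [hG, om, hdE]
      simp
    · set R : κ⟦X⟧ := E ^ 2 + M * g with hR
      have hRp : algebraMap κ⟦X⟧ L R = p * algebraMap κ⟦X⟧ L g := by
        rw [hR, map_add, map_mul, map_pow, hE, hM, hinc, hgq]
        field_simp
      have hq1 : q * algebraMap κ⟦X⟧ L g = 1 := by rw [hgq]; field_simp
      have ht1 : Dt q * algebraMap κ⟦X⟧ L g + q * Dt (algebraMap κ⟦X⟧ L g) = 0 := by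
        have := hD.t_der.mul q (algebraMap κ⟦X⟧ L g)
        rw [hq1, hD.t_der.one] at this
        simp only [RingHom.id_apply] at this
        linear_combination -this
      have hs1 : Ds q * algebraMap κ⟦X⟧ L g + q * Ds (algebraMap κ⟦X⟧ L g) = 0 := by
        have := hD.s_der.mul q (algebraMap κ⟦X⟧ L g)
        rw [hq1, hD.s_der.one] at this
        simp only [RingHom.id_apply] at this
        linear_combination -this
      have ht2 : Dt (algebraMap κ⟦X⟧ L R) = Dt p * algebraMap κ⟦X⟧ L g + p * Dt (algebraMap κ⟦X⟧ L g) := by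
        rw [hRp, hD.t_der.mul]
        simp only [RingHom.id_apply]
        ring
      have hs2 : Ds (algebraMap κ⟦X⟧ L R) = Ds p * algebraMap κ⟦X⟧ L g + p * Ds (algebraMap κ⟦X⟧ L g) := by
        rw [hRp, hD.s_der.mul]
        simp only [RingHom.id_apply]
        ring
      have hr1 : ct d g * d⁄dX κ R = d⁄dX κ g * ct d R := by
        apply map_inj (L := L)
        rw [map_mul, map_mul, ← hD.t_alg, ← hD.s_alg, ← hD.t_alg, ← hD.s_alg, ht2, hs2]
        -- Dt g * Ds p = Ds g * Dt p
        have h5 : q * (Dt (algebraMap κ⟦X⟧ L g) * Ds p - Ds (algebraMap κ⟦X⟧ L g) * Dt p) = 0 := by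
          linear_combination Ds p * ht1 - Dt p * hs1 + algebraMap κ⟦X⟧ L g * hrank
        have hq0 : q ≠ 0 := by
          rintro rfl
          rw [zero_mul] at hq1
          exact zero_ne_one hq1
        have h6 := (mul_eq_zero.1 h5).resolve_left hq0
        linear_combination algebraMap κ⟦X⟧ L g * h6
      have hgc' : d (constantCoeff g) = 0 := by rw [hgc, hd.zero]
      have hRc : d (constantCoeff R) ≠ 0 := by
        have h5 : constantCoeff R = constantCoeff E ^ 2 := by
          rw [hR]; simp [hgc]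
        rw [h5, hd.pow]
        simp only [RingHom.id_apply, Nat.cast_ofNat]
        have : (2 : κ) ≠ 0 := two_ne_zero
        exact mul_ne_zero (mul_ne_zero this (pow_ne_zero _ hE0)) hdE
      have h7 := eq_C_of_rank hd hr1 hgc' hRc
      rw [hgc, map_zero] at h7
      exact hg0 h7

/-- **Regularity of the star chain.** -/
theorem chain_regular (hD : Ders κ d L Dt Ds) {n : ℕ} {p q e m : ℕ → L}
    (hc : BChain Dt Ds n p q e m) {E M : κ⟦X⟧} (hE : algebraMap κ⟦X⟧ L E = e 0) (hM : algebraMap κ⟦X⟧ L M = m 0)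
    (hE0 : constantCoeff E ≠ 0)
    (hex : ∀ G, om d (constantCoeff E) (constantCoeff M) ≠ d G) :
    (∀ j ≤ n, LineOK L d (om d (constantCoeff E) (constantCoeff M)) (e j) (m j)) ∧
      ∀ j < n, VertOK L d (p j) (q j) := by
  have h1 : ∀ j ≤ n, LineOK L d (om d (constantCoeff E) (constantCoeff M)) (e j) (m j) := by
    intro j
    induction j with
    | zero =>
      intro _
      exact ⟨E, M, hE, hM, hE0, 0, by rw [hD.d_der.zero, add_zero]⟩
    | succ j ih =>
      intro hj
      exact (step_ok hD hex (ih (by omega)) (hc.inc j (by omega)) (hc.inc' j (by omega))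
        (hc.lawt j (by omega)) (hc.laws j (by omega)) (hc.nc j (by omega)) (hc.e_ne _ hj)).2
  refine ⟨h1, fun j hj => ?_⟩
  exact (step_ok hD hex (h1 j hj.le) (hc.inc j hj) (hc.inc' j hj)
    (hc.lawt j hj) (hc.laws j hj) (hc.nc j hj) (hc.e_ne _ hj)).1

end Vale.Agent.P097.H82
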