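import Vale.Agent.P097.H82.Conc
import Vale.Agent.P097.H435.OPGlue
import Vale.Agent.P097.H123.StarG

/-!
# P097 (helper82): row F3 of the finite chain theorem, the star word
-/

set_option linter.unusedSectionVars false
set_option linter.all false

open Filter Topology PowerSeries
open Vale.Agent.P097.H320 Vale.Agent.P097.H435.S10 Vale.Agent.P097.H456 Vale.Agent.P097.H456.Fct
open Vale.Agent.P097.TA Vale.Agent.P097.H202

namespace Vale.Agent.P097.H82

variable {κ Λ : ℝ} {H Φ : ℂ → ℂ} {r ε : ℝ} {α p : ℂ → ℂ → ℂ} {J : ℂ → ℂ}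

/-- `AR` is `PA` of helper435 -/
noncomputable def toPA : AR →+* H435.S10.PA where
  toFun F := ⟨F.1, F.2⟩
  map_one' := rfl
  map_mul' _ _ := rfl
  map_zero' := rfl
  map_add' _ _ := rfl

/-- helper435's homomorphism -/
noncomputable abbrev th (N : ℕ) (hN : N ≠ 0) : H435.S10.PA →+* KK⟦X⟧ :=
  (PowerSeries.map (io OP MM KK)).comp (H435.S10.PA.tauN N hN)

theorem th_toPA (N : ℕ) (hN : N ≠ 0) (F : AR) : th N hN (toPA F) = expand N hN (tk KK F) := by
  refine PowerSeries.ext fun l => ?_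
  change coeff l (PowerSeries.map (io OP MM KK) (H435.S10.PA.tauN N hN (toPA F))) = _
  rw [coeff_map, H435.S10.PA.coeff_tauN, coeff_expand]
  split_ifs with h
  · rw [coeff_tk, tower]
    rfl
  · rw [map_zero]

theorem th_comp (N : ℕ) (hN : N ≠ 0) : (th N hN).comp toPA = thN KK N hN :=
  RingHom.ext fun F => th_toPA N hN F

theorem algN_PA {N : ℕ} {hN : N ≠ 0} {x : KK⟦X⟧} (h : AlgN KK N hN x) :
    ∃ P : Polynomial H435.S10.PA, P.map (th N hN) ≠ 0 ∧ P.eval₂ (th N hN) x = 0 := by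
  obtain ⟨P, h1, h2⟩ := h
  refine ⟨P.map toPA, ?_, ?_⟩
  · rw [Polynomial.map_map, th_comp]
    exact h1
  · rw [Polynomial.eval₂_map, th_comp]
    exact h2

theorem algN_zero {N : ℕ} {hN : N ≠ 0} : AlgN KK N hN 0 :=
  ⟨Polynomial.X, by simp, by simp⟩

/-! ### closure of the calculus -/

section calc_

variable {d : KK → KK} {t0 : ℂ} {N : ℕ} {hN : N ≠ 0} {R : KK⟦X⟧ → (ℂ × ℂ → ℂ) → Prop}

theorem R_const (C1 : Calc d t0 (th N hN) (evN N) R) (c : ℂ) : R (cK KK c) (fun _ => c) := by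
  have h1 := C1.coe (toPA (AR.const c))
  rw [th_toPA, tk_const, expand_C, ← tk_const] at h1
  exact h1

theorem R_sjet (C1 : Calc d t0 (th N hN) (evN N) R) {E P Q : KK⟦X⟧} {fE fP fQ : ℂ × ℂ → ℂ}
    (hE : R E fE) (hP : R P fP) (hQ : R Q fQ) (h0 : fE (t0, 0) ≠ 0)
    (h1 : H123.Star.dt fE (t0, 0) ≠ 0) (l : ℕ) :
    R (sjet d E P Q l) (H123.Star.jet fE fP fQ l) := by
  have h2 : R (2 : KK⟦X⟧)⁻¹ (fun _ => (2 : ℂ)⁻¹) := by
    have h3 := C1.natCast 2
    push_cast at h3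
    exact C1.inv h3 two_ne_zero
  have hI : R (cI KK) (fun _ => Complex.I) := R_const C1 Complex.I
  induction l with
  | zero =>
    refine C1.congr (C1.mul (C1.add (C1.mul hP (C1.inv hE h0)) (C1.mul hQ hE)) h2) ?_
    refine Eventually.of_forall fun u => ?_
    simp only [H123.Star.jet, div_eq_mul_inv]
  | succ l ih =>
    rcases l with _ | l
    · refine C1.congr (C1.mul (C1.mul hI (C1.sub (C1.mul hQ hE) (C1.mul hP (C1.inv hE h0)))) h2) ?_
      refine Eventually.of_forall fun u => ?_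
      simp only [H123.Star.jet, div_eq_mul_inv]
    · refine C1.congr (C1.mul (C1.mul (C1.dt ih) (C1.mul hI hE)) (C1.inv (C1.dt hE) h1)) ?_
      refine Eventually.of_forall fun u => ?_
      simp only [H123.Star.jet, div_eq_mul_inv]
      rfl

theorem R_eval (C1 : Calc d t0 (th N hN) (evN N) R) {ι : Type} {g : ι → KK⟦X⟧}
    {G : ι → ℂ × ℂ → ℂ} (hg : ∀ i, R (g i) (G i)) (P : MvPolynomial ι ℂ) :
    R (MvPolynomial.eval₂ (cK KK) g P) (fun u => MvPolynomial.eval (fun i => G i u) P) := by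
  induction P using MvPolynomial.induction_on with
  | C a =>
    rw [MvPolynomial.eval₂_C]
    simp only [MvPolynomial.eval_C]
    exact R_const C1 a
  | add p q hp hq =>
    rw [MvPolynomial.eval₂_add]
    simp only [map_add]
    exact C1.add hp hq
  | mul_X p i hp =>
    rw [MvPolynomial.eval₂_mul, MvPolynomial.eval₂_X]
    simp only [map_mul, MvPolynomial.eval_X]
    exact C1.mul hp (hg i)

end calc_

/-- **F3** -/
theorem f3 : F3 := by
  intro κ Λ H Φ r ε α p J T n Ω a0 q0 an qn hΩ hO halg hnot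
  obtain ⟨d0, d, Dt, Ds, hd0, hd0', hd', W⟩ := exists_world
  have hex := hex_conc T hd0 hd0' hd' W
  obtain ⟨N, hN, σ, dt, dw, S⟩ := exists_SE (k := KK) (L := LL) W T hΩ halg hnot
  have hfin := FF_fin (k := KK) (L := LL) W T hΩ halg
  obtain ⟨e, P, Q, E, St⟩ := star_series W T hex hΩ hO S
  obtain ⟨jt, hjt, hjtv⟩ := St.tv
  have hn : 0 < n := by omega
  -- the finite family
  let x : Fin (n + 1) × Fin 7 → KK⟦X⟧ := fun y =>
    if y.2 = 0 then e y.1 else if (y.1 : ℕ) < n then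
      (if y.2 = 1 then P y.1 else if y.2 = 2 then Q y.1 else if y.2 = 3 then E y.1 else
        if y.2 = 4 then e (y.1 + 1) - e y.1 else if y.2 = 5 then ct d (Q y.1) else ct d (E y.1))
      else 0
  have hx : ∀ y, AlgN KK N hN (x y) := by
    rintro ⟨⟨j, hj⟩, b⟩
    simp only [x]
    split_ifs with h0 h1 h2 h3 h4 h5 h6
    · exact St.ae j (by omega)
    · exact St.aP j h1
    · exact St.aQ j h1
    · exact St.aE j h1
    · exact St.ade j h1
    · exact St.adQ j h1
    · exact St.adE j h1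
    · exact algN_zero
  obtain ⟨bad, hbad, hgen⟩ := s10_OP (K := MM) (κ := KK) W.d_der
    (fun f => by
      change d ((algebraMap MM KK) (algebraMap OP MM f)) = (algebraMap MM KK) (algebraMap OP MM (OP.D f))
      rw [hd', hd0']) hN (ι' := Empty) x (fun y => y.elim) (fun y => algN_PA (hx y))
  obtain ⟨t0, -, ht0⟩ := OP_ne hbad (show (0 : ℝ) < 1 by norm_num)
  obtain ⟨R, C1, hR, -⟩ := hgen t0 ht0
  choose F hF hF0 using hR
  set pt : ℂ × ℂ := ((t0 : ℂ), (0 : ℂ)) with hpt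
  -- the functions
  let fe : ℕ → ℂ × ℂ → ℂ := fun j => if h : j ≤ n then F (⟨j, by omega⟩, 0) else fun _ => 0
  let fP : ℕ → ℂ × ℂ → ℂ := fun j => if h : j ≤ n then F (⟨j, by omega⟩, 1) else fun _ => 0
  let fQ : ℕ → ℂ × ℂ → ℂ := fun j => if h : j ≤ n then F (⟨j, by omega⟩, 2) else fun _ => 0
  let fE : ℕ → ℂ × ℂ → ℂ := fun j => if h : j ≤ n then F (⟨j, by omega⟩, 3) else fun _ => 0
  have Re : ∀ j ≤ n, R (e j) (fe j) ∧ fe j pt ≠ 0 := by
    intro j hj
    have h1 := hF (⟨j, by omega⟩, 0)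
    have h2 := hF0 (⟨j, by omega⟩, 0)
    have hxe : x (⟨j, by omega⟩, 0) = e j := by simp [x]
    have hfe : fe j = F (⟨j, by omega⟩, 0) := by simp only [fe, dif_pos hj]
    rw [hxe] at h1 h2
    rw [hfe]
    exact ⟨h1, h2 (St.ecc j hj)⟩
  have RP : ∀ j < n, R (P j) (fP j) := by
    intro j hj
    have h1 := hF (⟨j, by omega⟩, 1)
    have hxe : x (⟨j, by omega⟩, 1) = P j := by simp [x, hj]
    have hfe : fP j = F (⟨j, by omega⟩, 1) := by simp only [fP, dif_pos hj.le]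
    rw [hxe] at h1
    rw [hfe]
    exact h1
  have RQ : ∀ j < n, R (Q j) (fQ j) := by
    intro j hj
    have h1 := hF (⟨j, by omega⟩, 2)
    have hxe : x (⟨j, by omega⟩, 2) = Q j := by simp [x, hj]
    have hfe : fQ j = F (⟨j, by omega⟩, 2) := by simp only [fQ, dif_pos hj.le]
    rw [hxe] at h1
    rw [hfe]
    exact h1
  have RE : ∀ j < n, R (E j) (fE j) ∧ fE j pt ≠ 0 := by
    intro j hj
    have h1 := hF (⟨j, by omega⟩, 3)
    have h2 := hF0 (⟨j, by omega⟩, 3)
    have hxe : x (⟨j, by omega⟩, 3) = E j := by simp [x, hj]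
    have hfe : fE j = F (⟨j, by omega⟩, 3) := by simp only [fE, dif_pos hj.le]
    rw [hxe] at h1 h2
    rw [hfe]
    exact ⟨h1, h2 (St.Ecc j hj)⟩
  have hdQ : ∀ j < n, H123.Star.dt (fQ j) pt ≠ 0 := by
    intro j hj
    have h1 := hF (⟨j, by omega⟩, 5)
    have h2 := hF0 (⟨j, by omega⟩, 5)
    have hxe : x (⟨j, by omega⟩, 5) = ct d (Q j) := by simp [x, hj]
    rw [hxe] at h1 h2
    have h3 := (C1.eq_iff h1 (C1.dt (RQ j hj))).1 rfl
    have h4 := h2 (by rw [constantCoeff_ct]; exact St.dq j hj)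
    rw [h3.self_of_nhds] at h4
    exact h4
  have hdE : ∀ j < n, H123.Star.dt (fE j) pt ≠ 0 := by
    intro j hj
    have h1 := hF (⟨j, by omega⟩, 6)
    have h2 := hF0 (⟨j, by omega⟩, 6)
    have hxe : x (⟨j, by omega⟩, 6) = ct d (E j) := by simp [x, hj]
    rw [hxe] at h1 h2
    have h3 := (C1.eq_iff h1 (C1.dt (RE j hj).1)).1 rfl
    have h4 := h2 (by rw [constantCoeff_ct]; exact St.dE j hj)
    rw [h3.self_of_nhds] at h4
    exact h4
  have hkind : ∀ j < n, (constantCoeff (e (j + 1) - e j) = 0 →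
      ∀ᶠ t in 𝓝 (t0 : ℂ), fe (j + 1) (t, 0) = fe j (t, 0)) ∧
      (constantCoeff (e (j + 1) - e j) ≠ 0 → fe (j + 1) pt ≠ fe j pt) := by
    intro j hj
    have h1 := hF (⟨j, by omega⟩, 4)
    have h2 := hF0 (⟨j, by omega⟩, 4)
    have hxe : x (⟨j, by omega⟩, 4) = e (j + 1) - e j := by simp [x, hj]
    rw [hxe] at h1 h2
    have h3 := C1.sub (Re (j + 1) hj).1 (Re j hj.le).1
    constructor
    · intro h0
      filter_upwards [(C1.cc_iff h3).1 h0] with t ht
      exact sub_eq_zero.1 ht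
    · intro h0
      have h4 := h2 h0
      have h5 := (C1.eq_iff h1 h3).1 rfl
      rw [h5.self_of_nhds] at h4
      exact sub_ne_zero.1 h4
  have hnatα : ∀ i : ℕ, ∀ u : ℂ × ℂ, nat α N i u = zn α i (u.1, u.2 ^ N) := fun i u => by
    simp [nat, zn]
  have hnatp : ∀ i : ℕ, ∀ u : ℂ × ℂ, nat p N i u = zn p i (u.1, u.2 ^ N) := fun i u => by
    simp [nat, zn]
  have hRe : ∀ i : ℕ, R (expand N hN (tk KK (eA T i)))
      (fun u => Complex.I * Complex.exp (Complex.I * nat α N i u)) := by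
    intro i
    have h1 := C1.coe (toPA (eA T i))
    rw [th_toPA] at h1
    refine C1.congr h1 (Eventually.of_forall fun u => ?_)
    simp only [hnatα]
    rfl
  have hRm : ∀ i : ℕ, R (expand N hN (tk KK (mA T i)))
      (fun u => 2 * nat p N i u * Complex.exp (Complex.I * nat α N i u)) := by
    intro i
    have h1 := C1.coe (toPA (mA T i))
    rw [th_toPA] at h1
    refine C1.congr h1 (Eventually.of_forall fun u => ?_)
    simp only [hnatα, hnatp]
    rfl
  obtain ⟨M, a, q, r0, hr0, hstar⟩ := H123.Star.star_of T (Nat.one_le_iff_ne_zero.2 hN) t0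
    (e := fe) (P := fP) (Q := fQ) (E := fE)
    (fun j hj => ⟨C1.an (Re j hj).1, (Re j hj).2⟩)
    (fun j hj => C1.an (RP j hj)) (fun j hj => C1.an (RQ j hj)) (fun j hj => C1.an (RE j hj).1)
    (fun j hj => (C1.eq_iff (C1.pow (RE j hj).1 2)
      (C1.neg (C1.mul (Re j hj.le).1 (Re (j + 1) hj).1))).1 (St.EE j hj))
    (fun j hj => (C1.eq_iff
      (C1.sub (RP (j + 1) hj) (C1.mul (C1.pow (Re (j + 1) (by omega)).1 2) (RQ (j + 1) hj)))
      (C1.sub (RP j (by omega)) (C1.mul (C1.pow (Re (j + 1) (by omega)).1 2)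
        (RQ j (by omega))))).1 (St.inc j hj))
    (fun j hj => by
      have h1 := (C1.eq_iff (C1.dt (RP j hj)) (C1.mul (C1.mul (Re j hj.le).1 (Re (j + 1) hj).1)
        (C1.dt (RQ j hj)))).1 (St.lawt j hj)
      have h2 := (C1.eq_iff (C1.ds (RP j hj)) (C1.mul (C1.mul (Re j hj.le).1 (Re (j + 1) hj).1)
        (C1.ds (RQ j hj)))).1 (St.laws j hj)
      filter_upwards [h1, h2] with u a1 a2
      exact ⟨a1, a2⟩)
    hdQ hdE
    (fun j hj => by
      by_cases h0 : constantCoeff (e (j + 1) - e j) = 0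
      · exact Or.inl ((hkind j hj).1 h0)
      · exact Or.inr ((hkind j hj).2 h0))
    ⟨jt, hjt, (hkind jt hjt).2 hjtv⟩
    (by
      have h1 := (C1.eq_iff (Re 0 (Nat.zero_le _)).1 (hRe 0)).1 St.e0
      have h2 := (C1.eq_iff (C1.sub (RP 0 hn) (C1.mul (C1.pow (Re 0 (Nat.zero_le _)).1 2)
        (RQ 0 hn))) (hRm 0)).1 (St.m0 hn)
      filter_upwards [h1, h2] with u a1 a2
      exact ⟨a1, a2⟩)
    (by
      have h1 := (C1.eq_iff (Re n le_rfl).1 (hRe n)).1 St.en
      have h2 := (C1.eq_iff (C1.sub (RP (n - 1) (by omega)) (C1.mul (C1.pow (Re n le_rfl).1 2)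
        (RQ (n - 1) (by omega)))) (hRm n)).1 (St.mn (n - 1) (by omega))
      filter_upwards [h1, h2] with u a1 a2
      exact ⟨a1, a2⟩)
    (fun j hj m Pm hPm => by
      have h1 := R_eval C1 (g := Fin.cons (E j) fun l : Fin (m + 1) =>
          sjet d (E j) (P j) (Q j) l) (G := Fin.cons (fE j) fun l : Fin (m + 1) =>
          H123.Star.jet (fE j) (fP j) (fQ j) l) (fun i => by
            refine Fin.cases ?_ (fun i => ?_) i
            · exact (RE j hj).1
            · exact R_sjet C1 (RE j hj).1 (RP j hj) (RQ j hj) (RE j hj).2 (hdE j hj) i) Pm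
      have h2 := (C1.eq_iff h1 C1.zero).1 (St.rel j hj m Pm hPm)
      filter_upwards [h2] with u hu
      rw [← hu]
      congr 2
      funext i
      refine Fin.cases ?_ (fun i => ?_) i
      · rfl
      · rfl)
  obtain ⟨r1, hr1, hnb⟩ := f1 T N n (Nat.one_le_iff_ne_zero.2 hN) t0
  exact ⟨N, t0, min r0 r1, M, a, q, hnb _ (lt_min hr0 hr1) (min_le_right _ _),
    hstar _ (lt_min hr0 hr1) (min_le_left _ _)⟩

end Vale.Agent.P097.H82
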