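import Vale.Agent.P097.H82.Der

/-!
# P097 (helper82): derivations on power series, the rank lemma.
-/

open PowerSeries

namespace Vale.Agent.P097.H82

section coef

variable {κ : Type*} [Field κ] {d : κ → κ}

/-- coefficientwise derivative -/
noncomputable def ct (d : κ → κ) (f : κ⟦X⟧) : κ⟦X⟧ := PowerSeries.mk fun n => d (coeff n f)

@[simp] theorem coeff_ct (f : κ⟦X⟧) (n : ℕ) : coeff n (ct d f) = d (coeff n f) := by
  simp [ct]

@[simp] theorem constantCoeff_ct (f : κ⟦X⟧) :
    constantCoeff (ct d f) = d (constantCoeff f) := by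
  rw [← coeff_zero_eq_constantCoeff_apply, coeff_ct, coeff_zero_eq_constantCoeff_apply]

theorem ct_isDer (h : IsDer (RingHom.id κ) d) : IsDer (RingHom.id κ⟦X⟧) (ct d) where
  add a b := by
    ext n
    simp [h.add]
  mul a b := by
    ext n
    rw [coeff_ct, coeff_mul, h.sum, map_add, RingHom.id_apply, RingHom.id_apply, coeff_mul,
      mul_comm b, coeff_mul, ← Finset.sum_add_distrib]
    refine Finset.sum_congr rfl fun i _ => ?_
    rw [h.mul, coeff_ct, coeff_ct]
    simp only [RingHom.id_apply]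
    ring

theorem ds_isDer : IsDer (RingHom.id κ⟦X⟧) (fun f : κ⟦X⟧ => d⁄dX κ f) where
  add a b := map_add _ _ _
  mul a b := by
    simp only [Derivation.leibniz, smul_eq_mul, RingHom.id_apply]

/-- if `dx ∧ dy = 0`, `y` is not constant at `s = 0` but `x` is, then `x` is constant -/
theorem rank_lemma [CharZero κ] (h : IsDer (RingHom.id κ) d) {x y : κ⟦X⟧}
    (hr : ct d x * d⁄dX κ y = d⁄dX κ x * ct d y) (hx : d (constantCoeff x) = 0)
    (hy : d (constantCoeff y) ≠ 0) : ∀ n, 1 ≤ n → coeff n x = 0 := by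
  intro n
  induction n using Nat.strong_induction_on with
  | _ n ih =>
  intro hn
  obtain ⟨n, rfl⟩ : ∃ l, n = l + 1 := ⟨n - 1, by omega⟩
  have h1 := congrArg (coeff n) hr
  rw [coeff_mul, coeff_mul] at h1
  have h2 : ∀ i ∈ Finset.HasAntidiagonal.antidiagonal n, coeff i.1 (ct d x) * coeff i.2 (d⁄dX κ y) = 0 := by
    intro i hi
    have hi' : i.1 ≤ n := by
      have := Finset.HasAntidiagonal.mem_antidiagonal.1 hi
      omega
    rw [coeff_ct]
    rcases Nat.eq_zero_or_pos i.1 with h0 | h0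
    · rw [h0, coeff_zero_eq_constantCoeff_apply, hx, zero_mul]
    · rw [ih i.1 (by omega) h0, h.zero, zero_mul]
  rw [Finset.sum_eq_zero h2] at h1
  have h3 : ∑ i ∈ Finset.HasAntidiagonal.antidiagonal n, coeff i.1 (d⁄dX κ x) * coeff i.2 (ct d y) =
      coeff n (d⁄dX κ x) * coeff 0 (ct d y) := by
    rw [Finset.sum_eq_single (n, 0)]
    · intro i hi hne
      have hi' := Finset.HasAntidiagonal.mem_antidiagonal.1 hi
      have h4 : i.1 < n := by
        rcases lt_or_eq_of_le (show i.1 ≤ n by omega) with h5 | h5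
        · exact h5
        · exfalso
          apply hne
          ext
          · exact h5
          · simp only
            omega
      rw [coeff_derivative, ih (i.1 + 1) (by omega) (by omega)]
      ring
    · intro h4
      exact absurd (Finset.HasAntidiagonal.mem_antidiagonal.2 (by simp)) h4
  rw [h3, coeff_derivative, coeff_zero_eq_constantCoeff_apply, constantCoeff_ct] at h1
  have h5 : ((n : κ) + 1) ≠ 0 := by exact_mod_cast Nat.succ_ne_zero n
  rcases mul_eq_zero.1 h1.symm with h6 | h6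
  · rcases mul_eq_zero.1 h6 with h7 | h7
    · exact h7
    · exact absurd h7 h5
  · exact absurd h6 hy

theorem eq_C_of_rank [CharZero κ] (h : IsDer (RingHom.id κ) d) {x y : κ⟦X⟧}
    (hr : ct d x * d⁄dX κ y = d⁄dX κ x * ct d y) (hx : d (constantCoeff x) = 0)
    (hy : d (constantCoeff y) ≠ 0) : x = C (constantCoeff x) := by
  ext n
  rcases Nat.eq_zero_or_pos n with h0 | h0
  · rw [h0]
    simp
  · rw [rank_lemma h hr hx hy n h0, coeff_C, if_neg h0.ne']

theorem ct_C (h : IsDer (RingHom.id κ) d) (c : κ) : ct d (C c) = C (d c) := by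
  ext n
  rw [coeff_ct, coeff_C, coeff_C]
  split_ifs with h0
  · rfl
  · exact h.zero

/-- consequently all derivatives of `x` vanish -/
theorem ct_eq_zero_of_rank [CharZero κ] (h : IsDer (RingHom.id κ) d) {x y : κ⟦X⟧}
    (hr : ct d x * d⁄dX κ y = d⁄dX κ x * ct d y) (hx : d (constantCoeff x) = 0)
    (hy : d (constantCoeff y) ≠ 0) : ct d x = 0 := by
  rw [eq_C_of_rank h hr hx hy, ct_C h, hx, map_zero]

end coef

/-! ### integrality in the field of fractions -/

section integral

variable {κ : Type*} [Field κ] {L : Type*} [Field L] [Algebra κ⟦X⟧ L] [IsFractionRing κ⟦X⟧ L]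

/-- regular at `s = 0` -/
def Reg (κ : Type*) [Field κ] {L : Type*} [Field L] [Algebra κ⟦X⟧ L] (x : L) : Prop :=
  ∃ f : κ⟦X⟧, algebraMap κ⟦X⟧ L f = x

theorem reg_or_inv (x : L) : Reg κ x ∨ ∃ g : κ⟦X⟧, g ≠ 0 ∧ constantCoeff g = 0 ∧
    x = (algebraMap κ⟦X⟧ L g)⁻¹ := by
  rcases ValuationRing.isInteger_or_isInteger κ⟦X⟧ x with h | h
  · exact Or.inl h
  · obtain ⟨g, hg⟩ := h
    by_cases hx : x = 0
    · left
      exact ⟨0, by rw [map_zero, hx]⟩
    by_cases hc : constantCoeff g = 0
    · right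
      refine ⟨g, ?_, hc, ?_⟩
      · rintro rfl
        rw [map_zero] at hg
        exact hx (inv_eq_zero.1 hg.symm)
      · rw [hg, inv_inv]
    · left
      refine ⟨g⁻¹, ?_⟩
      have h1 : g * g⁻¹ = 1 := PowerSeries.mul_inv_cancel g hc
      have h2 : algebraMap κ⟦X⟧ L g * algebraMap κ⟦X⟧ L g⁻¹ = 1 := by
        rw [← map_mul, h1, map_one]
      rw [hg] at h2
      field_simp at h2
      exact h2

end integral

end Vale.Agent.P097.H82
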