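import Vale.Agent.P097.H82.Base

/-!
# P097 (helper82): algebraicity over the ring of periodic analytic functions
-/

set_option linter.unusedSectionVars false

open Polynomial

namespace Vale.Agent.P097.H82

/-- lifting an algebraic relation to the ring of coefficients -/
theorem alg_lift {A B C : Type*} [CommRing A] [CommRing B] [CommRing C] (θ : A →+* B) (i : B →+* C)
    (hi : Function.Injective i) {x : B} (h : IsAlgebraic (i.comp θ).range (i x)) :
    ∃ P : Polynomial A, P.map θ ≠ 0 ∧ P.eval₂ θ x = 0 := by
  obtain ⟨P', hP', hx⟩ := h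
  obtain ⟨P, hP⟩ := Polynomial.map_surjective (i.comp θ).rangeRestrict
    (i.comp θ).rangeRestrict_surjective P'
  refine ⟨P, fun h0 => hP' ?_, hi ?_⟩
  · have h1 : (P.map θ).map i = 0 := by rw [h0, Polynomial.map_zero]
    rw [Polynomial.map_map] at h1
    have h2 : P'.map (i.comp θ).range.subtype = 0 := by
      rw [← hP, Polynomial.map_map]
      exact h1
    exact (Polynomial.map_eq_zero_iff (Subring.subtype_injective _)).1 h2
  · rw [map_zero, Polynomial.hom_eval₂]
    rw [← hP, Polynomial.aeval_def, Polynomial.eval₂_map] at hx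
    exact hx

/-- algebraic over the field generated by a ring, hence algebraic over the ring -/
theorem alg_closure {L : Type*} [Field L] (R : Subring L) {x : L}
    (h : IsAlgebraic (Subfield.closure (R : Set L)) x) : IsAlgebraic R x := by
  have hle : R ≤ (Subfield.closure (R : Set L)).toSubring := Subfield.subset_closure
  let a : Algebra R (Subfield.closure (R : Set L)) := (Subring.inclusion hle).toAlgebra
  have hmap : ∀ r : R, ((algebraMap R (Subfield.closure (R : Set L)) r :
      Subfield.closure (R : Set L)) : L) = r := fun r => rfl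
  have ht : IsScalarTower R (Subfield.closure (R : Set L)) L :=
    IsScalarTower.of_algebraMap_eq fun r => rfl
  have halg : Algebra.IsAlgebraic R (Subfield.closure (R : Set L)) := by
    refine ⟨fun z => ?_⟩
    obtain ⟨y, hy, w, hw, hyw⟩ := Subfield.mem_closure_iff.1 z.2
    rw [Subring.closure_eq] at hy hw
    have hz : z = algebraMap R (Subfield.closure (R : Set L)) ⟨y, hy⟩ /
        algebraMap R (Subfield.closure (R : Set L)) ⟨w, hw⟩ := by
      apply Subtype.ext
      rw [← hyw]
      rfl
    rw [hz, div_eq_mul_inv]
    exact (isAlgebraic_algebraMap _).mul (isAlgebraic_algebraMap _).inv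
  exact IsAlgebraic.restrictScalars R h

/-- the image of an algebraic element under a field homomorphism -/
theorem alg_image {L : Type*} [Field L] {K : Subfield L} {F : Type*} [Field F] [Algebra K F]
    {K' : Subfield L} (σ : F →+* L) (hσ : ∀ y : K, σ (algebraMap K F y) ∈ K') {x : F}
    (h : IsAlgebraic K x) : IsAlgebraic K' (σ x) := by
  let g : K →+* K' := (σ.comp (algebraMap K F)).codRestrict K' hσ
  have hg : ∀ y, algebraMap K' L (g y) = σ (algebraMap K F y) := fun y => rfl
  obtain ⟨P, hP, hx⟩ := h
  refine ⟨P.map g, ?_, ?_⟩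
  · rw [Ne, Polynomial.map_eq_zero_iff g.injective]
    exact hP
  · rw [Polynomial.aeval_def, Polynomial.eval₂_map]
    rw [Polynomial.aeval_def] at hx
    have h1 : (algebraMap K' L).comp g = σ.comp (algebraMap K F) := RingHom.ext hg
    rw [h1, ← Polynomial.hom_eval₂, hx, map_zero]

end Vale.Agent.P097.H82
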