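import Vale.Agent.P097.H82.Tau
import Vale.Agent.P097.H456.Fct.Defs

/-!
# P097 (helper82): the base field of quotients of periodic analytic functions on `Ω`
-/

set_option linter.unusedSectionVars false

open Filter Topology PowerSeries
open Vale.Agent.P097.H320 Vale.Agent.P097.H435.S10 Vale.Agent.P097.H456 Vale.Agent.P097.H456.Fct

namespace Vale.Agent.P097.H82

/-- a derivation of `L` which preserves `K` preserves every algebraic extension of `K` in `L` -/
theorem der_mem {L : Type*} [Field L] [CharZero L] {K : Subfield L} {D : L → L}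
    (hD : IsDer (RingHom.id L) D) (hK : ∀ x ∈ K, D x ∈ K) (F : IntermediateField K L)
    [Algebra.IsAlgebraic K F] :
    ∃ D' : F → F, IsDer (RingHom.id F) D' ∧ ∀ x : F, ((D' x : F) : L) = D x := by
  have h1 : IsDer ((RingHom.id F).comp (algebraMap K F))
      (fun x : K => algebraMap K F ⟨D x, hK x x.2⟩) := by
    constructor
    · intro a b
      rw [← map_add]
      congr 1
      exact Subtype.ext (hD.add a b)
    · intro a b
      simp only [RingHom.comp_apply, RingHom.id_apply]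
      rw [← map_mul, ← map_mul, ← map_add]
      congr 1
      exact Subtype.ext (hD.mul a b)
  obtain ⟨D', hD', hext⟩ := IsDer.exists_algebraic (K := K) (RingHom.id F) h1
  refine ⟨D', hD', fun x => ?_⟩
  let v : F →+* L := F.val.toRingHom
  have h2 : IsDer v (fun x => v (D' x)) := by
    have := hD'.comp_left v
    rw [RingHom.comp_id] at this
    exact this
  have h3 : IsDer v (fun x => D (v x)) := by
    have := hD.comp_right v
    rw [RingHom.id_comp] at this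
    exact this
  exact h2.eq_of_algebraic (K := K) h3 (fun y => by
    rw [hext]
    rfl) x

section base

variable {Ω : Set (ℂ × ℂ)}

theorem perAn_AR (hΩ : Fct.Dom Ω) {f : ℂ × ℂ → ℂ} (hf : PerAn Ω f) : f ∈ AR := fun t =>
  ⟨hf.1 _ (hΩ.re t), by
    filter_upwards [hΩ.op.mem_nhds (hΩ.re t)] with u hu
    exact hf.2 u hu⟩

theorem perAn_DT (hΩ : Fct.Dom Ω) {f : ℂ × ℂ → ℂ} (hf : PerAn Ω f) : PerAn Ω (DT f) := by
  refine ⟨fun u hu => analyticAt_DT (hf.1 u hu), fun u hu => ?_⟩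
  have h1 : (fun u : ℂ × ℂ => f (u + ((1 : ℂ), (0 : ℂ)))) =ᶠ[𝓝 u] f := by
    filter_upwards [hΩ.op.mem_nhds hu] with v hv
    rw [← hf.2 v hv]
    congr 1
    ext <;> simp
  have h2 := (h1.fderiv (𝕜 := ℂ)).eq_of_nhds
  rw [fderiv_comp_add_right] at h2
  have h3 : ((u.1 + 1, u.2) : ℂ × ℂ) = u + ((1 : ℂ), (0 : ℂ)) := by ext <;> simp
  rw [DT, DT, h3, h2]

theorem perAn_DS (hΩ : Fct.Dom Ω) {f : ℂ × ℂ → ℂ} (hf : PerAn Ω f) : PerAn Ω (DS f) := by
  refine ⟨fun u hu => analyticAt_DS (hf.1 u hu), fun u hu => ?_⟩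
  have h1 : (fun u : ℂ × ℂ => f (u + ((1 : ℂ), (0 : ℂ)))) =ᶠ[𝓝 u] f := by
    filter_upwards [hΩ.op.mem_nhds hu] with v hv
    rw [← hf.2 v hv]
    congr 1
    ext <;> simp
  have h2 := (h1.fderiv (𝕜 := ℂ)).eq_of_nhds
  rw [fderiv_comp_add_right] at h2
  have h3 : ((u.1 + 1, u.2) : ℂ × ℂ) = u + ((1 : ℂ), (0 : ℂ)) := by ext <;> simp
  rw [DS, DS, h3, h2]

/-- identity theorem -/
theorem perAn_zero (hΩ : Fct.Dom Ω) {f : ℂ × ℂ → ℂ} (hf : PerAn Ω f) (h : AR.Nul f) :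
    ∀ u ∈ Ω, f u = 0 :=
  hf.1.eqOn_zero_of_preconnected_of_eventuallyEq_zero hΩ.pc (hΩ.re 0) (h 0)

/-- the subring of `AR` -/
def PA (Ω : Set (ℂ × ℂ)) : Subring AR where
  carrier := {F | PerAn Ω F.1}
  mul_mem' := fun {F G} hF hG => ⟨hF.1.mul hG.1, fun u hu => by
    change F.1 (u.1 + 1, u.2) * G.1 (u.1 + 1, u.2) = F.1 u * G.1 u
    rw [hF.2 u hu, hG.2 u hu]⟩
  one_mem' := ⟨fun u _ => analyticAt_const, fun u _ => rfl⟩
  add_mem' := fun {F G} hF hG => ⟨hF.1.add hG.1, fun u hu => by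
    change F.1 (u.1 + 1, u.2) + G.1 (u.1 + 1, u.2) = F.1 u + G.1 u
    rw [hF.2 u hu, hG.2 u hu]⟩
  zero_mem' := ⟨fun u _ => analyticAt_const, fun u _ => rfl⟩
  neg_mem' := fun {F} hF => ⟨hF.1.neg, fun u hu => by
    change - F.1 (u.1 + 1, u.2) = - F.1 u
    rw [hF.2 u hu]⟩

theorem mem_PA {F : AR} : F ∈ PA Ω ↔ PerAn Ω F.1 := Iff.rfl

variable {k : Type*} [Field k] [CharZero k] [Algebra OP k] {d : k → k}
  {L : Type*} [Field L] [Algebra k⟦X⟧ L] [IsFractionRing k⟦X⟧ L] {Dt Ds : L → L}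

variable (k L) in
/-- the base field -/
noncomputable def KO (Ω : Set (ℂ × ℂ)) : Subfield L :=
  Subfield.closure ((PA Ω).map (TL k L) : Set L)

theorem mem_KO {x : L} : x ∈ KO k L Ω ↔ ∃ F ∈ PA Ω, ∃ G ∈ PA Ω, TL k L F / TL k L G = x := by
  rw [KO, Subfield.mem_closure_iff, Subring.closure_eq]
  constructor
  · rintro ⟨y, ⟨F, hF, rfl⟩, z, ⟨G, hG, rfl⟩, h⟩
    exact ⟨F, hF, G, hG, h⟩
  · rintro ⟨F, hF, G, hG, h⟩
    exact ⟨_, ⟨F, hF, rfl⟩, _, ⟨G, hG, rfl⟩, h⟩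

theorem TL_mem {F : AR} (hF : F ∈ PA Ω) : TL k L F ∈ KO k L Ω :=
  Subfield.subset_closure ⟨F, hF, rfl⟩

theorem KO_Dt (W : World k d L Dt Ds) (hΩ : Fct.Dom Ω) : ∀ x ∈ KO k L Ω, Dt x ∈ KO k L Ω := by
  intro x hx
  obtain ⟨F, hF, G, hG, rfl⟩ := mem_KO.1 hx
  by_cases h0 : TL k L G = 0
  · rw [h0, div_zero, W.t_der.zero]
    exact zero_mem _
  · rw [W.t_der.div _ h0, Dt_TL W, Dt_TL W]
    simp only [RingHom.id_apply]
    have h1 : AR.dT F ∈ PA Ω := perAn_DT hΩ hF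
    have h2 : AR.dT G ∈ PA Ω := perAn_DT hΩ hG
    exact div_mem (sub_mem (mul_mem (TL_mem h1) (TL_mem hG)) (mul_mem (TL_mem hF) (TL_mem h2)))
      (pow_mem (TL_mem hG) 2)

theorem KO_Ds (W : World k d L Dt Ds) (hΩ : Fct.Dom Ω) : ∀ x ∈ KO k L Ω, Ds x ∈ KO k L Ω := by
  intro x hx
  obtain ⟨F, hF, G, hG, rfl⟩ := mem_KO.1 hx
  by_cases h0 : TL k L G = 0
  · rw [h0, div_zero, W.s_der.zero]
    exact zero_mem _
  · rw [W.s_der.div _ h0, Ds_TL W, Ds_TL W]
    simp only [RingHom.id_apply]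
    have h1 : AR.dS F ∈ PA Ω := perAn_DS hΩ hF
    have h2 : AR.dS G ∈ PA Ω := perAn_DS hΩ hG
    exact div_mem (sub_mem (mul_mem (TL_mem h1) (TL_mem hG)) (mul_mem (TL_mem hF) (TL_mem h2)))
      (pow_mem (TL_mem hG) 2)

/-- an element of `AR` whose Taylor series is in the base field is a quotient on `Ω` -/
theorem quoOn_of_mem (W : World k d L Dt Ds) (hΩ : Fct.Dom Ω) {F : AR} (h : TL k L F ∈ KO k L Ω) :
    QuoOn Ω F.1 := by
  obtain ⟨A, hA, B, hB, hAB⟩ := mem_KO.1 h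
  by_cases h0 : TL k L B = 0
  · rw [h0, div_zero] at hAB
    have h1 := (TL_eq_zero_iff W F).1 hAB.symm
    refine ⟨fun _ => 0, fun _ => 1, ⟨fun _ _ => analyticAt_const, fun _ _ => rfl⟩,
      ⟨fun _ _ => analyticAt_const, fun _ _ => rfl⟩, ⟨_, hΩ.re 0, one_ne_zero⟩, fun t => ?_⟩
    filter_upwards [h1 t] with u hu
    rw [hu, mul_zero]
  · refine ⟨A.1, B.1, hA, hB, ?_, ?_⟩
    · by_contra hcon
      push Not at hcon
      apply h0
      rw [TL_eq_zero_iff W]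
      intro t
      filter_upwards [hΩ.op.mem_nhds (hΩ.re t)] with u hu
      exact hcon u hu
    · have h1 : TL k L (B * F) = TL k L A := by
        rw [map_mul, ← hAB]
        field_simp
      exact (TL_eq_iff W _ _).1 h1

theorem sum_val (s : Finset ℕ) (f : ℕ → AR) (u : ℂ × ℂ) :
    (∑ i ∈ s, f i : AR).1 u = ∑ i ∈ s, (f i).1 u := by
  classical
  induction s using Finset.induction_on with
  | empty => rfl
  | insert a s ha ih =>
    rw [Finset.sum_insert ha, Finset.sum_insert ha, ← ih]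
    rfl

/-- an algebraic function is algebraic over the base field -/
theorem algebraic_of_algOn (W : World k d L Dt Ds) (hΩ : Fct.Dom Ω) {F : AR} (h : AlgOn Ω F.1) :
    IsAlgebraic (KO k L Ω) (TL k L F) := by
  obtain ⟨m, c, hc, ⟨i0, hi0, u0, hu0, hne⟩, hrel⟩ := h
  let C : ℕ → AR := fun i => ⟨c i, perAn_AR hΩ (hc i)⟩
  have hC : ∀ i, C i ∈ PA Ω := hc
  let P : Polynomial (KO k L Ω) :=
    ∑ i ∈ Finset.range (m + 1), Polynomial.monomial i (⟨TL k L (C i), TL_mem (hC i)⟩ : KO k L Ω)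
  refine ⟨P, ?_, ?_⟩
  · intro hP
    have h1 : P.coeff i0 = ⟨TL k L (C i0), TL_mem (hC i0)⟩ := by
      simp only [P, Polynomial.finsetSum_coeff, Polynomial.coeff_monomial]
      rw [Finset.sum_eq_single i0]
      · rw [if_pos rfl]
      · intro b _ hb
        rw [if_neg hb]
      · intro hh
        exact absurd (Finset.mem_range.2 (by omega)) hh
    rw [hP, Polynomial.coeff_zero] at h1
    have h2 : TL k L (C i0) = 0 := (congrArg Subtype.val h1).symm
    exact hne (perAn_zero hΩ (hc i0) ((TL_eq_zero_iff W _).1 h2) u0 hu0)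
  · have h1 : TL k L (∑ i ∈ Finset.range (m + 1), C i * F ^ i) = 0 := by
      rw [TL_eq_zero_iff W]
      intro t
      filter_upwards [hrel t] with u hu
      rw [sum_val]
      exact hu
    simp only [P, map_sum, Polynomial.aeval_monomial]
    rw [map_sum] at h1
    rw [← h1]
    refine Finset.sum_congr rfl fun i _ => ?_
    rw [map_mul, map_pow]
    rfl

end base

end Vale.Agent.P097.H82
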