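import Vale.Agent.P097.H82.StarS
import Vale.Agent.P097.H320.PerD

/-!
# P097 (helper82): the concrete fields
-/

set_option linter.unusedSectionVars false
set_option linter.all false

open Filter Topology PowerSeries
open Vale.Agent.P097.H320 Vale.Agent.P097.H435.S10 Vale.Agent.P097.H456 Vale.Agent.P097.H456.Fct
open Vale.Agent.P097.TA Vale.Agent.P097.H202

namespace Vale.Agent.P097.H82

/-- quotients of periodic functions -/
abbrev MM : Type := FractionRing OP

instance : CharZero OP := ⟨fun m n h => by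
  have h1 := OP_int (m : ℤ) 0
  have h2 := OP_int (n : ℤ) 0
  rw [Int.cast_natCast] at h1 h2
  rw [h, h2] at h1
  exact_mod_cast h1.symm⟩

instance : CharZero MM := charZero_of_injective_algebraMap (IsFractionRing.injective OP MM)

/-- constants -/
abbrev KK : Type := AlgebraicClosure MM

/-- Laurent series -/
abbrev LL : Type := FractionRing KK⟦X⟧

instance : CharZero KK := charZero_of_injective_algebraMap (algebraMap MM KK).injective

theorem tower : (algebraMap OP KK) = (algebraMap MM KK).comp (algebraMap OP MM) :=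
  IsScalarTower.algebraMap_eq OP MM KK

/-- the concrete world -/
theorem exists_world : ∃ (d0 : MM → MM) (d : KK → KK) (Dt Ds : LL → LL),
    IsDer (RingHom.id MM) d0 ∧ (∀ f : OP, d0 (algebraMap OP MM f) = algebraMap OP MM (OP.D f)) ∧
    (∀ x : MM, d (algebraMap MM KK x) = algebraMap MM KK (d0 x)) ∧ World KK d LL Dt Ds := by
  have h1 : IsDer ((RingHom.id MM).comp (algebraMap OP MM))
      (fun f : OP => algebraMap OP MM (OP.D f)) := by
    have := OP.D_isDer.comp_left (algebraMap OP MM)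
    rw [RingHom.comp_id] at this
    rw [RingHom.id_comp]
    exact this
  obtain ⟨d0, hd0, hd0'⟩ := IsDer.exists_frac (RingHom.id MM) h1
  have h2 : IsDer ((RingHom.id KK).comp (algebraMap MM KK))
      (fun x : MM => algebraMap MM KK (d0 x)) := by
    have := hd0.comp_left (algebraMap MM KK)
    rw [RingHom.comp_id] at this
    rw [RingHom.id_comp]
    exact this
  obtain ⟨d, hd, hd'⟩ := IsDer.exists_algebraic (RingHom.id KK) h2
  obtain ⟨Dt, Ds, hD⟩ := exists_ders KK d hd LL
  refine ⟨d0, d, Dt, Ds, hd0, hd0', hd', { toDers := hD, inj := ?_, dO := ?_ }⟩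
  · rw [tower]
    exact (algebraMap MM KK).injective.comp (IsFractionRing.injective OP MM)
  · intro f
    rw [tower, RingHom.comp_apply, RingHom.comp_apply, hd', hd0']

variable {κ Λ : ℝ} {H Φ : ℂ → ℂ} {r ε : ℝ} {α p : ℂ → ℂ → ℂ} {J : ℂ → ℂ}

/-- the perimeter -/
theorem hex_conc (T : Ctx κ Λ H Φ r ε α p J) {d0 : MM → MM} {d : KK → KK} {Dt Ds : LL → LL}
    (h0 : IsDer (RingHom.id MM) d0)
    (h0' : ∀ f : OP, d0 (algebraMap OP MM f) = algebraMap OP MM (OP.D f))
    (h1 : ∀ x : MM, d (algebraMap MM KK x) = algebraMap MM KK (d0 x)) (W : World KK d LL Dt Ds)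
    (G : KK) : om d (algebraMap OP KK (AR.cfO (eA T 0) 0)) (algebraMap OP KK (AR.cfO (mA T 0) 0)) ≠
      d G := by
  obtain ⟨h, ρ, L', HH, lam, l, φ, ld⟩ := T.ld
  have hα : ∀ x : ℝ, α (x : ℂ) 0 = φ x := by
    intro x
    have := T.ln.αzero x (by simpa using T.ln.hr)
    rw [this, ld.Φr]
  have hp : ∀ x : ℝ, p (x : ℂ) 0 = h (φ x) := by
    intro x
    have := T.ln.pzero x (by simpa using T.ln.hr)
    rw [this, ld.Φr, ld.Hr]
  have e1 : AR.cfO (eA T 0) 0 = tanE Complex.I φ ld.aφ ld.φp := by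
    refine OP.ext' fun x => ?_
    rw [cfO_zero, tanE_apply]
    change Complex.I * Complex.exp (Complex.I * zn α 0 ((x : ℂ), 0)) = _
    rw [zn_zero, hα, mul_comm Complex.I (φ x : ℂ)]
  have e2 : AR.cfO (mA T 0) 0 = tanM ld.tab φ ld.aφ ld.φp := by
    refine OP.ext' fun x => ?_
    rw [cfO_zero, tanM_apply]
    change 2 * zn p 0 ((x : ℂ), 0) * Complex.exp (Complex.I * zn α 0 ((x : ℂ), 0)) = _
    rw [zn_zero, zn_zero, hα, hp, mul_comm Complex.I (φ x : ℂ)]
  rw [e1, e2, tower, RingHom.comp_apply, RingHom.comp_apply]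
  exact hex ld.tab ld.aφ ld.φp Complex.I_ne_zero W.d_der h0 h1 h0' G

end Vale.Agent.P097.H82
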