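import Mathlib

/-!
# P097 (helper82): derivations along a ring homomorphism, extension to fraction fields and to
algebraic extensions in characteristic zero.
-/

open Polynomial

namespace Vale.Agent.P097.H82

/-- `D` is a derivation along the ring homomorphism `f`. -/
structure IsDer {A B : Type*} [CommRing A] [CommRing B] (f : A →+* B) (D : A → B) : Prop where
  add : ∀ a b, D (a + b) = D a + D b
  mul : ∀ a b, D (a * b) = f a * D b + f b * D a

namespace IsDer

section ring

variable {A B C : Type*} [CommRing A] [CommRing B] [CommRing C] {f : A →+* B} {D D' : A → B}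

theorem zero (h : IsDer f D) : D 0 = 0 := by
  have := h.add 0 0
  rw [add_zero] at this
  simpa using this

theorem one (h : IsDer f D) : D 1 = 0 := by
  have := h.mul 1 1
  rw [mul_one, map_one, one_mul] at this
  simpa using this

theorem neg (h : IsDer f D) (a : A) : D (-a) = - D a := by
  have h1 := h.add a (-a)
  rw [add_neg_cancel, h.zero] at h1
  linear_combination -h1

theorem sub (h : IsDer f D) (a b : A) : D (a - b) = D a - D b := by
  rw [sub_eq_add_neg, h.add, h.neg, ← sub_eq_add_neg]

theorem natCast (h : IsDer f D) (n : ℕ) : D (n : A) = 0 := by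
  induction n with
  | zero => simpa using h.zero
  | succ n ih => rw [Nat.cast_succ, h.add, ih, h.one, add_zero]

theorem pow (h : IsDer f D) (a : A) (n : ℕ) : D (a ^ n) = n * f a ^ (n - 1) * D a := by
  induction n with
  | zero => simpa using h.one
  | succ n ih =>
    rw [pow_succ, h.mul, ih]
    rcases n with _ | n
    · simp
    · simp only [Nat.add_sub_cancel, map_pow, Nat.cast_add, Nat.cast_one]
      ring

theorem sum (h : IsDer f D) {ι : Type*} (s : Finset ι) (g : ι → A) :
    D (∑ i ∈ s, g i) = ∑ i ∈ s, D (g i) := by
  classical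
  induction s using Finset.induction_on with
  | empty => simpa using h.zero
  | insert a s ha ih => rw [Finset.sum_insert ha, Finset.sum_insert ha, h.add, ih]

theorem comp_right (h : IsDer f D) (g : C →+* A) : IsDer (f.comp g) (D ∘ g) where
  add a b := by simp [h.add]
  mul a b := by simp [h.mul]

theorem comp_left (h : IsDer f D) (g : B →+* C) : IsDer (g.comp f) (g ∘ D) where
  add a b := by simp [h.add]
  mul a b := by simp [h.mul]

theorem add' (h : IsDer f D) (h' : IsDer f D') : IsDer f (fun a => D a + D' a) where
  add a b := by rw [h.add, h'.add]; ring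
  mul a b := by rw [h.mul, h'.mul]; ring

theorem sub' (h : IsDer f D) (h' : IsDer f D') : IsDer f (fun a => D a - D' a) where
  add a b := by rw [h.add, h'.add]; ring
  mul a b := by rw [h.mul, h'.mul]; ring

theorem smul (h : IsDer f D) (c : B) : IsDer f (fun a => c * D a) where
  add a b := by rw [h.add]; ring
  mul a b := by rw [h.mul]; ring

/-- a derivation which vanishes on a base ring, evaluated at a polynomial expression -/
theorem aeval {K : Type*} [CommRing K] [Algebra K A] (h : IsDer f D)
    (h0 : ∀ x : K, D (algebraMap K A x) = 0) (P : K[X]) (a : A) :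
    D (Polynomial.aeval a P) = f (Polynomial.aeval a (derivative P)) * D a := by
  induction P using Polynomial.induction_on' with
  | add p q hp hq => rw [map_add, h.add, hp, hq, derivative_add, map_add, map_add]; ring
  | monomial n c =>
    rw [aeval_monomial, h.mul, h0, h.pow, derivative_monomial, aeval_monomial]
    simp only [map_mul, map_natCast, map_pow]
    ring

end ring

section field

variable {F E : Type*} [Field F] [Field E] {f : F →+* E} {D D' : F → E}

theorem inv (h : IsDer f D) {a : F} (ha : a ≠ 0) : D a⁻¹ = - D a / f a ^ 2 := by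
  have h1 := h.mul a a⁻¹
  rw [mul_inv_cancel₀ ha, h.one] at h1
  have h2 : f a ≠ 0 := (map_ne_zero f).2 ha
  rw [map_inv₀] at h1
  field_simp at h1 ⊢
  linear_combination -h1

theorem div (h : IsDer f D) (a : F) {b : F} (hb : b ≠ 0) :
    D (a / b) = (D a * f b - f a * D b) / f b ^ 2 := by
  rw [div_eq_mul_inv, h.mul, h.inv hb, map_inv₀]
  have h2 : f b ≠ 0 := (map_ne_zero f).2 hb
  field_simp
  ring

/-- Lemma U: a derivation vanishing on the base field of an algebraic extension is zero. -/
theorem eq_zero_of_algebraic {K : Type*} [Field K] [Algebra K F] [CharZero K]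
    [Algebra.IsAlgebraic K F] (h : IsDer f D) (h0 : ∀ x : K, D (algebraMap K F x) = 0) (a : F) :
    D a = 0 := by
  have hi : IsIntegral K a := Algebra.IsIntegral.isIntegral a
  have h1 := h.aeval h0 (minpoly K a) a
  rw [minpoly.aeval, h.zero] at h1
  have hsep : (minpoly K a).Separable := (minpoly.irreducible hi).separable
  have h2 : Polynomial.aeval a (derivative (minpoly K a)) ≠ 0 :=
    hsep.aeval_derivative_ne_zero (minpoly.aeval K a)
  have h3 : f (Polynomial.aeval a (derivative (minpoly K a))) ≠ 0 := (map_ne_zero f).2 h2
  exact (mul_eq_zero.1 h1.symm).resolve_left h3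

theorem eq_of_algebraic {K : Type*} [Field K] [Algebra K F] [CharZero K]
    [Algebra.IsAlgebraic K F] (h : IsDer f D) (h' : IsDer f D')
    (h0 : ∀ x : K, D (algebraMap K F x) = D' (algebraMap K F x)) (a : F) :
    D a = D' a := by
  have := (h.sub' h').eq_zero_of_algebraic (K := K) (fun x => by simp [h0 x]) a
  exact sub_eq_zero.1 this

end field

/-! ### existence of extensions -/

section ext

open TrivSqZeroExt

/-- the ring homomorphism to the dual numbers given by a derivation along `f` -/
noncomputable def toDual {A B : Type*} [CommRing A] [CommRing B] {f : A →+* B} {D : A → B}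
    (h : IsDer f D) : A →+* TrivSqZeroExt B B where
  toFun a := inl (f a) + inr (D a)
  map_one' := by rw [h.one, map_one]; simp
  map_mul' a b := by
    ext
    · simp
    · simp [h.mul, mul_comm, add_comm]
  map_zero' := by rw [h.zero, map_zero]; simp
  map_add' a b := by
    ext
    · simp
    · simp [h.add]

theorem fst_toDual {A B : Type*} [CommRing A] [CommRing B] {f : A →+* B} {D : A → B}
    (h : IsDer f D) (a : A) : (h.toDual a).fst = f a := by simp [toDual]

theorem snd_toDual {A B : Type*} [CommRing A] [CommRing B] {f : A →+* B} {D : A → B}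
    (h : IsDer f D) (a : A) : (h.toDual a).snd = D a := by simp [toDual]

/-- a ring homomorphism to the dual numbers gives a derivation -/
theorem of_dual {A B : Type*} [CommRing A] [CommRing B] (g : A →+* TrivSqZeroExt B B) (f : A →+* B)
    (hf : ∀ a, (g a).fst = f a) : IsDer f (fun a => (g a).snd) where
  add a b := by simp
  mul a b := by simp [hf, mul_comm]

/-- extension to the fraction field (or any localization inverted in the target) -/
theorem exists_frac {A K E : Type*} [CommRing A] [IsDomain A] [Field K] [Algebra A K]
    [IsFractionRing A K] [Field E] (f : K →+* E) {D : A → E}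
    (h : IsDer (f.comp (algebraMap A K)) D) :
    ∃ D' : K → E, IsDer f D' ∧ ∀ a, D' (algebraMap A K a) = D a := by
  have hu : ∀ y : nonZeroDivisors A, IsUnit (h.toDual y) := by
    intro y
    rw [isUnit_iff_isUnit_fst, fst_toDual, isUnit_iff_ne_zero, RingHom.comp_apply, Ne,
      map_eq_zero]
    exact IsFractionRing.to_map_ne_zero_of_mem_nonZeroDivisors y.2
  let g : K →+* TrivSqZeroExt E E := IsLocalization.lift hu
  have hg : ∀ a, g (algebraMap A K a) = h.toDual a := fun a => IsLocalization.lift_eq hu a
  have hfst : ∀ x : K, (g x).fst = f x := by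
    have h1 : (TrivSqZeroExt.fstHom E E E).toRingHom.comp g = f := by
      refine IsLocalization.ringHom_ext (nonZeroDivisors A) ?_
      ext a
      simp only [RingHom.comp_apply, hg]
      exact fst_toDual h a
    intro x
    exact congrArg (fun φ : K →+* E => φ x) h1
  refine ⟨fun a => (g a).snd, of_dual g f hfst, fun a => ?_⟩
  simp only [hg]
  exact snd_toDual h a

/-- the dual numbers, without algebra structure -/
def DD (E : Type*) [CommRing E] := TrivSqZeroExt E E

noncomputable instance (E : Type*) [CommRing E] : CommRing (DD E) :=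
  inferInstanceAs (CommRing (TrivSqZeroExt E E))

/-- first component -/
noncomputable def DD.fst (E : Type*) [CommRing E] : DD E →+* E :=
  (TrivSqZeroExt.fstHom E E E).toRingHom

theorem DD.fst_surj (E : Type*) [CommRing E] : Function.Surjective (DD.fst E) :=
  fun x => ⟨(inl x : TrivSqZeroExt E E), rfl⟩

theorem DD.ker_nil (E : Type*) [CommRing E] : IsNilpotent (RingHom.ker (DD.fst E)) := by
  refine ⟨2, ?_⟩
  rw [Ideal.zero_eq_bot, eq_bot_iff, pow_two, Ideal.mul_le]
  intro a ha b hb
  have h1 : TrivSqZeroExt.fst (R := E) (M := E) a = 0 := by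
    exact (RingHom.mem_ker).1 ha
  have h2 : TrivSqZeroExt.fst (R := E) (M := E) b = 0 := by
    exact (RingHom.mem_ker).1 hb
  rw [Ideal.mem_bot]
  refine TrivSqZeroExt.ext (R := E) (M := E) ?_ ?_
  · change TrivSqZeroExt.fst (R := E) (M := E) a * TrivSqZeroExt.fst (R := E) (M := E) b = 0
    rw [h1, zero_mul]
  · change TrivSqZeroExt.fst (R := E) (M := E) a • TrivSqZeroExt.snd (R := E) (M := E) b +
      MulOpposite.op (TrivSqZeroExt.fst (R := E) (M := E) b) •
        TrivSqZeroExt.snd (R := E) (M := E) a = 0
    rw [h1, h2]
    simp

/-- extension of a derivation to an algebraic extension in characteristic zero -/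
theorem exists_algebraic {K F E : Type*} [Field K] [Field F] [Algebra K F] [CharZero K]
    [Algebra.IsAlgebraic K F] [Field E] (f : F →+* E) {D : K → E}
    (h : IsDer (f.comp (algebraMap K F)) D) :
    ∃ D' : F → E, IsDer f D' ∧ ∀ a, D' (algebraMap K F a) = D a := by
  let a1 : Algebra K E := (f.comp (algebraMap K F)).toAlgebra
  let a2 : Algebra K (DD E) := (show K →+* DD E from h.toDual).toAlgebra
  have hs : Algebra.FormallyEtale K F := Algebra.FormallyEtale.of_isSeparable K F
  let fA : F →ₐ[K] E := { f with commutes' := fun r => rfl }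
  let gA : DD E →ₐ[K] E := { DD.fst E with commutes' := fun r => fst_toDual h r }
  let φ : F →ₐ[K] DD E := Algebra.FormallySmooth.liftOfSurjective fA gA (DD.fst_surj E)
    (DD.ker_nil E)
  have hφ : ∀ x, gA (φ x) = fA x :=
    Algebra.FormallySmooth.liftOfSurjective_apply fA gA (DD.fst_surj E) (DD.ker_nil E)
  let g : F →+* TrivSqZeroExt E E := φ.toRingHom
  refine ⟨fun a => (g a).snd, of_dual g f (fun a => hφ a), fun a => ?_⟩
  have h1 : φ (algebraMap K F a) = algebraMap K (DD E) a := φ.commutes a
  change TrivSqZeroExt.snd (R := E) (M := E) (φ (algebraMap K F a)) = D a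
  rw [h1]
  exact snd_toDual h a

end ext

end IsDer

end Vale.Agent.P097.H82
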