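import Vale.Agent.P097.H82.Puiseux
import Vale.Agent.P097.H82.Reg

/-!
# P097 (helper82): a second embedding of a finite extension into Puiseux series
-/

open PowerSeries

set_option linter.unusedSectionVars false

namespace Vale.Agent.P097.H82

variable {κ : Type*} [Field κ] {L : Type*} [Field L] [Algebra κ⟦X⟧ L] [IsFractionRing κ⟦X⟧ L]


theorem expand_injective (N : ℕ) (hN : N ≠ 0) :
    Function.Injective (PowerSeries.expand (R := κ) N hN).toRingHom := by
  intro f g h
  ext n
  have h1 := congrArg (coeff (N * n)) (show PowerSeries.expand N hN f = PowerSeries.expand N hN g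
    from h)
  rwa [coeff_expand_mul, coeff_expand_mul] at h1

variable (κ L)

/-- the map `s ↦ s ^ N` on the field of fractions -/
noncomputable def expL (N : ℕ) (hN : N ≠ 0) : L →+* L :=
  IsFractionRing.map (A := κ⟦X⟧) (B := κ⟦X⟧) (K := L) (L := L) (expand_injective (κ := κ) N hN)

variable {κ L}

@[simp] theorem expL_alg (N : ℕ) (hN : N ≠ 0) (f : κ⟦X⟧) :
    expL κ L N hN (algebraMap κ⟦X⟧ L f) = algebraMap κ⟦X⟧ L (PowerSeries.expand N hN f) := by
  simp [expL, IsFractionRing.map]

theorem ct_expand {d : κ → κ} (hd : IsDer (RingHom.id κ) d) (N : ℕ) (hN : N ≠ 0) (f : κ⟦X⟧) :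
    ct d (PowerSeries.expand N hN f) = PowerSeries.expand N hN (ct d f) := by
  ext n
  rw [coeff_ct, coeff_expand, coeff_expand]
  split_ifs with h
  · rw [coeff_ct]
  · exact hd.zero

theorem derivative_expand (N : ℕ) (hN : N ≠ 0) (f : κ⟦X⟧) :
    d⁄dX κ (PowerSeries.expand N hN f) =
      (N : κ⟦X⟧) * X ^ (N - 1) * PowerSeries.expand N hN (d⁄dX κ f) := by
  have h1 : (N : κ⟦X⟧) = C (N : κ) := by simp
  ext n
  rw [coeff_derivative, coeff_expand, h1, mul_assoc, coeff_C_mul, coeff_X_pow_mul', coeff_expand]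
  by_cases hd : N ∣ n + 1
  · obtain ⟨c, hc⟩ := hd
    have hc0 : c ≠ 0 := by
      rintro rfl
      simp at hc
    obtain ⟨c, rfl⟩ : ∃ l, c = l + 1 := ⟨c - 1, by omega⟩
    have h2 : N ≤ n + 1 := by rw [hc]; exact Nat.le_mul_of_pos_right N (by omega)
    have h3 : N - 1 ≤ n := by omega
    have h4 : n - (N - 1) = N * c := by
      have h5 : N * (c + 1) = N * c + N := by ring
      omega
    have hNpos : 0 < N := Nat.pos_of_ne_zero hN
    rw [if_pos ⟨c + 1, hc⟩, if_pos h3, h4, if_pos (dvd_mul_right N c), hc,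
      Nat.mul_div_cancel_left _ hNpos, Nat.mul_div_cancel_left _ hNpos, coeff_derivative]
    have h6 : (n : κ) + 1 = N * (c + 1) := by
      have := congrArg (Nat.cast : ℕ → κ) hc
      push_cast at this
      exact this
    rw [h6]
    ring
  · rw [if_neg hd, zero_mul]
    split_ifs with h2 h3
    · exfalso
      apply hd
      obtain ⟨c, hc⟩ := h3
      refine ⟨c + 1, ?_⟩
      have h5 : N * (c + 1) = N * c + N := by ring
      have hNpos : 0 < N := Nat.pos_of_ne_zero hN
      omega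
    · simp
    · simp

theorem Dt_expL {d : κ → κ} {Dt Ds : L → L} (hD : Ders κ d L Dt Ds) (N : ℕ) (hN : N ≠ 0) (x : L) :
    Dt (expL κ L N hN x) = expL κ L N hN (Dt x) := by
  obtain ⟨a, b, hb, rfl⟩ := IsFractionRing.div_surjective (A := κ⟦X⟧) x
  have hb0 : algebraMap κ⟦X⟧ L b ≠ 0 := IsFractionRing.to_map_ne_zero_of_mem_nonZeroDivisors hb
  have hb1 : expL κ L N hN (algebraMap κ⟦X⟧ L b) ≠ 0 := (map_ne_zero _).2 hb0
  rw [map_div₀, hD.t_der.div _ hb1, hD.t_der.div _ hb0]
  simp only [RingHom.id_apply, map_div₀, map_sub, map_mul, map_pow, expL_alg, hD.t_alg,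
    ct_expand hD.d_der]

theorem Ds_expL [CharZero κ] {d : κ → κ} {Dt Ds : L → L} (hD : Ders κ d L Dt Ds) (N : ℕ)
    (hN : N ≠ 0) (x : L) :
    Ds (expL κ L N hN x) = algebraMap κ⟦X⟧ L ((N : κ⟦X⟧) * X ^ (N - 1)) * expL κ L N hN (Ds x) := by
  obtain ⟨a, b, hb, rfl⟩ := IsFractionRing.div_surjective (A := κ⟦X⟧) x
  have hb0 : algebraMap κ⟦X⟧ L b ≠ 0 := IsFractionRing.to_map_ne_zero_of_mem_nonZeroDivisors hb
  have hb1 : expL κ L N hN (algebraMap κ⟦X⟧ L b) ≠ 0 := (map_ne_zero _).2 hb0
  rw [map_div₀, hD.s_der.div _ hb1, hD.s_der.div _ hb0]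
  simp only [RingHom.id_apply, map_div₀, map_sub, map_mul, map_pow, expL_alg, hD.s_alg,
    derivative_expand]
  rw [expL_alg] at hb1
  field_simp

/-- Newton-Puiseux over the field of fractions -/
theorem splits_expL [IsAlgClosed κ] [CharZero κ] (P : Polynomial L) (hP : P.Monic) :
    ∃ N : ℕ, ∃ hN : N ≠ 0, (P.map (expL κ L N hN)).Splits := by
  have hlift := IsLocalization.scaleRoots_commonDenom_mem_lifts (nonZeroDivisors κ⟦X⟧) P
    ⟨1, by rw [hP.leadingCoeff, map_one]⟩
  set b : nonZeroDivisors κ⟦X⟧ :=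
    IsLocalization.commonDenom (nonZeroDivisors κ⟦X⟧) P.support P.coeff with hb
  obtain ⟨Q, hQ, -, hQm⟩ := Polynomial.lifts_and_natDegree_eq_and_monic hlift
    ((Polynomial.monic_scaleRoots_iff _).2 hP)
  have hbL : algebraMap κ⟦X⟧ L (b : κ⟦X⟧) ≠ 0 := IsFractionRing.to_map_ne_zero_of_mem_nonZeroDivisors b.2
  obtain ⟨N, hN, β, hβ⟩ := exists_puiseux Q hQm
  refine ⟨N, hN, ?_⟩
  have h1 : (Q.map (algebraMap κ⟦X⟧ L)).map (expL κ L N hN) =
      ((β.map (algebraMap κ⟦X⟧ L)).map fun x => Polynomial.X - Polynomial.C x).prod := by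
    have h2 : (Q.map (algebraMap κ⟦X⟧ L)).map (expL κ L N hN) =
        (Q.map (PowerSeries.expand N hN : κ⟦X⟧ →ₐ[κ] κ⟦X⟧).toRingHom).map (algebraMap κ⟦X⟧ L) := by
      rw [Polynomial.map_map, Polynomial.map_map]
      congr 1
      ext1 x
      exact expL_alg N hN x
    rw [h2, hβ, Polynomial.map_multiset_prod, Multiset.map_map, Multiset.map_map]
    congr 1
    refine Multiset.map_congr rfl fun x _ => ?_
    simp
  have h3 : ((Q.map (algebraMap κ⟦X⟧ L)).map (expL κ L N hN)).Splits := by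
    rw [h1]
    refine Polynomial.Splits.multisetProd fun f hf => ?_
    obtain ⟨x, _, rfl⟩ := Multiset.mem_map.1 hf
    exact Polynomial.Splits.X_sub_C x
  rw [hQ, Polynomial.map_scaleRoots _ _ _ (by rw [hP.leadingCoeff, map_one]; exact one_ne_zero)]
    at h3
  have hb2 : expL κ L N hN (algebraMap κ⟦X⟧ L b) ≠ 0 := (map_ne_zero _).2 hbL
  have h4 := h3.scaleRoots (expL κ L N hN (algebraMap κ⟦X⟧ L b))⁻¹
  rwa [← Polynomial.scaleRoots_mul, mul_inv_cancel₀ hb2, Polynomial.scaleRoots_one] at h4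

/-- **A second embedding.** A finite extension `F / K` of degree `> 1`, embedded in
`L = Frac κ⟦w⟧`, has a second `K`-embedding into `L` after `w = s ^ N`. -/
theorem exists_second_embedding [IsAlgClosed κ] [CharZero κ] {K F : Type*} [Field K] [Field F]
    [Algebra K F] [FiniteDimensional K F] [CharZero K] (hne : 1 < Module.finrank K F)
    (j : F →+* L) :
    ∃ N : ℕ, ∃ hN : N ≠ 0, ∃ σ : F →+* L,
      (∀ x : K, σ (algebraMap K F x) = expL κ L N hN (j (algebraMap K F x))) ∧
      σ ≠ (expL κ L N hN).comp j := by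
  classical
  set pb : PowerBasis K F := Field.powerBasisOfFiniteOfSeparable K F with hpb
  set P : Polynomial K := minpoly K pb.gen with hPdef
  have hint : IsIntegral K pb.gen := Algebra.IsIntegral.isIntegral _
  have hPm : P.Monic := minpoly.monic hint
  have hPd : P.natDegree = Module.finrank K F := by
    rw [hPdef, pb.natDegree_minpoly, pb.finrank]
  have hsep : P.Separable := (minpoly.irreducible hint).separable
  obtain ⟨N, hN, hs⟩ := splits_expL (κ := κ) (P.map (j.comp (algebraMap K F))) (hPm.map _)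
  set g : K →+* L := ((expL κ L N hN).comp j).comp (algebraMap K F) with hg
  have hPg : (P.map (j.comp (algebraMap K F))).map (expL κ L N hN) = P.map g := by
    rw [Polynomial.map_map]
    rfl
  rw [hPg] at hs
  -- the natural root and another root
  set y0 : L := expL κ L N hN (j pb.gen) with hy0
  have hcard : (P.map g).roots.card = Module.finrank K F := by
    rw [← hs.natDegree_eq_card_roots, hPm.natDegree_map, hPd]
  have hnd : (P.map g).roots.Nodup := Polynomial.nodup_roots hsep.map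
  obtain ⟨y, hy, hyne⟩ : ∃ y ∈ (P.map g).roots, y ≠ y0 := by
    by_contra hcon
    push Not at hcon
    have h1 : (P.map g).roots = Multiset.replicate (Module.finrank K F) y0 :=
      Multiset.eq_replicate.2 ⟨hcard, hcon⟩
    rw [h1, Multiset.nodup_iff_count_le_one] at hnd
    have h2 := hnd y0
    rw [Multiset.count_replicate_self] at h2
    omega
  let aK : Algebra K L := g.toAlgebra
  have hroot : Polynomial.aeval y P = 0 := by
    have h1 := (Polynomial.mem_roots (hPm.map g).ne_zero).1 hy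
    rw [Polynomial.IsRoot.def, Polynomial.eval_map] at h1
    exact h1
  let σ : F →ₐ[K] L := pb.lift y hroot
  refine ⟨N, hN, σ.toRingHom, fun x => σ.commutes x, fun h => hyne ?_⟩
  have h1 : σ pb.gen = y := pb.lift_gen y hroot
  rw [← h1]
  exact congrArg (fun φ : F →+* L => φ pb.gen) h

/-- The second embedding respects the derivations. -/
theorem second_embedding_der [CharZero κ] {d : κ → κ} {Dt Ds : L → L} (hD : Ders κ d L Dt Ds)
    {K F : Type*} [Field K] [Field F] [Algebra K F] [Algebra.IsAlgebraic K F] [CharZero K]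
    {N : ℕ} {hN : N ≠ 0} {j σ : F →+* L}
    (hσ : ∀ x : K, σ (algebraMap K F x) = expL κ L N hN (j (algebraMap K F x)))
    {dt dw : F → F} (hdt : IsDer (RingHom.id F) dt) (hdw : IsDer (RingHom.id F) dw)
    (hjt : ∀ x, j (dt x) = Dt (j x)) (hjw : ∀ x, j (dw x) = Ds (j x))
    (hKt : ∀ x : K, ∃ y : K, dt (algebraMap K F x) = algebraMap K F y)
    (hKw : ∀ x : K, ∃ y : K, dw (algebraMap K F x) = algebraMap K F y) :
    (∀ x, Dt (σ x) = σ (dt x)) ∧
      ∀ x, Ds (σ x) = algebraMap κ⟦X⟧ L ((N : κ⟦X⟧) * X ^ (N - 1)) * σ (dw x) := by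
  have a1 : IsDer σ (fun x => Dt (σ x)) := by
    have := hD.t_der.comp_right σ
    rw [RingHom.id_comp] at this
    exact this
  have a2 : IsDer σ (fun x => σ (dt x)) := by
    have := hdt.comp_left σ
    rw [RingHom.comp_id] at this
    exact this
  have b1 : IsDer σ (fun x => Ds (σ x)) := by
    have := hD.s_der.comp_right σ
    rw [RingHom.id_comp] at this
    exact this
  have b2 : IsDer σ (fun x => algebraMap κ⟦X⟧ L ((N : κ⟦X⟧) * X ^ (N - 1)) * σ (dw x)) := by
    have := (hdw.comp_left σ).smul (algebraMap κ⟦X⟧ L ((N : κ⟦X⟧) * X ^ (N - 1)))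
    rw [RingHom.comp_id] at this
    exact this
  constructor
  · intro x
    refine a1.eq_of_algebraic (K := K) a2 (fun y => ?_) x
    obtain ⟨z, hz⟩ := hKt y
    rw [hσ, Dt_expL hD, ← hjt, hz, hσ]
  · intro x
    refine b1.eq_of_algebraic (K := K) b2 (fun y => ?_) x
    obtain ⟨z, hz⟩ := hKw y
    rw [hσ, Ds_expL hD, ← hjw, hz, hσ]

/-- The star chain: image of a chain under the second embedding. -/
theorem BChain.map_second [CharZero κ] {Dt Ds : L → L} {F : Type*} [Field F] {dt dw : F → F}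
    {N : ℕ} {σ : F →+* L}
    (ht : ∀ x, Dt (σ x) = σ (dt x))
    (hs : ∀ x, Ds (σ x) = algebraMap κ⟦X⟧ L ((N : κ⟦X⟧) * X ^ (N - 1)) * σ (dw x))
    {n : ℕ} {p q e m : ℕ → F} (hc : BChain dt dw n p q e m) :
    BChain Dt Ds n (fun i => σ (p i)) (fun i => σ (q i)) (fun i => σ (e i)) (fun i => σ (m i)) where
  e_ne i hi := (map_ne_zero σ).2 (hc.e_ne i hi)
  inc i hi := by rw [hc.inc i hi]; simp
  inc' i hi := by rw [hc.inc' i hi]; simp
  lawt i hi := by rw [ht, ht, hc.lawt i hi]; simp
  laws i hi := by rw [hs, hs, hc.laws i hi]; simp only [map_mul]; ring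
  nc i hi := by rw [ht]; exact (map_ne_zero σ).2 (hc.nc i hi)

end Vale.Agent.P097.H82
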