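import Vale.Agent.P097.H82.Emb

/-!
# P097 (helper82): a second embedding which moves a given element
-/

open PowerSeries

set_option linter.unusedSectionVars false

namespace Vale.Agent.P097.H82

variable {κ : Type*} [Field κ] {L : Type*} [Field L] [Algebra κ⟦X⟧ L] [IsFractionRing κ⟦X⟧ L]

/-- **A second embedding moving `x`.** -/
theorem exists_second_moving [IsAlgClosed κ] [CharZero κ] {K F : Type*} [Field K] [Field F]
    [Algebra K F] [FiniteDimensional K F] [CharZero K] {x : F}
    (hx : x ∉ (algebraMap K F).range) (j : F →+* L) :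
    ∃ N : ℕ, ∃ hN : N ≠ 0, ∃ σ : F →+* L,
      (∀ y : K, σ (algebraMap K F y) = expL κ L N hN (j (algebraMap K F y))) ∧
      σ x ≠ expL κ L N hN (j x) := by
  classical
  set pb : PowerBasis K F := Field.powerBasisOfFiniteOfSeparable K F with hpb
  set P : Polynomial K := minpoly K pb.gen with hPdef
  have hint : IsIntegral K pb.gen := Algebra.IsIntegral.isIntegral _
  have hPm : P.Monic := minpoly.monic hint
  obtain ⟨N, hN, hs⟩ := splits_expL (κ := κ) (P.map (j.comp (algebraMap K F))) (hPm.map _)
  set g : K →+* L := ((expL κ L N hN).comp j).comp (algebraMap K F) with hg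
  have hPg : (P.map (j.comp (algebraMap K F))).map (expL κ L N hN) = P.map g := by
    rw [Polynomial.map_map]
    rfl
  rw [hPg] at hs
  let aK : Algebra K L := g.toAlgebra
  let aO : Algebra K (AlgebraicClosure L) := ((algebraMap L (AlgebraicClosure L)).comp g).toAlgebra
  let nat : F →ₐ[K] L := { (expL κ L N hN).comp j with commutes' := fun r => rfl }
  have hnat : ∀ y, nat y = expL κ L N hN (j y) := fun y => rfl
  -- the minimal polynomial of `x` has another root
  set μ : Polynomial K := minpoly K x with hμ
  have hxi : IsIntegral K x := Algebra.IsIntegral.isIntegral _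
  have hsep : μ.Separable := (minpoly.irreducible hxi).separable
  have hdeg : 1 < μ.natDegree := by
    have h1 : 0 < μ.natDegree := minpoly.natDegree_pos hxi
    have h2 : μ.natDegree ≠ 1 := by
      intro h
      apply hx
      exact minpoly.natDegree_eq_one_iff.1 h
    omega
  set c : AlgebraicClosure L := algebraMap L (AlgebraicClosure L) (nat x) with hc
  obtain ⟨r, hr, hrne⟩ : ∃ r ∈ (μ.map (algebraMap K (AlgebraicClosure L))).roots, r ≠ c := by
    by_contra hcon
    push Not at hcon
    have hsp : (μ.map (algebraMap K (AlgebraicClosure L))).Splits := IsAlgClosed.splits _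
    have hcard : (μ.map (algebraMap K (AlgebraicClosure L))).roots.card = μ.natDegree := by
      rw [← hsp.natDegree_eq_card_roots, (minpoly.monic hxi).natDegree_map]
    have hnd : (μ.map (algebraMap K (AlgebraicClosure L))).roots.Nodup :=
      Polynomial.nodup_roots hsep.map
    have h1 : (μ.map (algebraMap K (AlgebraicClosure L))).roots =
      Multiset.replicate μ.natDegree c := Multiset.eq_replicate.2 ⟨hcard, hcon⟩
    rw [h1, Multiset.nodup_iff_count_le_one] at hnd
    have h2 := hnd c
    rw [Multiset.count_replicate_self] at h2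
    omega
  have hra : Polynomial.aeval r μ = 0 := by
    have h1 := (Polynomial.mem_roots ((minpoly.monic hxi).map _).ne_zero).1 hr
    rw [Polynomial.IsRoot.def, Polynomial.eval_map] at h1
    exact h1
  obtain ⟨φ, hφ⟩ := IntermediateField.exists_algHom_of_splits_of_aeval
    (fun s : F => ⟨Algebra.IsIntegral.isIntegral (R := K) s, IsAlgClosed.splits _⟩) hra
  -- the image of the primitive element is in `L`
  have h2 : φ pb.gen ∈ (algebraMap L (AlgebraicClosure L)).range := by
    refine hs.mem_range_of_isRoot (hPm.map g).ne_zero (i := algebraMap L (AlgebraicClosure L)) ?_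
    rw [Polynomial.map_map, Polynomial.IsRoot.def, Polynomial.eval_map]
    have h3 : Polynomial.aeval (φ pb.gen) P = 0 := by
      rw [Polynomial.aeval_algHom_apply, hPdef, minpoly.aeval, map_zero]
    exact h3
  obtain ⟨y, hy⟩ := h2
  have hroot : Polynomial.aeval y P = 0 := by
    apply (algebraMap L (AlgebraicClosure L)).injective
    rw [map_zero]
    have h3 : Polynomial.aeval (φ pb.gen) P = 0 := by
      rw [Polynomial.aeval_algHom_apply, hPdef, minpoly.aeval, map_zero]
    rw [← hy] at h3
    rw [Polynomial.aeval_def, Polynomial.hom_eval₂]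
    exact h3
  let σ : F →ₐ[K] L := pb.lift y hroot
  have hσg : σ pb.gen = y := pb.lift_gen y hroot
  let τ : L →ₐ[K] AlgebraicClosure L :=
    { algebraMap L (AlgebraicClosure L) with commutes' := fun r => rfl }
  have hτ : ∀ z, τ z = algebraMap L (AlgebraicClosure L) z := fun z => rfl
  have h3 : τ.comp σ = φ := by
    apply pb.algHom_ext
    rw [AlgHom.comp_apply, hσg, hτ, hy]
  refine ⟨N, hN, σ.toRingHom, fun x => σ.commutes x, fun h => hrne ?_⟩
  rw [← hφ, ← h3, AlgHom.comp_apply, hτ, hc]
  exact congrArg (algebraMap L (AlgebraicClosure L)) h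

end Vale.Agent.P097.H82
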