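import Vale.Agent.P097.H82.Base
import Vale.Agent.P097.H456.Fct.F1

/-!
# P097 (helper82): the natural word as elements of the ring `AR`
-/

set_option linter.unusedSectionVars false
set_option linter.all false

open Complex Filter Topology
open Vale.Agent.P097.H320 Vale.Agent.P097.H435.S10 Vale.Agent.P097.H456 Vale.Agent.P097.H456.Fct
open Vale.Agent.P097.TA Vale.Agent.P097.H202

namespace Vale.Agent.P097.H82

variable {κ Λ : ℝ} {H Φ : ℂ → ℂ} {r ε : ℝ} {α p : ℂ → ℂ → ℂ} {J : ℂ → ℂ}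

/-- shift by `i` steps -/
def sh (i : ℤ) (u : ℂ × ℂ) : ℂ × ℂ := (u.1 + i * u.2, u.2)

/-- line number `i` -/
def zn (f : ℂ → ℂ → ℂ) (i : ℤ) (u : ℂ × ℂ) : ℂ := f (u.1 + i * u.2) u.2

/-- vertex angle -/
noncomputable def ps (α : ℂ → ℂ → ℂ) (i : ℤ) (u : ℂ × ℂ) : ℂ := (zn α i u + zn α (i + 1) u) / 2

theorem sh_an (i : ℤ) (u : ℂ × ℂ) : AnalyticAt ℂ (sh i) u := by
  unfold sh
  have h1 : AnalyticAt ℂ (fun u : ℂ × ℂ => u.1) u := analyticAt_fst
  have h2 : AnalyticAt ℂ (fun u : ℂ × ℂ => u.2) u := analyticAt_snd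
  exact (h1.add (analyticAt_const.mul h2)).prod h2

theorem sh_zero (i : ℤ) (t : ℂ) : sh i (t, 0) = (t, 0) := by simp [sh]

theorem ev_sh (L : Lines κ Λ H Φ r ε α p J) (t : ℝ) (i : ℤ) :
    ∀ᶠ u in 𝓝 ((t : ℂ), (0 : ℂ)), sh i u ∈ WW 0 r ε := by
  have hc : ContinuousAt (sh i) ((t : ℂ), (0 : ℂ)) := (sh_an i _).continuousAt
  apply hc.eventually_mem
  rw [sh_zero]
  exact (isOpen_WW' 0 r ε).mem_nhds (real_mem L t 0)

theorem zn_an {f : ℂ → ℂ → ℂ} (hf : JD f (WW 0 r ε)) (L : Lines κ Λ H Φ r ε α p J) (i : ℤ)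
    (t : ℝ) : AnalyticAt ℂ (zn f i) ((t : ℂ), 0) := by
  refine AnalyticAt.comp (g := fun p : ℂ × ℂ => f p.1 p.2) (f := sh i) ?_ (sh_an i _)
  rw [sh_zero]
  exact an_of_JD hf (real_mem L t 0)

theorem zn_zero (f : ℂ → ℂ → ℂ) (i : ℤ) (t : ℂ) : zn f i (t, 0) = f t 0 := by simp [zn]

theorem ps_zero (α : ℂ → ℂ → ℂ) (i : ℤ) (t : ℂ) : ps α i (t, 0) = α t 0 := by
  simp [ps, zn_zero]

theorem nat_eq_zn (f : ℂ → ℂ → ℂ) (j : ℕ) : nat f 1 j = zn f j := by
  funext u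
  simp [nat, zn]

theorem ps_an (T : Ctx κ Λ H Φ r ε α p J) (i : ℤ) (t : ℝ) :
    AnalyticAt ℂ (ps α i) ((t : ℂ), 0) :=
  ((zn_an T.ln.jα T.ln i t).add (zn_an T.ln.jα T.ln (i + 1) t)).div_const

theorem zn_per (T : Ctx κ Λ H Φ r ε α p J) (i : ℤ) (t : ℝ) :
    ∀ᶠ u in 𝓝 ((t : ℂ), (0 : ℂ)), zn α i (u.1 + 1, u.2) = zn α i u + 2 * Real.pi := by
  filter_upwards [ev_sh T.ln t i] with u hu
  have := T.ln.αper _ _ hu
  simp only [zn]
  rw [← this]
  congr 1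
  ring

theorem zn_pper (T : Ctx κ Λ H Φ r ε α p J) (i : ℤ) (t : ℝ) :
    ∀ᶠ u in 𝓝 ((t : ℂ), (0 : ℂ)), zn p i (u.1 + 1, u.2) = zn p i u := by
  filter_upwards [ev_sh T.ln t i] with u hu
  have := T.ln.pper _ _ hu
  simp only [zn]
  rw [← this]
  congr 1
  ring

theorem ps_per (T : Ctx κ Λ H Φ r ε α p J) (i : ℤ) (t : ℝ) :
    ∀ᶠ u in 𝓝 ((t : ℂ), (0 : ℂ)), ps α i (u.1 + 1, u.2) = ps α i u + 2 * Real.pi := by
  filter_upwards [zn_per T i t, zn_per T (i + 1) t] with u h1 h2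
  simp only [ps, h1, h2]
  ring

theorem ps_mem0 (T : Ctx κ Λ H Φ r ε α p J) (i : ℤ) (t : ℝ) : ps α i ((t : ℂ), 0) ∈ Str κ := by
  rw [ps_zero]
  have h1 := T.ln.mem _ _ (real_mem T.ln t 0)
  exact Str_mono (by linarith [κ_pos T]) h1

theorem ps_mem (T : Ctx κ Λ H Φ r ε α p J) (i : ℤ) (t : ℝ) :
    ∀ᶠ u in 𝓝 ((t : ℂ), (0 : ℂ)), ps α i u ∈ Str κ :=
  (ps_an T i t).continuousAt.eventually_mem ((isOpen_Str κ).mem_nhds (ps_mem0 T i t))

/-! ### derivatives of `H` -/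

theorem iter_an (T : Ctx κ Λ H Φ r ε α p J) (l : ℕ) {z : ℂ} (hz : z ∈ Str κ) :
    AnalyticAt ℂ (iteratedDeriv l H) z := by
  induction l generalizing z with
  | zero => simpa using H_an T hz
  | succ l ih => rw [iteratedDeriv_succ]; exact (ih hz).deriv

theorem iter_per (T : Ctx κ Λ H Φ r ε α p J) (l : ℕ) {z : ℂ} (hz : z ∈ Str κ) :
    iteratedDeriv l H (z + 2 * Real.pi) = iteratedDeriv l H z := by
  induction l generalizing z with
  | zero =>
    obtain ⟨h, ρ, L', HH, lam, l, φ, ld⟩ := T.ld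
    simpa using ld.Hp z hz
  | succ l ih =>
    rw [iteratedDeriv_succ]
    have h1 : (fun w => iteratedDeriv l H (w + 2 * Real.pi)) =ᶠ[𝓝 z] iteratedDeriv l H := by
      filter_upwards [(isOpen_Str κ).mem_nhds hz] with w hw
      exact ih hw
    rw [← h1.deriv_eq, deriv_comp_add_const]

/-! ### the elements of `AR` -/

/-- `i e^{i α_i}` -/
noncomputable def eA (T : Ctx κ Λ H Φ r ε α p J) (i : ℤ) : AR :=
  ⟨fun u => I * exp (I * zn α i u), fun t =>
    ⟨analyticAt_const.mul (analyticAt_const.mul (zn_an T.ln.jα T.ln i t)).cexp, by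
      filter_upwards [zn_per T i t] with u hu
      have h1 : I * (zn α i u + 2 * Real.pi) = I * zn α i u + 2 * Real.pi * I := by ring
      rw [hu, h1, exp_periodic (I * zn α i u)]⟩⟩

/-- `e^{i ψ_i}` -/
noncomputable def EA (T : Ctx κ Λ H Φ r ε α p J) (i : ℤ) : AR :=
  ⟨fun u => exp (I * ps α i u), fun t =>
    ⟨(analyticAt_const.mul (ps_an T i t)).cexp, by
      filter_upwards [ps_per T i t] with u hu
      have h1 : I * (ps α i u + 2 * Real.pi) = I * ps α i u + 2 * Real.pi * I := by ring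
      rw [hu, h1, exp_periodic (I * ps α i u)]⟩⟩

/-- `e^{- i ψ_i}` -/
noncomputable def FA (T : Ctx κ Λ H Φ r ε α p J) (i : ℤ) : AR :=
  ⟨fun u => exp (-(I * ps α i u)), fun t =>
    ⟨(analyticAt_const.mul (ps_an T i t)).neg.cexp, by
      filter_upwards [ps_per T i t] with u hu
      have h1 : -(I * (ps α i u + 2 * Real.pi)) = -(I * ps α i u) - 2 * Real.pi * I := by ring
      rw [hu, h1, exp_periodic.sub_eq]⟩⟩

/-- `2 p_i e^{i α_i}` -/
noncomputable def mA (T : Ctx κ Λ H Φ r ε α p J) (i : ℤ) : AR :=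
  ⟨fun u => 2 * zn p i u * exp (I * zn α i u), fun t =>
    ⟨(analyticAt_const.mul (zn_an T.ln.jp T.ln i t)).mul
      (analyticAt_const.mul (zn_an T.ln.jα T.ln i t)).cexp, by
      filter_upwards [zn_per T i t, zn_pper T i t] with u hu hu'
      have h1 : I * (zn α i u + 2 * Real.pi) = I * zn α i u + 2 * Real.pi * I := by ring
      rw [hu, hu', h1, exp_periodic (I * zn α i u)]⟩⟩

/-- `H^{(l)} (ψ_i)` -/
noncomputable def hA (T : Ctx κ Λ H Φ r ε α p J) (i : ℤ) (l : ℕ) : AR :=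
  ⟨fun u => iteratedDeriv l H (ps α i u), fun t =>
    ⟨AnalyticAt.comp (g := iteratedDeriv l H) (f := ps α i) (iter_an T l (ps_mem0 T i t))
      (ps_an T i t), by
      filter_upwards [ps_per T i t, ps_mem T i t] with u hu hu'
      rw [hu, iter_per T l hu']⟩⟩

theorem ps_shift_D {v : ℂ × ℂ} (T : Ctx κ Λ H Φ r ε α p J) (i : ℤ) (t : ℝ) :
    ∀ᶠ u in 𝓝 ((t : ℂ), (0 : ℂ)), fderiv ℂ (ps α i) (u.1 + 1, u.2) v = fderiv ℂ (ps α i) u v := by
  have h1 : (fun u : ℂ × ℂ => ps α i (u + ((1 : ℂ), (0 : ℂ)))) =ᶠ[𝓝 ((t : ℂ), (0 : ℂ))]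
      fun u => ps α i u + 2 * Real.pi := by
    filter_upwards [ps_per T i t] with u hu
    rw [← hu]
    congr 1
    ext <;> simp
  filter_upwards [h1.fderiv (𝕜 := ℂ)] with u hu
  rw [fderiv_comp_add_right, fderiv_add_const] at hu
  rw [← hu]
  have h2 : ((u.1 + 1, u.2) : ℂ × ℂ) = u + ((1 : ℂ), (0 : ℂ)) := by ext <;> simp
  rw [h2]

/-- `∂_t ψ_i` -/
noncomputable def pT (T : Ctx κ Λ H Φ r ε α p J) (i : ℤ) : AR :=
  ⟨DT (ps α i), fun t => ⟨analyticAt_DT (ps_an T i t), ps_shift_D T i t⟩⟩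

/-- `∂_w ψ_i` -/
noncomputable def pS (T : Ctx κ Λ H Φ r ε α p J) (i : ℤ) : AR :=
  ⟨DS (ps α i), fun t => ⟨analyticAt_DS (ps_an T i t), ps_shift_D T i t⟩⟩

/-- `P_i` -/
noncomputable def pA (T : Ctx κ Λ H Φ r ε α p J) (i : ℤ) : AR :=
  (hA T i 0 + AR.const I * hA T i 1) * EA T i

/-- `Q_i` -/
noncomputable def qA (T : Ctx κ Λ H Φ r ε α p J) (i : ℤ) : AR :=
  (hA T i 0 - AR.const I * hA T i 1) * FA T i

/-! ### the relations near the real line -/

theorem fd_comp {g : ℂ → ℂ} {f : ℂ × ℂ → ℂ} {u v : ℂ × ℂ} (hg : DifferentiableAt ℂ g (f u))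
    (hf : DifferentiableAt ℂ f u) :
    fderiv ℂ (fun u => g (f u)) u v = deriv g (f u) * fderiv ℂ f u v := by
  have h1 := hg.hasDerivAt.comp_hasFDerivAt u hf.hasFDerivAt
  have h2 : HasFDerivAt (fun u => g (f u)) (deriv g (f u) • fderiv ℂ f u) u := h1
  rw [h2.fderiv]
  rfl

/-- equality near the real line -/
def Eqv (F G : AR) : Prop := ∀ t : ℝ, ∀ᶠ u in 𝓝 ((t : ℂ), (0 : ℂ)), F.1 u = G.1 u

theorem hA_dT (T : Ctx κ Λ H Φ r ε α p J) (i : ℤ) (l : ℕ) :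
    Eqv (AR.dT (hA T i l)) (hA T i (l + 1) * pT T i) := by
  intro t
  filter_upwards [ps_mem T i t, (ps_an T i t).eventually_analyticAt] with u hu hu'
  change fderiv ℂ (fun u => iteratedDeriv l H (ps α i u)) u (1, 0) = _
  rw [fd_comp (iter_an T l hu).differentiableAt hu'.differentiableAt]
  change _ = iteratedDeriv (l + 1) H (ps α i u) * fderiv ℂ (ps α i) u (1, 0)
  rw [iteratedDeriv_succ]

theorem hA_dS (T : Ctx κ Λ H Φ r ε α p J) (i : ℤ) (l : ℕ) :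
    Eqv (AR.dS (hA T i l)) (hA T i (l + 1) * pS T i) := by
  intro t
  filter_upwards [ps_mem T i t, (ps_an T i t).eventually_analyticAt] with u hu hu'
  change fderiv ℂ (fun u => iteratedDeriv l H (ps α i u)) u (0, 1) = _
  rw [fd_comp (iter_an T l hu).differentiableAt hu'.differentiableAt]
  change _ = iteratedDeriv (l + 1) H (ps α i u) * fderiv ℂ (ps α i) u (0, 1)
  rw [iteratedDeriv_succ]

theorem deriv_expI (c z : ℂ) : deriv (fun x => exp (c * x)) z = c * exp (c * z) := by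
  have h1 : HasDerivAt (fun x : ℂ => c * x) c z := by
    simpa using (hasDerivAt_id z).const_mul c
  rw [h1.cexp.deriv]
  ring

theorem diff_expI (c z : ℂ) : DifferentiableAt ℂ (fun x => exp (c * x)) z := by fun_prop

theorem EA_d {v : ℂ × ℂ} (T : Ctx κ Λ H Φ r ε α p J) (i : ℤ) (t : ℝ) :
    ∀ᶠ u in 𝓝 ((t : ℂ), (0 : ℂ)), fderiv ℂ (EA T i).1 u v =
      I * exp (I * ps α i u) * fderiv ℂ (ps α i) u v := by
  filter_upwards [(ps_an T i t).eventually_analyticAt] with u hu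
  change fderiv ℂ (fun u => exp (I * ps α i u)) u v = _
  rw [fd_comp (g := fun x => exp (I * x)) (diff_expI I _) hu.differentiableAt, deriv_expI]

theorem FA_d {v : ℂ × ℂ} (T : Ctx κ Λ H Φ r ε α p J) (i : ℤ) (t : ℝ) :
    ∀ᶠ u in 𝓝 ((t : ℂ), (0 : ℂ)), fderiv ℂ (FA T i).1 u v =
      -I * exp (-(I * ps α i u)) * fderiv ℂ (ps α i) u v := by
  filter_upwards [(ps_an T i t).eventually_analyticAt] with u hu
  have h1 : (FA T i).1 = fun u => exp (-I * ps α i u) := by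
    funext u
    simp only [FA, neg_mul]
  rw [h1, fd_comp (g := fun x => exp (-I * x)) (diff_expI (-I) _) hu.differentiableAt, deriv_expI,
    neg_mul I (ps α i u)]

theorem EA_dT (T : Ctx κ Λ H Φ r ε α p J) (i : ℤ) :
    Eqv (AR.dT (EA T i)) (AR.const I * EA T i * pT T i) := EA_d T i

theorem EA_dS (T : Ctx κ Λ H Φ r ε α p J) (i : ℤ) :
    Eqv (AR.dS (EA T i)) (AR.const I * EA T i * pS T i) := EA_d T i

theorem FA_dT (T : Ctx κ Λ H Φ r ε α p J) (i : ℤ) :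
    Eqv (AR.dT (FA T i)) (-AR.const I * FA T i * pT T i) := FA_d T i

theorem FA_dS (T : Ctx κ Λ H Φ r ε α p J) (i : ℤ) :
    Eqv (AR.dS (FA T i)) (-AR.const I * FA T i * pS T i) := FA_d T i

theorem EF (T : Ctx κ Λ H Φ r ε α p J) (i : ℤ) : Eqv (EA T i * FA T i) 1 := by
  intro t
  refine Eventually.of_forall fun u => ?_
  change exp (I * ps α i u) * exp (-(I * ps α i u)) = 1
  rw [← exp_add, add_neg_cancel, exp_zero]

theorem EE (T : Ctx κ Λ H Φ r ε α p J) (i : ℤ) :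
    Eqv (EA T i ^ 2) (-(eA T i * eA T (i + 1))) := by
  intro t
  refine Eventually.of_forall fun u => ?_
  change exp (I * ps α i u) ^ 2 = -((I * exp (I * zn α i u)) * (I * exp (I * zn α (i + 1) u)))
  have h1 : -((I * exp (I * zn α i u)) * (I * exp (I * zn α (i + 1) u))) =
      -(I * I) * (exp (I * zn α i u) * exp (I * zn α (i + 1) u)) := by ring
  rw [h1, I_mul_I, neg_neg, one_mul, ← exp_add, ← exp_nat_mul]
  congr 1
  simp only [ps]
  push_cast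
  ring

/-- the two points of a letter -/
theorem pt (h0 h1 ψ δ : ℂ) : (h0 + I * h1) * exp (I * ψ) =
    (I * exp (I * (ψ - δ))) ^ 2 * ((h0 - I * h1) * exp (-(I * ψ))) +
      2 * (h0 * cos δ - h1 * sin δ) * exp (I * (ψ - δ)) := by
  have e1 : exp (I * (ψ - δ)) = exp (I * ψ) * exp (-(I * δ)) := by rw [← exp_add]; ring_nf
  have e2 : exp (I * ψ) * exp (-(I * ψ)) = 1 := by rw [← exp_add, add_neg_cancel, exp_zero]
  have e3 : exp (I * δ) * exp (-(I * δ)) = 1 := by rw [← exp_add, add_neg_cancel, exp_zero]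
  have c1 : cos δ = (exp (I * δ) + exp (-(I * δ))) / 2 := by
    rw [cos, mul_comm I δ]
    ring_nf
  have c2 : sin δ = (exp (-(I * δ)) - exp (I * δ)) * I / 2 := by
    rw [sin, mul_comm I δ]
    ring_nf
  have hI : I * I = -1 := I_mul_I
  rw [e1, c1, c2]
  set a := exp (I * ψ)
  set a' := exp (-(I * ψ))
  set b := exp (I * δ)
  set b' := exp (-(I * δ))
  linear_combination (-(h0 + I * h1) * a) * e3 + (-I ^ 2 * (h0 - I * h1) * a * b' ^ 2) * e2 +
    (-(h0 - I * h1) * a * b' ^ 2) * hI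

theorem zn_let (T : Ctx κ Λ H Φ r ε α p J) (i : ℤ) (t : ℝ) :
    ∀ᶠ u in 𝓝 ((t : ℂ), (0 : ℂ)),
      Let H (zn α i u) (zn p i u) (zn α (i + 1) u) (zn p (i + 1) u) := by
  have hc : ContinuousAt (fun u : ℂ × ℂ => (u.1 + i * u.2 + u.2 / 2, u.2))
      ((t : ℂ), (0 : ℂ)) := by fun_prop
  have hm : ∀ᶠ u : ℂ × ℂ in 𝓝 ((t : ℂ), (0 : ℂ)),
      ((u.1 + i * u.2 + u.2 / 2, u.2) : ℂ × ℂ) ∈ WW (1 / 2) r ε := by
    apply hc.eventually_mem
    have : ((t : ℂ) + i * (0 : ℂ) + (0 : ℂ) / 2, (0 : ℂ)) = ((t : ℂ), (0 : ℂ)) := by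
      simp
    rw [this]
    exact (isOpen_WW' _ r ε).mem_nhds (real_mem T.ln t _)
  filter_upwards [hm] with u hu
  have h1 := T.ln.sum _ _ hu
  have h2 := T.ln.diff _ _ hu
  have e1 : u.1 + i * u.2 + u.2 / 2 + u.2 / 2 = u.1 + (i + 1 : ℤ) * u.2 := by
    push_cast; ring
  have e2 : u.1 + i * u.2 + u.2 / 2 - u.2 / 2 = u.1 + i * u.2 := by ring
  rw [e1, e2] at h1 h2
  simp only [Let, zn]
  rw [add_comm (α (u.1 + i * u.2) (u.2))]
  constructor
  · linear_combination (1 / 2) * h1 - (1 / 2) * h2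
  · linear_combination (1 / 2) * h1 + (1 / 2) * h2

theorem inc_A (T : Ctx κ Λ H Φ r ε α p J) (i : ℤ) :
    Eqv (pA T i) (eA T i ^ 2 * qA T i + mA T i) := by
  intro t
  filter_upwards [zn_let T i t] with u hu
  have h1 := hu.1
  have hψ : (zn α i u + zn α (i + 1) u) / 2 = ps α i u := rfl
  rw [hψ] at h1
  set δ := (zn α (i + 1) u - zn α i u) / 2 with hδ
  have h2 : zn α i u = ps α i u - δ := by
    rw [hδ]
    simp only [ps]
    ring
  have h3 := pt (H (ps α i u)) (deriv H (ps α i u)) (ps α i u) δ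
  rw [← h2, ← h1] at h3
  change (iteratedDeriv 0 H (ps α i u) + I * iteratedDeriv 1 H (ps α i u)) * exp (I * ps α i u) =
    (I * exp (I * zn α i u)) ^ 2 * ((iteratedDeriv 0 H (ps α i u) - I * iteratedDeriv 1 H (ps α i u))
      * exp (-(I * ps α i u))) + 2 * zn p i u * exp (I * zn α i u)
  rw [iteratedDeriv_zero, iteratedDeriv_one]
  exact h3

theorem inc_A' (T : Ctx κ Λ H Φ r ε α p J) (i : ℤ) :
    Eqv (pA T i) (eA T (i + 1) ^ 2 * qA T i + mA T (i + 1)) := by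
  intro t
  filter_upwards [zn_let T i t] with u hu
  have h1 := hu.2
  have hψ : (zn α i u + zn α (i + 1) u) / 2 = ps α i u := rfl
  rw [hψ] at h1
  set δ := (zn α (i + 1) u - zn α i u) / 2 with hδ
  have h2 : zn α (i + 1) u = ps α i u - -δ := by
    rw [hδ]
    simp only [ps]
    ring
  have h3 := pt (H (ps α i u)) (deriv H (ps α i u)) (ps α i u) (-δ)
  rw [← h2, cos_neg, sin_neg] at h3
  have h4 : H (ps α i u) * cos δ - deriv H (ps α i u) * -sin δ = zn p (i + 1) u := by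
    rw [h1]
    ring
  rw [h4] at h3
  change (iteratedDeriv 0 H (ps α i u) + I * iteratedDeriv 1 H (ps α i u)) * exp (I * ps α i u) =
    (I * exp (I * zn α (i + 1) u)) ^ 2 * ((iteratedDeriv 0 H (ps α i u) -
      I * iteratedDeriv 1 H (ps α i u)) * exp (-(I * ps α i u))) +
      2 * zn p (i + 1) u * exp (I * zn α (i + 1) u)
  rw [iteratedDeriv_zero, iteratedDeriv_one]
  exact h3

end Vale.Agent.P097.H82
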