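import Vale.Agent.P097.H82.NatA
import Vale.Agent.P097.H320.PerD
import Vale.Agent.P097.H830.Glance

/-!
# P097 (helper82): the Taylor series of the natural word: chain, expansions, good first line
-/

set_option linter.unusedSectionVars false
set_option linter.all false

open Complex Filter Topology
open Vale.Agent.P097.H320 Vale.Agent.P097.H435.S10 Vale.Agent.P097.H456 Vale.Agent.P097.H456.Fct
open Vale.Agent.P097.TA Vale.Agent.P097.H202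

namespace Vale.Agent.P097.H82

/-- the law of reflection at a vertex given by a support function -/
theorem law_alg {R : Type*} [CommRing R] {D : R → R} (hD : IsDer (RingHom.id R) D)
    {h0 h1 h2 E F c x e e' : R} (hc : c * c = -1) (Dc : D c = 0) (D0 : D h0 = h1 * x)
    (D1 : D h1 = h2 * x) (DE : D E = c * E * x) (DF : D F = -c * F * x) (hEF : E * F = 1)
    (hEE : E ^ 2 = -(e * e')) :
    D ((h0 + c * h1) * E) = e * e' * D ((h0 - c * h1) * F) ∧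
      D ((h0 - c * h1) * F) = -c * F * x * (h0 + h2) ∧
      D ((h0 + c * h1) * E) = c * E * x * (h0 + h2) := by
  have a1 : D ((h0 + c * h1) * E) = c * E * x * (h0 + h2) := by
    rw [hD.mul, hD.add, hD.mul, Dc, D0, D1, DE]
    simp only [RingHom.id_apply]
    linear_combination (E * x * h1) * hc
  have a2 : D ((h0 - c * h1) * F) = -c * F * x * (h0 + h2) := by
    rw [hD.mul, hD.sub, hD.mul, Dc, D0, D1, DF]
    simp only [RingHom.id_apply]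
    linear_combination (F * x * h1) * hc
  refine ⟨?_, a2, a1⟩
  rw [a1, a2]
  linear_combination (c * F * x * (h0 + h2)) * hEE + (-(c * E * x * (h0 + h2))) * hEF

variable {κ Λ : ℝ} {H Φ : ℂ → ℂ} {r ε : ℝ} {α p : ℂ → ℂ → ℂ} {J : ℂ → ℂ}

/-! ### expansion at `w = 0` -/

theorem A_an (T : Ctx κ Λ H Φ r ε α p J) {f : ℂ → ℂ → ℂ} (hf : JD f (WW 0 r ε)) (t : ℝ) :
    AnalyticAt ℂ (fun p : ℂ × ℂ => f p.1 p.2) ((t : ℂ), 0) := an_of_JD hf (real_mem T.ln t 0)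

theorem fd_zn (T : Ctx κ Λ H Φ r ε α p J) {f : ℂ → ℂ → ℂ} (hf : JD f (WW 0 r ε)) (i : ℤ) (t : ℝ)
    (v : ℂ × ℂ) : fderiv ℂ (zn f i) ((t : ℂ), 0) v =
      fderiv ℂ (fun p : ℂ × ℂ => f p.1 p.2) ((t : ℂ), 0) (v.1 + i * v.2, v.2) := by
  have h1 : HasFDerivAt (sh i) (((ContinuousLinearMap.fst ℂ ℂ ℂ) +
      (i : ℂ) • ContinuousLinearMap.snd ℂ ℂ ℂ).prod (ContinuousLinearMap.snd ℂ ℂ ℂ))
      ((t : ℂ), (0 : ℂ)) := by
    have a1 : HasFDerivAt (fun u : ℂ × ℂ => u.1) (ContinuousLinearMap.fst ℂ ℂ ℂ)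
      ((t : ℂ), (0 : ℂ)) := hasFDerivAt_fst
    have a2 : HasFDerivAt (fun u : ℂ × ℂ => u.2) (ContinuousLinearMap.snd ℂ ℂ ℂ)
      ((t : ℂ), (0 : ℂ)) := hasFDerivAt_snd
    exact (a1.add (a2.const_mul (i : ℂ))).prodMk a2
  have h2 : HasFDerivAt (fun p : ℂ × ℂ => f p.1 p.2)
      (fderiv ℂ (fun p : ℂ × ℂ => f p.1 p.2) ((t : ℂ), 0)) (sh i ((t : ℂ), 0)) := by
    rw [sh_zero]
    exact (A_an T hf t).differentiableAt.hasFDerivAt
  have h3 : HasFDerivAt (zn f i) _ ((t : ℂ), (0 : ℂ)) := h2.comp ((t : ℂ), (0 : ℂ)) h1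
  rw [h3.fderiv]
  rfl

theorem even_w (T : Ctx κ Λ H Φ r ε α p J) {f : ℂ → ℂ → ℂ} (hf : JD f (WW 0 r ε))
    (he : ∀ t w : ℂ, (t, w) ∈ WW 0 r ε → f t (-w) = f t w) (t : ℝ) :
    fderiv ℂ (fun p : ℂ × ℂ => f p.1 p.2) ((t : ℂ), 0) (0, 1) = 0 := by
  have hA := A_an T hf t
  have h1 : HasDerivAt (fun w : ℂ => f t w)
      (fderiv ℂ (fun p : ℂ × ℂ => f p.1 p.2) ((t : ℂ), 0) (0, 1)) 0 := hasDerivAt_s hA
  have h2 : HasDerivAt (fun w : ℂ => f t (-w))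
      (-fderiv ℂ (fun p : ℂ × ℂ => f p.1 p.2) ((t : ℂ), 0) (0, 1)) 0 := by
    have h3 : HasDerivAt (fun w : ℂ => f t w)
      (fderiv ℂ (fun p : ℂ × ℂ => f p.1 p.2) ((t : ℂ), 0) (0, 1)) (-0) := by simpa using h1
    have h4 : HasDerivAt (fun w : ℂ => f t (-w)) _ 0 :=
      HasDerivAt.comp (0 : ℂ) h3 (hasDerivAt_neg (0 : ℂ))
    exact h4.congr_deriv (by ring)
  have h5 : (fun w : ℂ => f t (-w)) =ᶠ[𝓝 0] fun w => f t w := by
    have hc : ContinuousAt (fun w : ℂ => ((t : ℂ), w)) 0 := by fun_prop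
    filter_upwards [hc.eventually_mem ((isOpen_WW' 0 r ε).mem_nhds (real_mem T.ln t 0))] with w hw
    exact he _ _ hw
  have h6 := (h2.congr_of_eventuallyEq h5.symm).unique h1
  linear_combination (-1 / 2 : ℂ) * h6

/-- `∂_x α (t, 0)` -/
noncomputable def a1 (α : ℂ → ℂ → ℂ) (t : ℝ) : ℂ :=
  fderiv ℂ (fun p : ℂ × ℂ => α p.1 p.2) ((t : ℂ), 0) (1, 0)

theorem a1_ne (T : Ctx κ Λ H Φ r ε α p J) (t : ℝ) : a1 α t ≠ 0 := by
  obtain ⟨c, hc, hd⟩ := deriv_α T t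
  have h1 : HasDerivAt (fun x => α x 0) (a1 α t) (t : ℂ) := hasDerivAt_t (A_an T T.ln.jα t)
  rw [h1.unique hd]
  exact hc

theorem DT_zn (T : Ctx κ Λ H Φ r ε α p J) (i : ℤ) (t : ℝ) :
    fderiv ℂ (zn α i) ((t : ℂ), 0) (1, 0) = a1 α t := by
  rw [fd_zn T T.ln.jα]
  simp [a1]

theorem DS_zn (T : Ctx κ Λ H Φ r ε α p J) (i : ℤ) (t : ℝ) :
    fderiv ℂ (zn α i) ((t : ℂ), 0) (0, 1) = i * a1 α t := by
  rw [fd_zn T T.ln.jα]
  have h1 : (((0 : ℂ), (1 : ℂ)).1 + i * ((0 : ℂ), (1 : ℂ)).2, ((0 : ℂ), (1 : ℂ)).2) =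
      (i : ℂ) • ((1 : ℂ), (0 : ℂ)) + ((0 : ℂ), (1 : ℂ)) := by
    ext <;> simp
  rw [h1, map_add, map_smul, even_w T T.ln.jα T.ln.αev, add_zero]
  rfl

theorem fd_ps (T : Ctx κ Λ H Φ r ε α p J) (i : ℤ) (t : ℝ) (v : ℂ × ℂ) :
    fderiv ℂ (ps α i) ((t : ℂ), 0) v = (fderiv ℂ (zn α i) ((t : ℂ), 0) v +
      fderiv ℂ (zn α (i + 1)) ((t : ℂ), 0) v) / 2 := by
  have h1 : HasFDerivAt (zn α i) (fderiv ℂ (zn α i) ((t : ℂ), 0)) ((t : ℂ), (0 : ℂ)) :=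
    (zn_an T.ln.jα T.ln i t).differentiableAt.hasFDerivAt
  have h2 : HasFDerivAt (zn α (i + 1)) (fderiv ℂ (zn α (i + 1)) ((t : ℂ), 0)) ((t : ℂ), (0 : ℂ)) :=
    (zn_an T.ln.jα T.ln (i + 1) t).differentiableAt.hasFDerivAt
  have h3 : HasFDerivAt (ps α i) _ ((t : ℂ), (0 : ℂ)) := (h1.add h2).mul_const (2⁻¹ : ℂ)
  rw [h3.fderiv]
  change (2⁻¹ : ℂ) * (fderiv ℂ (zn α i) ((t : ℂ), 0) v +
    fderiv ℂ (zn α (i + 1)) ((t : ℂ), 0) v) = _
  ring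

theorem DT_ps (T : Ctx κ Λ H Φ r ε α p J) (i : ℤ) (t : ℝ) :
    fderiv ℂ (ps α i) ((t : ℂ), 0) (1, 0) = a1 α t := by
  rw [fd_ps T, DT_zn T, DT_zn T]
  ring

theorem DS_ps (T : Ctx κ Λ H Φ r ε α p J) (i : ℤ) (t : ℝ) :
    fderiv ℂ (ps α i) ((t : ℂ), 0) (0, 1) = (i + 1 / 2) * a1 α t := by
  rw [fd_ps T, DS_zn T, DS_zn T]
  push_cast
  ring

/-- value of the first Taylor coefficient -/
theorem cfO_one (F : AR) (x : ℝ) : (AR.cfO F 1).1 x = fderiv ℂ F.1 ((x : ℂ), 0) (0, 1) := by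
  rw [AR.cfO_apply, cf_eq (AR.an F x)]
  simp [DS]

theorem cfO_zero (F : AR) (x : ℝ) : (AR.cfO F 0).1 x = F.1 ((x : ℂ), 0) := by
  rw [AR.cfO_apply, cf_zero]

theorem D_cfO_zero (F : AR) (x : ℝ) :
    (OP.D (AR.cfO F 0)).1 x = fderiv ℂ F.1 ((x : ℂ), 0) (1, 0) := by
  rw [← AR.cfO_dT, cfO_zero]
  rfl

theorem eA_fd (T : Ctx κ Λ H Φ r ε α p J) (i : ℤ) (t : ℝ) (v : ℂ × ℂ) :
    fderiv ℂ (eA T i).1 ((t : ℂ), 0) v =
      I * (I * exp (I * α t 0)) * fderiv ℂ (zn α i) ((t : ℂ), 0) v := by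
  have h0 : (eA T i).1 = fun u => (fun x => I * exp (I * x)) (zn α i u) := rfl
  have h1 : HasDerivAt (fun x : ℂ => I * exp (I * x)) (I * (I * exp (I * α t 0))) (zn α i ((t : ℂ), 0)) := by
    have h2 : HasDerivAt (fun x : ℂ => I * x) I (zn α i ((t : ℂ), 0)) := by
      simpa using (hasDerivAt_id (zn α i ((t : ℂ), 0))).const_mul I
    have h3 := h2.cexp.const_mul I
    rw [zn_zero] at h3 ⊢
    exact h3.congr_deriv (by ring)
  rw [h0, fd_comp h1.differentiableAt (zn_an T.ln.jα T.ln i t).differentiableAt, h1.deriv]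

theorem eA_c0 (T : Ctx κ Λ H Φ r ε α p J) (i : ℤ) :
    AR.cfO (eA T i) 0 = AR.cfO (eA T 0) 0 := by
  refine OP.ext' fun x => ?_
  rw [cfO_zero, cfO_zero]
  simp only [eA, zn_zero]

theorem OP_int (i : ℤ) (x : ℝ) : ((i : OP) : OP).1 x = (i : ℂ) := by
  have h1 : ∀ n : ℕ, ((n : OP) : OP).1 x = (n : ℂ) := by
    intro n
    induction n with
    | zero => simp
    | succ n ih =>
      have h3 : (((n + 1 : ℕ) : OP) : OP).1 x = ((n : OP) : OP).1 x + (1 : OP).1 x := by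
        rw [Nat.cast_succ]
        rfl
      rw [h3, ih]
      push_cast
      rfl
  obtain ⟨n, rfl | rfl⟩ := i.eq_nat_or_neg
  · simpa using h1 n
  · have h2 : (((-(n : ℤ) : ℤ) : OP) : OP).1 x = -((n : OP) : OP).1 x := by
      rw [Int.cast_neg, Int.cast_natCast]
      rfl
    rw [h2, h1]
    push_cast
    ring

theorem eA_c1 (T : Ctx κ Λ H Φ r ε α p J) (i : ℤ) :
    AR.cfO (eA T i) 1 = (i : OP) * OP.D (AR.cfO (eA T 0) 0) := by
  refine OP.ext' fun x => ?_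
  have h1 : ((i : OP) * OP.D (AR.cfO (eA T 0) 0)).1 x =
    ((i : OP) : OP).1 x * (OP.D (AR.cfO (eA T 0) 0)).1 x := rfl
  rw [h1, OP_int, cfO_one, D_cfO_zero, eA_fd, eA_fd, DS_zn T, DT_zn T]
  ring

/-- `(H - i H') e^{-i z}` -/
noncomputable def G2 (H : ℂ → ℂ) (z : ℂ) : ℂ :=
  (iteratedDeriv 0 H z - I * iteratedDeriv 1 H z) * exp (-(I * z))

theorem G2_deriv (T : Ctx κ Λ H Φ r ε α p J) {z : ℂ} (hz : z ∈ Str κ) :
    HasDerivAt (G2 H) (-I * exp (-(I * z)) * (H z + deriv (deriv H) z)) z := by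
  have h0 : HasDerivAt (iteratedDeriv 0 H) (iteratedDeriv 1 H z) z := by
    have := (iter_an T 0 hz).differentiableAt.hasDerivAt
    rwa [← iteratedDeriv_succ] at this
  have h1 : HasDerivAt (iteratedDeriv 1 H) (iteratedDeriv 2 H z) z := by
    have := (iter_an T 1 hz).differentiableAt.hasDerivAt
    rwa [← iteratedDeriv_succ] at this
  have h2 : HasDerivAt (fun x : ℂ => -(I * x)) (-I) z := by
    have := ((hasDerivAt_id z).const_mul I).neg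
    rw [mul_one] at this
    exact this
  have h3 : HasDerivAt (G2 H) _ z := (h0.sub (h1.const_mul I)).mul h2.cexp
  refine h3.congr_deriv ?_
  change (iteratedDeriv 1 H z - I * iteratedDeriv 2 H z) * cexp (-(I * z)) +
    (iteratedDeriv 0 H z - I * iteratedDeriv 1 H z) * (cexp (-(I * z)) * -I) = _
  have e1 : iteratedDeriv 2 H z = deriv (deriv H) z := by
    rw [iteratedDeriv_succ, iteratedDeriv_one]
  have e2 : iteratedDeriv 0 H z = H z := by rw [iteratedDeriv_zero]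
  rw [e1, e2]
  have hI : I * I = -1 := I_mul_I
  linear_combination (iteratedDeriv 1 H z * exp (-(I * z))) * hI

theorem qA_fd (T : Ctx κ Λ H Φ r ε α p J) (i : ℤ) (t : ℝ) (v : ℂ × ℂ) :
    fderiv ℂ (qA T i).1 ((t : ℂ), 0) v = (-I * exp (-(I * α t 0)) *
      (H (α t 0) + deriv (deriv H) (α t 0))) * fderiv ℂ (ps α i) ((t : ℂ), 0) v := by
  have h0 : (qA T i).1 = fun u => G2 H (ps α i u) := rfl
  have h1 := G2_deriv T (ps_mem0 T i t)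
  rw [h0, fd_comp h1.differentiableAt (ps_an T i t).differentiableAt, h1.deriv, ps_zero]

theorem qA_c0 (T : Ctx κ Λ H Φ r ε α p J) (i : ℤ) :
    AR.cfO (qA T i) 0 = AR.cfO (qA T 0) 0 := by
  refine OP.ext' fun x => ?_
  rw [cfO_zero, cfO_zero]
  have h0 : ∀ i, (qA T i).1 = fun u => G2 H (ps α i u) := fun i => rfl
  rw [h0, h0]
  simp only [ps_zero]

theorem qA_c1 (T : Ctx κ Λ H Φ r ε α p J) (i : ℤ) :
    2 * AR.cfO (qA T i) 1 = ((2 * i + 1 : ℤ) : OP) * OP.D (AR.cfO (qA T 0) 0) := by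
  refine OP.ext' fun x => ?_
  have h1 : (((2 * i + 1 : ℤ) : OP) * OP.D (AR.cfO (qA T 0) 0)).1 x =
    (((2 * i + 1 : ℤ) : OP) : OP).1 x * (OP.D (AR.cfO (qA T 0) 0)).1 x := rfl
  have h2 : (2 * AR.cfO (qA T i) 1 : OP).1 x = (2 : ℂ) * (AR.cfO (qA T i) 1).1 x := rfl
  rw [h1, h2, OP_int, cfO_one, D_cfO_zero, qA_fd, qA_fd, DS_ps T, DT_ps T]
  push_cast
  ring

theorem e0_ne (T : Ctx κ Λ H Φ r ε α p J) : AR.cfO (eA T 0) 0 ≠ 0 := by
  intro h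
  have h1 : (AR.cfO (eA T 0) 0).1 0 = (0 : OP).1 0 := by rw [h]
  rw [cfO_zero] at h1
  exact mul_ne_zero I_ne_zero (exp_ne_zero _) h1

theorem de0_ne (T : Ctx κ Λ H Φ r ε α p J) : OP.D (AR.cfO (eA T 0) 0) ≠ 0 := by
  intro h
  have h1 : (OP.D (AR.cfO (eA T 0) 0)).1 0 = (0 : OP).1 0 := by rw [h]
  rw [D_cfO_zero, eA_fd, DT_zn T] at h1
  exact mul_ne_zero (mul_ne_zero I_ne_zero (mul_ne_zero I_ne_zero (exp_ne_zero _))) (a1_ne T 0) h1

theorem dq0_ne (T : Ctx κ Λ H Φ r ε α p J) : OP.D (AR.cfO (qA T 0) 0) ≠ 0 := by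
  intro h
  have h1 : (OP.D (AR.cfO (qA T 0) 0)).1 0 = (0 : OP).1 0 := by rw [h]
  rw [D_cfO_zero, qA_fd, DT_ps T] at h1
  have h2 : α ((0 : ℝ) : ℂ) 0 ∈ Str κ := by
    have := ps_mem0 T 0 0
    rwa [ps_zero] at this
  exact mul_ne_zero (mul_ne_zero (mul_ne_zero (neg_ne_zero.2 I_ne_zero) (exp_ne_zero _))
    (curv_ne T h2)) (a1_ne T 0) h1

/-! ### the Jacobian of the first line -/

/-- Jacobian -/
noncomputable def jA (T : Ctx κ Λ H Φ r ε α p J) : AR :=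
  AR.dT (eA T 0) * AR.dS (mA T 0) - AR.dS (eA T 0) * AR.dT (mA T 0)

theorem zn0 (f : ℂ → ℂ → ℂ) : zn f 0 = fun u => f u.1 u.2 := by
  funext u
  simp [zn]

theorem jA_eq (T : Ctx κ Λ H Φ r ε α p J) (t : ℝ) : ∀ᶠ u in 𝓝 ((t : ℂ), (0 : ℂ)),
    (jA T).1 u = 2 * (I * exp (I * zn α 0 u)) ^ 2 * J u.2 := by
  filter_upwards [(isOpen_WW' 0 r ε).mem_nhds (real_mem T.ln t 0)] with u hu
  have ha : AnalyticAt ℂ (zn α 0) u := by rw [zn0]; exact an_of_JD T.ln.jα hu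
  have hb : AnalyticAt ℂ (zn p 0) u := by rw [zn0]; exact an_of_JD T.ln.jp hu
  have fe : ∀ v, fderiv ℂ (eA T 0).1 u v = I * (I * exp (I * zn α 0 u)) * fderiv ℂ (zn α 0) u v := by
    intro v
    have h0 : (eA T 0).1 = fun u => (fun x => I * exp (I * x)) (zn α 0 u) := rfl
    have h1 : HasDerivAt (fun x : ℂ => I * exp (I * x)) (I * (I * exp (I * zn α 0 u))) (zn α 0 u) := by
      have h2 : HasDerivAt (fun x : ℂ => I * x) I (zn α 0 u) := by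
        simpa using (hasDerivAt_id (zn α 0 u)).const_mul I
      exact (h2.cexp.const_mul I).congr_deriv (by ring)
    rw [h0, fd_comp h1.differentiableAt ha.differentiableAt, h1.deriv]
  have fm : ∀ v, fderiv ℂ (mA T 0).1 u v = 2 * fderiv ℂ (zn p 0) u v * exp (I * zn α 0 u) +
      2 * zn p 0 u * (I * exp (I * zn α 0 u) * fderiv ℂ (zn α 0) u v) := by
    intro v
    have h1 : HasFDerivAt (fun u => 2 * zn p 0 u) ((2 : ℂ) • fderiv ℂ (zn p 0) u) u :=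
      hb.differentiableAt.hasFDerivAt.const_mul 2
    have h2 : HasFDerivAt (fun u => exp (I * zn α 0 u))
        (exp (I * zn α 0 u) • (I • fderiv ℂ (zn α 0) u)) u :=
      (ha.differentiableAt.hasFDerivAt.const_mul I).cexp
    have h3 : HasFDerivAt (mA T 0).1 _ u := h1.mul h2
    rw [h3.fderiv]
    change 2 * zn p 0 u * (exp (I * zn α 0 u) * (I * fderiv ℂ (zn α 0) u v)) +
      exp (I * zn α 0 u) * (2 * fderiv ℂ (zn p 0) u v) = _
    ring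
  have hbr := T.ln.brk u.1 u.2 hu
  have d1 : dx α u.1 u.2 = fderiv ℂ (zn α 0) u (1, 0) := by
    have := (hasDerivAt_t ha).deriv
    simp only [zn0] at this ⊢
    exact this
  have d2 : de α u.1 u.2 = fderiv ℂ (zn α 0) u (0, 1) := by
    have := (hasDerivAt_s ha).deriv
    simp only [zn0] at this ⊢
    exact this
  have d3 : dx p u.1 u.2 = fderiv ℂ (zn p 0) u (1, 0) := by
    have := (hasDerivAt_t hb).deriv
    simp only [zn0] at this ⊢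
    exact this
  have d4 : de p u.1 u.2 = fderiv ℂ (zn p 0) u (0, 1) := by
    have := (hasDerivAt_s hb).deriv
    simp only [zn0] at this ⊢
    exact this
  rw [br, d1, d2, d3, d4] at hbr
  change fderiv ℂ (eA T 0).1 u (1, 0) * fderiv ℂ (mA T 0).1 u (0, 1) -
    fderiv ℂ (eA T 0).1 u (0, 1) * fderiv ℂ (mA T 0).1 u (1, 0) = _
  rw [fe, fe, fm, fm, ← hbr]
  ring

theorem jA_c0 (T : Ctx κ Λ H Φ r ε α p J) : AR.cfO (jA T) 0 = 0 := by
  refine OP.ext' fun x => ?_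
  rw [cfO_zero, (jA_eq T x).self_of_nhds, T.ln.J0, mul_zero]
  rfl

theorem jA_c1 (T : Ctx κ Λ H Φ r ε α p J) : AR.cfO (jA T) 1 ≠ 0 := by
  intro h
  have h1 : (AR.cfO (jA T) 1).1 0 = (0 : OP).1 0 := by rw [h]
  rw [AR.cfO_apply] at h1
  have h2 := (cf_congr (show (jA T).1 =ᶠ[𝓝 (((0 : ℝ) : ℂ), (0 : ℂ))] _ from jA_eq T 0) 1).self_of_nhds
  rw [h2] at h1
  have ha : AnalyticAt ℂ (zn α 0) (((0 : ℝ) : ℂ), (0 : ℂ)) := zn_an T.ln.jα T.ln 0 0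
  have h3 : HasDerivAt (fun s : ℂ => 2 * (I * exp (I * zn α 0 (((0 : ℝ) : ℂ), s))) ^ 2) _ 0 :=
    ((((hasDerivAt_s ha).const_mul I).cexp.const_mul I).pow 2).const_mul 2
  have h4 := h3.mul T.ln.J'
  have h5 : cf (fun u => 2 * (I * exp (I * zn α 0 u)) ^ 2 * J u.2) 1 ((0 : ℝ) : ℂ) =
      2 * (I * exp (I * zn α 0 (((0 : ℝ) : ℂ), 0))) ^ 2 * (-(Λ : ℂ) ^ 3 / 4) := by
    have h6 : cf (fun u => 2 * (I * exp (I * zn α 0 u)) ^ 2 * J u.2) 1 ((0 : ℝ) : ℂ) =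
        deriv (fun s : ℂ => 2 * (I * exp (I * zn α 0 (((0 : ℝ) : ℂ), s))) ^ 2 * J s) 0 := by
      simp [cf]
    rw [h6]
    have h7 : HasDerivAt (fun s : ℂ => 2 * (I * exp (I * zn α 0 (((0 : ℝ) : ℂ), s))) ^ 2 * J s) _ 0 := h4
    rw [h7.deriv, T.ln.J0]
    ring
  rw [h5] at h1
  obtain ⟨h, ρ, L', HH, lam, l, φ, ld⟩ := T.ld
  have hΛ : (Λ : ℂ) ≠ 0 := by exact_mod_cast ld.Λ0.ne'
  have h8 : 2 * (I * exp (I * zn α 0 (((0 : ℝ) : ℂ), 0))) ^ 2 * (-(Λ : ℂ) ^ 3 / 4) ≠ 0 := by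
    refine mul_ne_zero (mul_ne_zero two_ne_zero (pow_ne_zero _ (mul_ne_zero I_ne_zero
      (exp_ne_zero _)))) (div_ne_zero (neg_ne_zero.2 (pow_ne_zero _ hΛ)) (by norm_num))
  exact h8 h1

end Vale.Agent.P097.H82
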