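import Vale.Agent.P097.H82.NatK

/-!
# P097 (helper82): the natural chain in `k⟦X⟧` and in `L`; jets and relations of `H`
-/

set_option linter.unusedSectionVars false
set_option linter.all false

open Filter Topology PowerSeries
open Vale.Agent.P097.H320 Vale.Agent.P097.H435.S10 Vale.Agent.P097.H456 Vale.Agent.P097.H456.Fct
open Vale.Agent.P097.TA Vale.Agent.P097.H202

namespace Vale.Agent.P097.H82

variable {κ Λ : ℝ} {H Φ : ℂ → ℂ} {r ε : ℝ} {α p : ℂ → ℂ → ℂ} {J : ℂ → ℂ}
variable {k : Type*} [Field k] [CharZero k] [Algebra OP k] {d : k → k}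
  {L : Type*} [Field L] [Algebra k⟦X⟧ L] [IsFractionRing k⟦X⟧ L] {Dt Ds : L → L}

theorem tk_eqv (W : World k d L Dt Ds) {F G : AR} (h : Eqv F G) : tk k F = tk k G := by
  rw [← sub_eq_zero, ← map_sub, tk_eq_zero_iff W]
  intro t
  filter_upwards [h t] with u hu
  change F.1 u - G.1 u = 0
  rw [hu, sub_self]

theorem TL_eqv (W : World k d L Dt Ds) {F G : AR} (h : Eqv F G) : TL k L F = TL k L G := by
  rw [TL_apply, TL_apply, tk_eqv W h]

/-! ### constants -/

theorem const_dT (c : ℂ) : Eqv (AR.dT (AR.const c)) 0 := by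
  intro t
  refine Eventually.of_forall fun u => ?_
  change fderiv ℂ (fun _ : ℂ × ℂ => c) u (1, 0) = 0
  rw [fderiv_fun_const]
  rfl

theorem const_dS (c : ℂ) : Eqv (AR.dS (AR.const c)) 0 := by
  intro t
  refine Eventually.of_forall fun u => ?_
  change fderiv ℂ (fun _ : ℂ × ℂ => c) u (0, 1) = 0
  rw [fderiv_fun_const]
  rfl

/-- `i` in `k⟦X⟧` -/
theorem cI_mul : (AR.const Complex.I) * (AR.const Complex.I) = -1 := by
  apply Subtype.ext
  funext u
  exact Complex.I_mul_I

theorem tk_cI : tk k (AR.const Complex.I) * tk k (AR.const Complex.I) = -1 := by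
  rw [← map_mul, cI_mul, map_neg, map_one]

/-! ### the chain -/

theorem nat_inc (W : World k d L Dt Ds) (T : Ctx κ Λ H Φ r ε α p J) (i : ℤ) :
    tk k (pA T i) = tk k (eA T i) ^ 2 * tk k (qA T i) + tk k (mA T i) := by
  rw [tk_eqv W (inc_A T i), map_add, map_mul, map_pow]

theorem nat_inc' (W : World k d L Dt Ds) (T : Ctx κ Λ H Φ r ε α p J) (i : ℤ) :
    tk k (pA T i) = tk k (eA T (i + 1)) ^ 2 * tk k (qA T i) + tk k (mA T (i + 1)) := by
  rw [tk_eqv W (inc_A' T i), map_add, map_mul, map_pow]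

theorem nat_EE (W : World k d L Dt Ds) (T : Ctx κ Λ H Φ r ε α p J) (i : ℤ) :
    tk k (EA T i) ^ 2 = -(tk k (eA T i) * tk k (eA T (i + 1))) := by
  rw [← map_pow, tk_eqv W (EE T i), map_neg, map_mul]

theorem nat_EF (W : World k d L Dt Ds) (T : Ctx κ Λ H Φ r ε α p J) (i : ℤ) :
    tk k (EA T i) * tk k (FA T i) = 1 := by
  rw [← map_mul, tk_eqv W (EF T i), map_one]

theorem nat_lawt (W : World k d L Dt Ds) (T : Ctx κ Λ H Φ r ε α p J) (i : ℤ) :
    ct d (tk k (pA T i)) = tk k (eA T i) * tk k (eA T (i + 1)) * ct d (tk k (qA T i)) := by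
  have h1 := law_alg (D := ct d) (ct_isDer W.d_der) (h0 := tk k (hA T i 0))
    (h1 := tk k (hA T i 1)) (h2 := tk k (hA T i 2)) (E := tk k (EA T i)) (F := tk k (FA T i))
    (c := tk k (AR.const Complex.I)) (x := tk k (pT T i)) (e := tk k (eA T i))
    (e' := tk k (eA T (i + 1))) tk_cI
    (by rw [ct_tk W, tk_eqv W (const_dT _), map_zero])
    (by rw [ct_tk W, tk_eqv W (hA_dT T i 0), map_mul])
    (by rw [ct_tk W, tk_eqv W (hA_dT T i 1), map_mul])
    (by rw [ct_tk W, tk_eqv W (EA_dT T i), map_mul, map_mul])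
    (by rw [ct_tk W, tk_eqv W (FA_dT T i), map_mul, map_mul, map_neg])
    (nat_EF W T i) (nat_EE W T i)
  have h2 : tk k (pA T i) = (tk k (hA T i 0) + tk k (AR.const Complex.I) * tk k (hA T i 1)) *
      tk k (EA T i) := by
    rw [pA, map_mul, map_add, map_mul]
  have h3 : tk k (qA T i) = (tk k (hA T i 0) - tk k (AR.const Complex.I) * tk k (hA T i 1)) *
      tk k (FA T i) := by
    rw [qA, map_mul, map_sub, map_mul]
  rw [h2, h3]
  exact h1.1

theorem nat_laws (W : World k d L Dt Ds) (T : Ctx κ Λ H Φ r ε α p J) (i : ℤ) :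
    d⁄dX k (tk k (pA T i)) = tk k (eA T i) * tk k (eA T (i + 1)) * d⁄dX k (tk k (qA T i)) := by
  have h1 := law_alg (D := fun f : k⟦X⟧ => d⁄dX k f) ds_isDer (h0 := tk k (hA T i 0))
    (h1 := tk k (hA T i 1)) (h2 := tk k (hA T i 2)) (E := tk k (EA T i)) (F := tk k (FA T i))
    (c := tk k (AR.const Complex.I)) (x := tk k (pS T i)) (e := tk k (eA T i))
    (e' := tk k (eA T (i + 1))) tk_cI
    (by rw [ds_tk, tk_eqv W (const_dS _), map_zero])
    (by rw [ds_tk, tk_eqv W (hA_dS T i 0), map_mul])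
    (by rw [ds_tk, tk_eqv W (hA_dS T i 1), map_mul])
    (by rw [ds_tk, tk_eqv W (EA_dS T i), map_mul, map_mul])
    (by rw [ds_tk, tk_eqv W (FA_dS T i), map_mul, map_mul, map_neg])
    (nat_EF W T i) (nat_EE W T i)
  have h2 : tk k (pA T i) = (tk k (hA T i 0) + tk k (AR.const Complex.I) * tk k (hA T i 1)) *
      tk k (EA T i) := by
    rw [pA, map_mul, map_add, map_mul]
  have h3 : tk k (qA T i) = (tk k (hA T i 0) - tk k (AR.const Complex.I) * tk k (hA T i 1)) *
      tk k (FA T i) := by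
    rw [qA, map_mul, map_sub, map_mul]
  rw [h2, h3]
  exact h1.1

/-! ### expansions -/

theorem ne_k (W : World k d L Dt Ds) {f : OP} (hf : f ≠ 0) : algebraMap OP k f ≠ 0 := by
  intro h
  exact hf (W.inj (by rw [h, map_zero]))

theorem tk_expansion (F : AR) : ∃ f, tk k F = C (algebraMap OP k (AR.cfO F 0)) +
    X * (C (algebraMap OP k (AR.cfO F 1)) + X * f) := by
  refine ⟨PowerSeries.mk fun n => coeff (n + 2) (tk k F), ?_⟩
  refine PowerSeries.ext fun n => ?_
  rcases n with _ | _ | n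
  · rw [map_add, coeff_zero_eq_constantCoeff_apply, cc_tk]
    simp
  · rw [coeff_tk]
    simp [coeff_C]
  · rw [map_add, coeff_C, if_neg (by omega), zero_add, coeff_succ_X_mul, map_add, coeff_C,
      if_neg (by omega), zero_add, coeff_succ_X_mul, coeff_mk]

theorem expand_expansion {N : ℕ} (hN : N ≠ 0) (F : AR) : ∃ f, expand N hN (tk k F) =
    C (algebraMap OP k (AR.cfO F 0)) + X ^ N * (C (algebraMap OP k (AR.cfO F 1)) + X * f) := by
  obtain ⟨f, hf⟩ := tk_expansion (k := k) F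
  refine ⟨X ^ (N - 1) * expand N hN f, ?_⟩
  rw [hf, map_add, map_mul, map_add, map_mul, expand_X, expand_C, expand_C]
  obtain ⟨n, rfl⟩ : ∃ n, N = n + 1 := ⟨N - 1, by omega⟩
  rw [Nat.add_sub_cancel]
  ring

open H830.Glance in
/-- 830's natural data -/
theorem nat' (W : World k d L Dt Ds) (T : Ctx κ Λ H Φ r ε α p J) {N : ℕ} (hN : N ≠ 0) :
    Nat' d (ct d) (fun f => d⁄dX k f) N (algebraMap OP k (AR.cfO (eA T 0) 0))
      (algebraMap OP k (AR.cfO (qA T 0) 0)) (fun i => expand N hN (tk k (eA T i)))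
      (fun i => expand N hN (tk k (mA T i))) (fun i => expand N hN (tk k (pA T i)))
      (fun i => expand N hN (tk k (qA T i))) where
  e i := by
    obtain ⟨f, hf⟩ := expand_expansion (k := k) hN (eA T i)
    refine ⟨f, ?_⟩
    rw [hf, eA_c0, eA_c1, W.dO, map_mul, map_intCast]
  q i := by
    obtain ⟨f, hf⟩ := expand_expansion (k := k) hN (qA T i)
    refine ⟨f, ?_⟩
    have h2 : algebraMap OP k (AR.cfO (qA T i) 1) =
        ((i : k) + 1 / 2) * d (algebraMap OP k (AR.cfO (qA T 0) 0)) := by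
      have h3 := congrArg (algebraMap OP k) (qA_c1 T i)
      rw [map_mul, map_mul, map_ofNat, map_intCast, ← W.dO] at h3
      push_cast at h3
      have h4 : (2 : k) ≠ 0 := two_ne_zero
      apply mul_left_cancel₀ h4
      rw [h3]
      field_simp
    rw [hf, qA_c0, h2]
  inc₁ i := by
    have := congrArg (expand N hN) (nat_inc W T i)
    rw [map_add, map_mul, map_pow] at this
    linear_combination this
  inc₂ i := by
    have := congrArg (expand N hN) (nat_inc' W T i)
    rw [map_add, map_mul, map_pow] at this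
    linear_combination this
  lawt i := by
    rw [ct_expand W.d_der, ct_expand W.d_der, nat_lawt W T i, map_mul, map_mul]
  laws i := by
    simp only [derivative_expand]
    rw [nat_laws W T i, map_mul, map_mul]
    ring

theorem isD_of (hd : IsDer (RingHom.id k) d) : H830.Glance.IsD d where
  add := hd.add
  mul a b := by
    rw [hd.mul]
    simp only [RingHom.id_apply]
    ring

theorem nat_de0 (W : World k d L Dt Ds) (T : Ctx κ Λ H Φ r ε α p J) :
    d (algebraMap OP k (AR.cfO (eA T 0) 0)) ≠ 0 := by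
  rw [W.dO]
  exact ne_k W (de0_ne T)

theorem nat_dq0 (W : World k d L Dt Ds) (T : Ctx κ Λ H Φ r ε α p J) :
    d (algebraMap OP k (AR.cfO (qA T 0) 0)) ≠ 0 := by
  rw [W.dO]
  exact ne_k W (dq0_ne T)

theorem nat_e0 (W : World k d L Dt Ds) (T : Ctx κ Λ H Φ r ε α p J) :
    algebraMap OP k (AR.cfO (eA T 0) 0) ≠ 0 := ne_k W (e0_ne T)

theorem cc_eA (T : Ctx κ Λ H Φ r ε α p J) (i : ℤ) :
    constantCoeff (tk k (eA T i)) = algebraMap OP k (AR.cfO (eA T 0) 0) := by
  rw [cc_tk, eA_c0]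

theorem cc_qA (T : Ctx κ Λ H Φ r ε α p J) (i : ℤ) :
    constantCoeff (tk k (qA T i)) = algebraMap OP k (AR.cfO (qA T 0) 0) := by
  rw [cc_tk, qA_c0]

/-- the two lines of a letter are different -/
theorem eA_sq_ne (W : World k d L Dt Ds) (T : Ctx κ Λ H Φ r ε α p J) (i : ℤ) :
    tk k (eA T i) ^ 2 ≠ tk k (eA T (i + 1)) ^ 2 := by
  intro h
  have h1 := congrArg (coeff 1) h
  rw [pow_two, pow_two, coeff_one_mul', coeff_one_mul', cc_eA, cc_eA, coeff_tk, coeff_tk, eA_c1,
    eA_c1, map_mul, map_mul, map_intCast, map_intCast] at h1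
  have h2 : (2 : k) * (algebraMap OP k (AR.cfO (eA T 0) 0) *
      algebraMap OP k (OP.D (AR.cfO (eA T 0) 0))) = 0 := by
    push_cast at h1
    linear_combination -h1
  exact mul_ne_zero two_ne_zero (mul_ne_zero (ne_k W (e0_ne T)) (ne_k W (de0_ne T))) h2

/-! ### jets -/

/-- the derivatives of the support function in terms of the vertex -/
noncomputable def ajet {L : Type*} [Field L] (Dt : L → L) (c E P Q : L) : ℕ → L
  | 0 => (P / E + Q * E) / 2
  | 1 => c * (Q * E - P / E) / 2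
  | (l + 2) => Dt (ajet Dt c E P Q (l + 1)) * (c * E) / Dt E

theorem nat_jet (W : World k d L Dt Ds) (T : Ctx κ Λ H Φ r ε α p J) (i : ℤ) (l : ℕ) :
    ajet Dt (TL k L (AR.const Complex.I)) (TL k L (EA T i)) (TL k L (pA T i)) (TL k L (qA T i)) l =
      TL k L (hA T i l) := by
  have hL : CharZero L := charZero_of_injective_ringHom
    (f := (algebraMap k⟦X⟧ L).comp (C (R := k)))
    ((IsFractionRing.injective k⟦X⟧ L).comp C_injective)
  set c := TL k L (AR.const Complex.I) with hc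
  have hcc : c * c = -1 := by rw [hc, ← map_mul, cI_mul, map_neg, map_one]
  have hc0 : c ≠ 0 := by
    rintro h
    rw [h, mul_zero] at hcc
    exact one_ne_zero (neg_eq_zero.1 hcc.symm)
  have hEF : TL k L (EA T i) * TL k L (FA T i) = 1 := by
    rw [← map_mul, TL_eqv W (EF T i), map_one]
  have hE0 : TL k L (EA T i) ≠ 0 := left_ne_zero_of_mul_eq_one hEF
  have hP : TL k L (pA T i) = (TL k L (hA T i 0) + c * TL k L (hA T i 1)) * TL k L (EA T i) := by
    rw [pA, map_mul, map_add, map_mul]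
  have hQ : TL k L (qA T i) = (TL k L (hA T i 0) - c * TL k L (hA T i 1)) * TL k L (FA T i) := by
    rw [qA, map_mul, map_sub, map_mul]
  have hx : TL k L (pT T i) ≠ 0 := by
    intro h
    rw [TL_eq_zero_iff W] at h
    have h1 := (h 0).self_of_nhds
    change fderiv ℂ (ps α i) (((0 : ℝ) : ℂ), 0) (1, 0) = 0 at h1
    rw [DT_ps T] at h1
    exact a1_ne T 0 h1
  have hPE : TL k L (pA T i) / TL k L (EA T i) = TL k L (hA T i 0) + c * TL k L (hA T i 1) := by
    rw [hP]
    field_simp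
  have hQE : TL k L (qA T i) * TL k L (EA T i) = TL k L (hA T i 0) - c * TL k L (hA T i 1) := by
    rw [hQ]
    linear_combination (TL k L (hA T i 0) - c * TL k L (hA T i 1)) * hEF
  induction l with
  | zero =>
    rw [ajet, hPE, hQE]
    ring
  | succ l ih =>
    rcases l with _ | l
    · rw [ajet, hPE, hQE]
      linear_combination (-TL k L (hA T i 1)) * hcc
    · rw [ajet, ih, Dt_TL W, Dt_TL W, TL_eqv W (hA_dT T i (l + 1)), TL_eqv W (EA_dT T i),
        map_mul, map_mul, map_mul, ← hc]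
      field_simp

theorem ajet_map {L' : Type*} [Field L'] {D : L' → L'} (σ : L' →+* L)
    (hσ : ∀ x, Dt (σ x) = σ (D x)) (c E P Q : L') (l : ℕ) :
    ajet Dt (σ c) (σ E) (σ P) (σ Q) l = σ (ajet D c E P Q l) := by
  induction l with
  | zero =>
    have h2 : σ 2 = 2 := map_ofNat σ 2
    simp only [ajet, map_div₀, map_add, map_mul, h2]
  | succ l ih =>
    rcases l with _ | l
    · have h2 : σ 2 = 2 := map_ofNat σ 2
      simp only [ajet, map_div₀, map_sub, map_mul, h2]
    · rw [ajet, ih, hσ, hσ, ajet, map_div₀, map_mul, map_mul]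

/-! ### relations of `H` -/

/-- evaluation at a point -/
def evalAt (u : ℂ × ℂ) : AR →+* ℂ where
  toFun F := F.1 u
  map_one' := rfl
  map_mul' _ _ := rfl
  map_zero' := rfl
  map_add' _ _ := rfl

/-- constants in `L` -/
noncomputable def cL (k L : Type*) [Field k] [Algebra OP k] [Field L] [Algebra k⟦X⟧ L] : ℂ →+* L :=
  (TL k L).comp AR.constH

theorem nat_rel (W : World k d L Dt Ds) (T : Ctx κ Λ H Φ r ε α p J) (i : ℤ) {m : ℕ}
    {P : MvPolynomial (Fin (m + 2)) ℂ} (hP : ∀ z ∈ Str κ, H456.Fct.Rel m P H z) :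
    MvPolynomial.eval₂ (cL k L) (Fin.cons (TL k L (EA T i)) fun l : Fin (m + 1) =>
      TL k L (hA T i l)) P = 0 := by
  have h1 : AR.Nul (MvPolynomial.eval₂ AR.constH (Fin.cons (EA T i) fun l : Fin (m + 1) =>
      hA T i l) P).1 := by
    intro t
    filter_upwards [ps_mem T i t] with u hu
    have h2 := hP _ hu
    change evalAt u (MvPolynomial.eval₂ AR.constH (Fin.cons (EA T i) fun l : Fin (m + 1) =>
      hA T i l) P) = 0
    rw [MvPolynomial.hom_eval₂]
    rw [H456.Fct.Rel] at h2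
    rw [← h2]
    change _ = MvPolynomial.eval₂ (RingHom.id ℂ) _ P
    congr 1
    funext j
    refine Fin.cases ?_ (fun j => ?_) j
    · rfl
    · rfl
  rw [← TL_eq_zero_iff W, MvPolynomial.hom_eval₂] at h1
  rw [← h1]
  congr 1
  funext j
  refine Fin.cases ?_ (fun j => ?_) j
  · rfl
  · rfl

end Vale.Agent.P097.H82
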