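import Mathlib

/-!
# P097, helper82: formal Newton-Puiseux over an algebraically closed field of characteristic zero
(generalised from helper469, P298/H469/Puiseux.lean, which is over the complex numbers)
-/

open Polynomial IsLocalRing

namespace Vale.Agent.P097.H82

set_option linter.unusedSectionVars false

namespace Puiseux

variable {κ : Type*} [Field κ]

/-- the substitution `t ↦ t ^ N` -/
noncomputable abbrev E (N : ℕ) (hN : N ≠ 0) : PowerSeries κ →+* PowerSeries κ :=
  (PowerSeries.expand N hN : PowerSeries κ →ₐ[κ] PowerSeries κ).toRingHom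

/-- the product of linear factors -/
noncomputable abbrev lin (β : Multiset (PowerSeries κ)) : Polynomial (PowerSeries κ) :=
  (β.map (fun b => Polynomial.X - Polynomial.C b)).prod

theorem E_mul (p q : ℕ) (hp : p ≠ 0) (hq : q ≠ 0) :
    E (κ := κ) (p * q) (Nat.mul_ne_zero hp hq) = (E p hp).comp (E q hq) := by
  ext1 x
  exact PowerSeries.expand_mul p hp q hq x

theorem map_lin (f : PowerSeries κ →+* PowerSeries κ) (β : Multiset (PowerSeries κ)) :
    (lin β).map f = lin (β.map f) := by
  rw [lin, lin, Polynomial.map_multiset_prod, Multiset.map_map, Multiset.map_map]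
  congr 1
  refine Multiset.map_congr rfl fun b _ => ?_
  simp

/-- `P (t ^ N)` is a product of linear factors -/
def SplitN (P : Polynomial (PowerSeries κ)) : Prop :=
  ∃ (N : ℕ) (hN : N ≠ 0) (β : Multiset (PowerSeries κ)), P.map (E N hN) = lin β

theorem splitN_of_map {P : Polynomial (PowerSeries κ)} {N : ℕ} (hN : N ≠ 0)
    (h : SplitN (P.map (E N hN))) : SplitN P := by
  obtain ⟨M, hM, β, h1⟩ := h
  refine ⟨M * N, Nat.mul_ne_zero hM hN, β, ?_⟩
  rw [E_mul M N hM hN, ← Polynomial.map_map, h1]

theorem splitN_mul {R1 R2 : Polynomial (PowerSeries κ)} {N : ℕ} {hN : N ≠ 0}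
    {β : Multiset (PowerSeries κ)} (h1 : R1.map (E N hN) = lin β)
    (h2 : SplitN (R2.map (E N hN))) : SplitN (R1 * R2) := by
  refine splitN_of_map hN ?_
  obtain ⟨M, hM, γ, h3⟩ := h2
  refine ⟨M, hM, β.map (E M hM) + γ, ?_⟩
  rw [Polynomial.map_mul, Polynomial.map_mul, h1, h3, map_lin]
  simp [lin]

theorem lin_scaleRoots (β : Multiset (PowerSeries κ)) (r : PowerSeries κ) :
    scaleRoots (lin β) r = lin (β.map (fun b => r * b)) := by
  induction β using Multiset.induction_on with
  | empty => simp [lin]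
  | cons a s ih =>
    have h1 : lin (a ::ₘ s) = (X - C a) * lin s := by simp [lin]
    have h2 : lin ((a ::ₘ s).map (fun b => r * b)) =
        (X - C (r * a)) * lin (s.map (fun b => r * b)) := by simp [lin]
    rw [h1, h2, mul_scaleRoots_of_noZeroDivisors, ih, X_sub_C_scaleRoots, mul_comm r]

theorem splitN_scale {Q : Polynomial (PowerSeries κ)} (hQ : Q.Monic) {r : PowerSeries κ}
    (h : SplitN Q) : SplitN (scaleRoots Q r) := by
  obtain ⟨N, hN, β, h1⟩ := h
  refine ⟨N, hN, β.map (fun b => E N hN r * b), ?_⟩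
  rw [Polynomial.map_scaleRoots, h1, lin_scaleRoots]
  rw [hQ.leadingCoeff, map_one]
  exact one_ne_zero

theorem splitN_shift {P : Polynomial (PowerSeries κ)} {c : PowerSeries κ}
    (h : SplitN (P.comp (X - C c))) : SplitN P := by
  obtain ⟨N, hN, β, h1⟩ := h
  refine ⟨N, hN, β.map (fun b => b - E N hN c), ?_⟩
  have h2 : P = (P.comp (X - C c)).comp (X + C c) := by
    rw [comp_assoc, sub_comp, X_comp, C_comp, add_sub_cancel_right, comp_X]
  rw [h2, Polynomial.map_comp, h1, lin, lin, Multiset.map_map, Polynomial.multiset_prod_comp,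
    Multiset.map_map]
  congr 1
  refine Multiset.map_congr rfl fun b _ => ?_
  simp only [Function.comp_apply, Polynomial.map_add, map_X, map_C, sub_comp, X_comp, C_comp, C_sub]
  ring


theorem dvd_of_factorization {A : Type*} [CommRing A] [IsLocalRing A]
    [IsAdicComplete (maximalIdeal A) A] {S f : A[X]} {h : PowerSeries A}
    (H : (S : PowerSeries A).IsWeierstrassFactorization f h) : f ∣ S := by
  have h1 : (Ideal.Quotient.mk (Ideal.span {f})) S = 0 := by
    apply H.isDistinguishedAt.algEquivQuotient.injective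
    rw [map_zero, Polynomial.IsDistinguishedAt.algEquivQuotient_apply]
    have h2 : (Ideal.Quotient.mk (Ideal.span {(f : PowerSeries A)})) (S : PowerSeries A) = 0 := by
      rw [Ideal.Quotient.eq_zero_iff_mem, Ideal.mem_span_singleton]
      exact ⟨h, H.eq_mul⟩
    exact h2
  rw [Ideal.Quotient.eq_zero_iff_mem, Ideal.mem_span_singleton] at h1
  exact h1


noncomputable instance instComplete : IsAdicComplete (maximalIdeal (PowerSeries κ)) (PowerSeries κ) := by
  rw [PowerSeries.maximalIdeal_eq_span_X]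
  infer_instance

theorem mem_maximal_iff (x : (PowerSeries κ)) : x ∈ maximalIdeal (PowerSeries κ) ↔ PowerSeries.constantCoeff x = 0 := by
  rw [mem_maximalIdeal, mem_nonunits_iff, PowerSeries.isUnit_iff_constantCoeff, isUnit_iff_ne_zero,
    not_not]

variable [IsAlgClosed κ] [CharZero κ]

/-- one step of Hensel's lemma, through Weierstrass preparation -/
theorem exists_factor {d : ℕ} (hd : 0 < d) {Q : Polynomial (PowerSeries κ)} (hm : Q.Monic) (hdeg : Q.natDegree = d)
    (h0 : PowerSeries.constantCoeff (Q.coeff (d - 1)) = 0)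
    (hne : ∃ i < d, PowerSeries.constantCoeff (Q.coeff i) ≠ 0) :
    ∃ (Q1 Q2 : Polynomial (PowerSeries κ)), Q1.Monic ∧ Q2.Monic ∧ Q1.natDegree < d ∧ Q2.natDegree < d ∧
      Q = Q1 * Q2 := by
  set q0 : κ[X] := Q.map PowerSeries.constantCoeff with hq0
  have hq0m : q0.Monic := hm.map _
  have hq0d : q0.natDegree = d := by rw [hq0, hm.natDegree_map, hdeg]
  obtain ⟨α, hα⟩ := IsAlgClosed.exists_root q0 (by
    rw [Polynomial.degree_eq_natDegree hq0m.ne_zero, hq0d]
    exact_mod_cast hd.ne')
  -- the shifted polynomial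
  set S : Polynomial (PowerSeries κ) := Q.comp (X + C (PowerSeries.C α)) with hS
  have hSm : S.Monic := hm.comp_X_add_C _
  have hSd : S.natDegree = d := by rw [hS, natDegree_comp, natDegree_X_add_C, mul_one, hdeg]
  have hSmap : S.map PowerSeries.constantCoeff = q0.comp (X + C α) := by
    rw [hS, Polynomial.map_comp]
    simp [hq0]
  have hS0 : PowerSeries.constantCoeff (S.coeff 0) = 0 := by
    rw [← coeff_map, hSmap, coeff_zero_eq_eval_zero, eval_comp]
    simpa using hα
  have hne0 : (S : PowerSeries (PowerSeries κ)).map (residue (PowerSeries κ)) ≠ 0 := by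
    intro h
    have h1 := congrArg (PowerSeries.coeff d) h
    rw [PowerSeries.coeff_map, Polynomial.coeff_coe, map_zero] at h1
    have h2 : S.coeff d = 1 := by
      have := hSm.coeff_natDegree
      rwa [hSd] at this
    rw [h2, map_one] at h1
    exact one_ne_zero h1
  obtain ⟨f, h, H⟩ := PowerSeries.exists_isWeierstrassFactorization hne0
  have hfm : f.Monic := H.isDistinguishedAt.monic
  obtain ⟨g, hg⟩ := dvd_of_factorization H
  have hgm : g.Monic := hfm.of_mul_monic_left (hg ▸ hSm)
  have hsum : f.natDegree + g.natDegree = d := by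
    rw [← hfm.natDegree_mul hgm, ← hg, hSd]
  -- degree of f is positive
  have hf0 : f.natDegree ≠ 0 := by
    intro h1
    have h2 : f = 1 := hfm.natDegree_eq_zero.1 h1
    have h3 : IsUnit (S : PowerSeries (PowerSeries κ)) := by
      rw [H.eq_mul, h2, Polynomial.coe_one, one_mul]
      exact H.isUnit
    rw [PowerSeries.isUnit_iff_constantCoeff, Polynomial.constantCoeff_coe] at h3
    have h4 := (mem_maximal_iff _).2 hS0
    exact (mem_maximalIdeal _).1 h4 h3
  have hfd : f.natDegree ≠ d := by
    intro h1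
    have h2 : g = 1 := hgm.natDegree_eq_zero.1 (by omega)
    have h3 : S = f := by rw [hg, h2, mul_one]
    have h4 : S.map PowerSeries.constantCoeff = X ^ d := by
      ext j
      rw [coeff_map, coeff_X_pow]
      rcases lt_trichotomy j d with h5 | h5 | h5
      · rw [if_neg h5.ne]
        have h6 : f.coeff j ∈ maximalIdeal (PowerSeries κ) := H.isDistinguishedAt.mem (by rw [h1]; exact h5)
        rw [h3]
        exact (mem_maximal_iff _).1 h6
      · rw [if_pos h5, h5]
        have := hSm.coeff_natDegree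
        rw [hSd] at this
        rw [this, map_one]
      · rw [if_neg h5.ne', coeff_eq_zero_of_natDegree_lt (by rw [hSd]; exact h5), map_zero]
    have h5 : q0 = (X - C α) ^ d := by
      have h6 : q0 = (q0.comp (X + C α)).comp (X - C α) := by
        rw [comp_assoc, add_comp, X_comp, C_comp, sub_add_cancel, comp_X]
      rw [h6, ← hSmap, h4, X_pow_comp]
    have h6 : q0.coeff (d - 1) = 0 := by rw [hq0, coeff_map, h0]
    rw [h5, sub_eq_add_neg, ← C_neg, coeff_X_add_C_pow] at h6
    have h7 : d - (d - 1) = 1 := by omega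
    have h8 : d.choose (d - 1) = d := by
      rw [Nat.choose_symm_of_eq_add (show d = d - 1 + 1 by omega), Nat.choose_one_right]
    rw [h7, h8, pow_one] at h6
    have h9 : α = 0 := by
      rcases mul_eq_zero.1 h6 with h | h
      · exact neg_eq_zero.1 h
      · exact absurd h (by exact_mod_cast hd.ne')
    rw [h9, C_0, sub_zero] at h5
    obtain ⟨i, hi, hi2⟩ := hne
    apply hi2
    have h10 : q0.coeff i = 0 := by rw [h5, coeff_X_pow, if_neg hi.ne]
    rwa [hq0, coeff_map] at h10
  refine ⟨f.comp (X - C (PowerSeries.C α)), g.comp (X - C (PowerSeries.C α)), hfm.comp_X_sub_C _,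
    hgm.comp_X_sub_C _, ?_, ?_, ?_⟩
  · rw [natDegree_comp, natDegree_X_sub_C, mul_one]
    omega
  · rw [natDegree_comp, natDegree_X_sub_C, mul_one]
    omega
  · rw [← mul_comp, ← hg, hS, comp_assoc, add_comp, X_comp, C_comp, sub_add_cancel, comp_X]


/-! ### The Tschirnhaus transformation -/


theorem coeff_comp' {P : Polynomial (PowerSeries κ)} {d : ℕ} (hd : P.natDegree = d) (c : (PowerSeries κ)) (i : ℕ) :
    (P.comp (X - C c)).coeff i =
      ∑ j ∈ Finset.range (d + 1), P.coeff j * ((-c) ^ (j - i) * (j.choose i : (PowerSeries κ))) := by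
  rw [comp, eval₂_eq_sum_range, finsetSum_coeff, hd]
  refine Finset.sum_congr rfl fun j _ => ?_
  rw [coeff_C_mul, sub_eq_add_neg, ← C_neg, coeff_X_add_C_pow]

/-- `a / d` -/
noncomputable def divD (d : ℕ) (a : (PowerSeries κ)) : (PowerSeries κ) := PowerSeries.C ((d : κ)⁻¹) * a

theorem divD_mul {d : ℕ} (hd : 0 < d) (a : (PowerSeries κ)) : divD d a * (d : (PowerSeries κ)) = a := by
  have h1 : (d : (PowerSeries κ)) = PowerSeries.C (d : κ) := by simp
  have h2 : (d : κ) ≠ 0 := by exact_mod_cast hd.ne'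
  rw [divD, h1, mul_right_comm, ← map_mul, inv_mul_cancel₀ h2, map_one, one_mul]

theorem coeff_comp_pred {P : Polynomial (PowerSeries κ)} {d : ℕ} (hd : 0 < d) (hm : P.Monic)
    (hP : P.natDegree = d) :
    (P.comp (X - C (divD d (P.coeff (d - 1))))).coeff (d - 1) = 0 := by
  obtain ⟨e, rfl⟩ : ∃ e, d = e + 1 := ⟨d - 1, by omega⟩
  have h0 := divD_mul hd (P.coeff e)
  rw [coeff_comp' hP, Finset.sum_range_succ, Finset.sum_range_succ, Finset.sum_eq_zero]
  · have h1 : P.coeff (e + 1) = 1 := by
      have := hm.coeff_natDegree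
      rwa [hP] at this
    rw [h1]
    simp only [Nat.add_sub_cancel, Nat.choose_self, Nat.sub_self, Nat.add_sub_cancel_left,
      Nat.choose_succ_self_right, pow_zero, pow_one, Nat.cast_one, mul_one, zero_add, one_mul]
    rw [neg_mul, h0]
    ring
  · intro j hj
    rw [Finset.mem_range] at hj
    rw [Nat.choose_eq_zero_of_lt (by omega)]
    simp

/-- the monic polynomial with given lower coefficients -/
noncomputable def mk {d : ℕ} (b : Fin d → (PowerSeries κ)) : Polynomial (PowerSeries κ) :=
  X ^ d + ∑ i : Fin d, C (b i) * X ^ (i : ℕ)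

theorem mk_monic {d : ℕ} (b : Fin d → (PowerSeries κ)) : (mk b).Monic ∧ (mk b).natDegree = d := by
  have h := degree_sum_fin_lt b
  refine ⟨monic_X_pow_add h, ?_⟩
  rw [mk, natDegree_add_eq_left_of_degree_lt (by rw [degree_X_pow]; exact h), natDegree_X_pow]

theorem coeff_mk {d : ℕ} (b : Fin d → (PowerSeries κ)) (i : Fin d) : (mk b).coeff i = b i := by
  rw [mk, coeff_add, coeff_X_pow, if_neg (by omega), zero_add, finsetSum_coeff,
    Finset.sum_eq_single i]
  · simp
  · intro j _ hj
    rw [coeff_C_mul, coeff_X_pow, if_neg, mul_zero]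
    intro h
    exact hj (Fin.ext h.symm)
  · intro h
    exact absurd (Finset.mem_univ _) h

/-- the induction step, for polynomials without term of degree `d - 1` -/
theorem step {d : ℕ} (hd : 0 < d)
    (ih : ∀ e < d, ∀ P : Polynomial (PowerSeries κ), P.Monic → P.natDegree = e → SplitN P)
    {P : Polynomial (PowerSeries κ)} (hm : P.Monic) (hP : P.natDegree = d) (h0 : P.coeff (d - 1) = 0) :
    SplitN P := by
  classical
  have h2 : ∀ i : Fin d, ∃ (k : ℕ) (g : (PowerSeries κ)), P.coeff i = PowerSeries.X ^ k * g ∧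
      (P.coeff i = 0 → g = 0) ∧ (P.coeff i ≠ 0 → PowerSeries.constantCoeff g ≠ 0) := by
    intro i
    by_cases h3 : P.coeff i = 0
    · exact ⟨0, 0, by rw [h3, mul_zero], fun _ => rfl, fun h => absurd h3 h⟩
    · refine ⟨(P.coeff i).order.toNat, PowerSeries.divXPowOrder (P.coeff i),
        (PowerSeries.X_pow_order_mul_divXPowOrder).symm, fun h => absurd h h3, fun _ => ?_⟩
      exact fun h => h3 (PowerSeries.constantCoeff_divXPowOrder_eq_zero_iff.1 h)
  choose k g hg2 hg3 hg4 using h2
  by_cases hall : ∀ i : Fin d, P.coeff i = 0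
  · refine ⟨1, one_ne_zero, Multiset.replicate d 0, ?_⟩
    have h3 : P = X ^ d := by
      ext1 j
      rw [coeff_X_pow]
      rcases lt_trichotomy j d with h | h | h
      · rw [if_neg h.ne]
        exact hall ⟨j, h⟩
      · rw [if_pos h, h]
        have := hm.coeff_natDegree
        rwa [hP] at this
      · rw [if_neg h.ne', coeff_eq_zero_of_natDegree_lt]
        rw [hP]
        exact h
    rw [h3]
    simp [lin]
  obtain ⟨i1, hi1⟩ := not_forall.1 hall
  set I : Finset (Fin d) := Finset.univ.filter fun i : Fin d => P.coeff i ≠ 0 with hI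
  have hmemI : ∀ i : Fin d, i ∈ I ↔ P.coeff i ≠ 0 := by
    intro i
    simp [hI]
  set M : ℕ := d.factorial with hM
  have hMpos : 0 < M := Nat.factorial_pos d
  have hM0 : M ≠ 0 := hMpos.ne'
  have hdvd : ∀ i : Fin d, (d - i) ∣ M := fun i =>
    Nat.dvd_factorial (by have := i.2; omega) (Nat.sub_le _ _)
  obtain ⟨i0, hi0, hmin⟩ := Finset.exists_min_image I (fun i => M * k i / (d - i))
    ⟨i1, (hmemI i1).2 hi1⟩
  set R : ℕ := M * k i0 / (d - i0) with hR
  have key : ∀ i ∈ I, R * (d - i) ≤ M * k i := by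
    intro i hi
    have h3 := hmin i hi
    exact (Nat.le_div_iff_mul_le (by have := i.2; omega)).1 h3
  have key0 : R * (d - i0) = M * k i0 :=
    Nat.div_mul_cancel (dvd_mul_of_dvd_left (hdvd i0) _)
  set b : Fin d → (PowerSeries κ) := fun i =>
    PowerSeries.X ^ (M * k i - R * (d - i)) * E M hM0 (g i) with hb
  have hQm := mk_monic b
  have hscale : P.map (E M hM0) = scaleRoots (mk b) (PowerSeries.X ^ R) := by
    ext1 j
    rw [coeff_scaleRoots, hQm.2, coeff_map]
    rcases lt_trichotomy j d with h | h | h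
    · have h3 := hg2 ⟨j, h⟩
      have h4 : (mk b).coeff j = b ⟨j, h⟩ := coeff_mk b ⟨j, h⟩
      simp only at h3
      rw [h3, h4, hb]
      simp only
      by_cases hj : (⟨j, h⟩ : Fin d) ∈ I
      · have h5 := key _ hj
        simp only at h5
        have h6 : M * k ⟨j, h⟩ = (M * k ⟨j, h⟩ - R * (d - j)) + R * (d - j) := by omega
        have h7 : E (κ := κ) M hM0 PowerSeries.X = PowerSeries.X ^ M := PowerSeries.expand_X M hM0
        rw [map_mul, map_pow, h7, ← pow_mul, ← pow_mul]
        conv_lhs => rw [h6, pow_add]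
        ring
      · have h5 := hg3 ⟨j, h⟩ (by
          by_contra h6
          exact hj ((hmemI _).2 h6))
        rw [h5]
        simp
    · rw [h, Nat.sub_self, pow_zero, mul_one]
      have h3 := hm.coeff_natDegree
      have h4 := hQm.1.coeff_natDegree
      rw [hP] at h3
      rw [hQm.2] at h4
      rw [h3, h4, map_one]
    · rw [coeff_eq_zero_of_natDegree_lt (by rw [hP]; exact h),
        coeff_eq_zero_of_natDegree_lt (by rw [hQm.2]; exact h), zero_mul, map_zero]
  have hQ0 : PowerSeries.constantCoeff ((mk b).coeff (d - 1)) = 0 := by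
    have h3 : (mk b).coeff (d - 1) = b ⟨d - 1, by omega⟩ := coeff_mk b ⟨d - 1, by omega⟩
    have h4 := hg3 ⟨d - 1, by omega⟩ h0
    rw [h3, hb]
    simp only [h4, mul_zero, map_zero]
  have hQne : ∃ i < d, PowerSeries.constantCoeff ((mk b).coeff i) ≠ 0 := by
    refine ⟨i0, i0.2, ?_⟩
    rw [coeff_mk b i0, hb]
    simp only [key0, Nat.sub_self, pow_zero, one_mul]
    have h5 : PowerSeries.constantCoeff (E M hM0 (g i0)) = PowerSeries.constantCoeff (g i0) :=
      PowerSeries.constantCoeff_expand M hM0 _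
    rw [h5]
    exact hg4 i0 ((hmemI i0).1 hi0)
  obtain ⟨Q1, Q2, hQ1m, hQ2m, hd1, hd2, hfac⟩ := exists_factor hd hQm.1 hQm.2 hQ0 hQne
  obtain ⟨N1, hN1, β1, hs1⟩ := ih _ hd1 Q1 hQ1m rfl
  have hs2 : SplitN (Q2.map (E N1 hN1)) :=
    ih _ hd2 _ (hQ2m.map _) (hQ2m.natDegree_map _)
  have h3 : SplitN (mk b) := by
    rw [hfac]
    exact splitN_mul hs1 hs2
  refine splitN_of_map hM0 ?_
  rw [hscale]
  exact splitN_scale hQm.1 h3

theorem main (d : ℕ) : ∀ P : Polynomial (PowerSeries κ), P.Monic → P.natDegree = d → SplitN P := by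
  induction d using Nat.strong_induction_on with
  | _ d ih =>
  intro P hm hP
  rcases Nat.eq_zero_or_pos d with hd | hd
  · refine ⟨1, one_ne_zero, 0, ?_⟩
    have h1 : P = 1 := hm.natDegree_eq_zero.1 (by rw [hP, hd])
    rw [h1]
    simp [lin]
  · refine splitN_shift (c := divD d (P.coeff (d - 1))) ?_
    refine step hd ih (hm.comp_X_sub_C _) ?_ (coeff_comp_pred hd hm hP)
    rw [natDegree_comp, natDegree_X_sub_C, mul_one, hP]

end Puiseux

/-- The formal Newton-Puiseux theorem for monic polynomials over `κ⟦t⟧`. -/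
theorem exists_puiseux {κ : Type*} [Field κ] [IsAlgClosed κ] [CharZero κ] (P : Polynomial (PowerSeries κ)) (hP : P.Monic) :
    ∃ N : ℕ, ∃ hN : N ≠ 0, ∃ β : Multiset (PowerSeries κ),
      P.map (PowerSeries.expand N hN : PowerSeries κ →ₐ[κ] PowerSeries κ).toRingHom =
        (β.map (fun b => Polynomial.X - Polynomial.C b)).prod :=
  Puiseux.main P.natDegree P hP rfl

end Vale.Agent.P097.H82
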