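import Vale.Agent.P097.H128.Sector.A3
import Vale.Agent.P097.H650.TayS

/-! # P097 / REG-B1: the Taylor coefficients of the label continue to convex sets

Owner: helper82. -/

set_option linter.all false

open Complex Metric Filter Topology Set

namespace Vale.Agent.P097.SC

open Vale.Agent.P097.TA Vale.Agent.P097.H202

noncomputable section

variable {Φ q : ℂ → ℂ} {c z : ℂ}

theorem tc_mul_snd {g : ℂ × ℂ → ℂ} (hg : AnalyticAt ℂ g (z, 0)) (k : ℕ) :
    NZ.tc (fun v => v.2 * g v) k z = if k = 0 then 0 else NZ.tc g (k - 1) z := by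
  have h1 : AnalyticAt ℂ (fun v : ℂ × ℂ => v.2) (z, 0) := analyticAt_snd
  have h2 := H650.tc_mul h1 hg k
  have h3 : NZ.tc (fun v => v.2 * g v) k z = H650.tc ((fun v : ℂ × ℂ => v.2) * g) k z := rfl
  rw [h3, h2]
  rcases Nat.eq_zero_or_pos k with rfl | hk
  · simp [H650.tc_snd]
  · obtain ⟨m, rfl⟩ := Nat.exists_eq_succ_of_ne_zero hk.ne'
    rw [Finset.sum_eq_single (1, m)]
    · simp [H650.tc_snd]; rfl
    · rintro ⟨i, j⟩ hij hne
      rw [Finset.HasAntidiagonal.mem_antidiagonal] at hij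
      simp only at hij ⊢
      rw [H650.tc_snd, if_neg, zero_mul]
      rintro rfl
      apply hne
      have : j = m := by omega
      rw [this]
    · intro h
      exfalso
      apply h
      rw [Finset.HasAntidiagonal.mem_antidiagonal]
      show 1 + m = m + 1
      omega

theorem tc_pow_mul {g : ℂ × ℂ → ℂ} (hg : AnalyticAt ℂ g (z, 0)) (m : ℕ) : ∀ k : ℕ,
    NZ.tc (fun v => v.2 ^ m * g v) k z = if k < m then 0 else NZ.tc g (k - m) z := by
  induction m with
  | zero => intro k; simp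
  | succ m ih =>
    intro k
    have h1 : (fun v : ℂ × ℂ => v.2 ^ (m + 1) * g v) = fun v => v.2 * (v.2 ^ m * g v) := by
      funext v; ring
    have h0 := tc_mul_snd (g := fun v : ℂ × ℂ => v.2 ^ m * g v) ((analyticAt_snd.pow m).mul hg) k
    rw [h1, h0]
    rcases Nat.eq_zero_or_pos k with rfl | hk
    · simp
    · rw [if_neg hk.ne', ih (k - 1)]
      by_cases h : k < m + 1
      · rw [if_pos h, if_pos (by omega)]
      · rw [if_neg h, if_neg (by omega)]
        congr 1
        omega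

theorem tc_pow_mul_eq {f g : ℂ × ℂ → ℂ} (hg : AnalyticAt ℂ g (z, 0)) (m : ℕ)
    (h : ∀ᶠ v in 𝓝 ((z, 0) : ℂ × ℂ), f v = v.2 ^ m * g v) :
    (∀ k < m, NZ.tc f k z = 0) ∧ NZ.tc f m z = g (z, 0) := by
  have h1 := (NZ.tc_congr h).self_of_nhds
  refine ⟨fun k hk => ?_, ?_⟩
  · rw [h1 k, tc_pow_mul hg, if_pos hk]
  · rw [h1 m, tc_pow_mul hg, if_neg (lt_irrefl m), Nat.sub_self]
    exact H650.tc_zero g z

/-- contribution of the coefficient `f` of order `k` to the defect of invariance -/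
def Af (Φ q : ℂ → ℂ) (c : ℂ) (f : ℂ → ℂ) (k : ℕ) (v : ℂ × ℂ) : ℂ :=
  f (SX Φ q c v).1 * (SX Φ q c v).2 ^ k - f v.1 * v.2 ^ k

theorem Af_an (hc : c ≠ 0) (h : Crv Φ q c z) {f : ℂ → ℂ} (hf : AnalyticAt ℂ f z) (k : ℕ) :
    AnalyticAt ℂ (Af Φ q c f k) (z, 0) := by
  have hS := SX_an hc h
  have h1 : AnalyticAt ℂ (fun v => (SX Φ q c v).1) (z, 0) := analyticAt_fst.comp hS
  have h2 : AnalyticAt ℂ (fun v => (SX Φ q c v).2) (z, 0) := analyticAt_snd.comp hS
  have h3 : AnalyticAt ℂ (fun v => f (SX Φ q c v).1) (z, 0) := by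
    refine AnalyticAt.fun_comp (g := f) (f := fun v => (SX Φ q c v).1) ?_ h1
    show AnalyticAt ℂ f (SX Φ q c (z, 0)).1
    rw [SX_axis]
    exact hf
  have h4 : AnalyticAt ℂ (fun v : ℂ × ℂ => f v.1) (z, 0) :=
    AnalyticAt.fun_comp (g := f) (f := fun v : ℂ × ℂ => v.1) hf analyticAt_fst
  exact (h3.mul (h2.pow k)).sub (h4.mul (analyticAt_snd.pow k))

/-- order lemma -/
theorem ord (hc : c ≠ 0) (h : Crv Φ q c z) : ∃ e : ℂ, ∀ (f : ℂ → ℂ) (k : ℕ), AnalyticAt ℂ f z →
    NZ.tc (Af Φ q c f k) (k + 1) z = 2 * deriv f z + k * e * f z := by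
  -- second component
  obtain ⟨g2, ag2, e2, z2⟩ := bd_of_axis (SX2_an hc h) (Filter.Eventually.of_forall fun z => by
    rw [SX_axis])
  have z2' : ∀ᶠ z in 𝓝 z, (fun v => g2 v - 1) (z, 0) = 0 := by
    filter_upwards [z2, h.near] with z a b
    show g2 (z, 0) - 1 = 0
    rw [a, deriv_SX2 hc b, sub_self]
  obtain ⟨g3, ag3, e3, -⟩ := bd_of_axis (ag2.sub analyticAt_const) z2'
  have g20 : g2 (z, 0) = 1 := by
    have := z2'.self_of_nhds
    have : g2 (z, 0) - 1 = 0 := this
    linear_combination this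
  refine ⟨g3 (z, 0), fun f k hf => ?_⟩
  -- `f (S₁) - f = η P`
  have hS := SX_an hc h
  have h1 : AnalyticAt ℂ (fun v => (SX Φ q c v).1) (z, 0) := analyticAt_fst.comp hS
  have h3 : AnalyticAt ℂ (fun v => f (SX Φ q c v).1 - f v.1) (z, 0) := by
    refine AnalyticAt.sub ?_ (AnalyticAt.fun_comp (g := f) (f := fun v : ℂ × ℂ => v.1) hf
      analyticAt_fst)
    refine AnalyticAt.fun_comp (g := f) (f := fun v => (SX Φ q c v).1) ?_ h1
    show AnalyticAt ℂ f (SX Φ q c (z, 0)).1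
    rw [SX_axis]
    exact hf
  obtain ⟨P, aP, eP, zP⟩ := bd_of_axis h3 (Filter.Eventually.of_forall fun z => by
    show f (SX Φ q c (z, 0)).1 - f z = 0
    rw [SX_axis]
    simp)
  have P0 : P (z, 0) = 2 * deriv f z := by
    rw [zP.self_of_nhds]
    have hX := (Xr_eq hc h).1
    have d1 : HasDerivAt (fun η : ℂ => Xr Φ q c (z, η)) (deriv (fun η : ℂ => Xr Φ q c (z, η)) 0) 0 :=
      (NZ.analyticAt_pair2 hX).differentiableAt.hasDerivAt
    have d2 : HasDerivAt (fun η : ℂ => (SX Φ q c (z, η)).1) 2 0 := by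
      have e : (fun η : ℂ => (SX Φ q c (z, η)).1) = fun η => z + η * Xr Φ q c (z, η) := rfl
      rw [e]
      have d3 := ((hasDerivAt_id (0 : ℂ)).mul d1).const_add z
      refine d3.congr_deriv ?_
      simp only [id, one_mul, zero_mul, add_zero]
      exact (Xr_axis hc h).self_of_nhds
    have d4 : HasDerivAt f (deriv f z) ((fun η : ℂ => (SX Φ q c (z, η)).1) 0) := by
      show HasDerivAt f (deriv f z) (SX Φ q c (z, 0)).1
      rw [SX_axis]
      exact hf.differentiableAt.hasDerivAt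
    have d5 := (d4.scomp (0 : ℂ) d2).sub_const (f z)
    have d6 : deriv (fun η : ℂ => f (SX Φ q c (z, η)).1 - f z) 0 = _ := d5.deriv
    rw [d6]
    simp [smul_eq_mul]
  -- `g2 ^ k - 1 = η W`
  obtain ⟨W, aW, eW, zW⟩ : ∃ W : ℂ × ℂ → ℂ, AnalyticAt ℂ W (z, 0) ∧
      (∀ᶠ v in 𝓝 ((z, 0) : ℂ × ℂ), g2 v ^ k = 1 + v.2 * W v) ∧ W (z, 0) = k * g3 (z, 0) := by
    refine ⟨fun v => g3 v * ∑ i ∈ Finset.range k, g2 v ^ i, ?_, ?_, ?_⟩
    · refine ag3.mul ?_
      exact Finset.analyticAt_fun_sum _ fun i _ => ag2.pow i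
    · filter_upwards [e3] with v hv
      have hv' : g2 v - 1 = v.2 * g3 v := hv
      have hm := mul_geom_sum (g2 v) k
      rw [hv'] at hm
      linear_combination -hm
    · simp only [g20, one_pow, Finset.sum_const, Finset.card_range, nsmul_eq_mul, mul_one]
      ring
  have key := (tc_pow_mul_eq (f := Af Φ q c f k)
    (g := fun v => P v + f v.1 * W v + v.2 * (P v * W v)) (z := z) ?_ (k + 1) ?_).2
  · rw [key]
    show P (z, 0) + f z * W (z, 0) + 0 * (P (z, 0) * W (z, 0)) = _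
    rw [P0, zW]
    ring
  · have hf1 : AnalyticAt ℂ (fun v : ℂ × ℂ => f v.1) (z, 0) :=
      AnalyticAt.fun_comp (g := f) (f := fun v : ℂ × ℂ => v.1) hf analyticAt_fst
    exact (aP.add (hf1.mul aW)).add (analyticAt_snd.mul (aP.mul aW))
  · filter_upwards [e2, eP, eW] with v a b d
    have a' : (SX Φ q c v).2 = v.2 * g2 v := a
    have b' : f (SX Φ q c v).1 = f v.1 + v.2 * P v := by linear_combination b
    rw [Af, a', b', mul_pow, d]
    ring

/-- expansion in the second variable -/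
theorem taylor_rem {F : ℂ × ℂ → ℂ} (hF : AnalyticAt ℂ F (z, 0)) (k : ℕ) :
    ∃ G : ℂ × ℂ → ℂ, AnalyticAt ℂ G (z, 0) ∧ ∀ᶠ v in 𝓝 ((z, 0) : ℂ × ℂ),
      F v = ∑ j ∈ Finset.range k, NZ.tc F j v.1 * v.2 ^ j + v.2 ^ k * G v := by
  induction k with
  | zero => exact ⟨F, hF, Filter.Eventually.of_forall fun v => by simp⟩
  | succ k ih =>
    obtain ⟨G, aG, eG⟩ := ih
    -- `G (z, 0) = tc F k z`
    have hG0 : ∀ᶠ x in 𝓝 z, G (x, 0) = NZ.tc F k x := by
      filter_upwards [NZ.eventually_axis aG.eventually_analyticAt,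
        NZ.eventually_axis eG.eventually_nhds,
        NZ.eventually_axis hF.eventually_analyticAt] with x a b d
      have hS : AnalyticAt ℂ (fun v : ℂ × ℂ => ∑ j ∈ Finset.range k, NZ.tc F j v.1 * v.2 ^ j)
          (x, 0) := by
        refine Finset.analyticAt_fun_sum _ fun j _ => ?_
        exact (AnalyticAt.fun_comp (g := NZ.tc F j) (f := fun v : ℂ × ℂ => v.1)
          (NZ.analyticAt_tc d j) analyticAt_fst).mul (analyticAt_snd.pow j)
      have h1 := (tc_pow_mul_eq (f := fun v => F v - ∑ j ∈ Finset.range k, NZ.tc F j v.1 * v.2 ^ j)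
        a k (by filter_upwards [b] with v hv; rw [hv]; ring)).2
      have h2 : NZ.tc (fun v => F v - ∑ j ∈ Finset.range k, NZ.tc F j v.1 * v.2 ^ j) k x
          = NZ.tc F k x - NZ.tc (fun v : ℂ × ℂ => ∑ j ∈ Finset.range k, NZ.tc F j v.1 * v.2 ^ j) k x
          := by
        have h3 := H650.tc_add (d) (hS.neg) k
        have h4 : H650.tc (-(fun v : ℂ × ℂ => ∑ j ∈ Finset.range k, NZ.tc F j v.1 * v.2 ^ j)) k x
            = -NZ.tc (fun v : ℂ × ℂ => ∑ j ∈ Finset.range k, NZ.tc F j v.1 * v.2 ^ j) k x := by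
          have h5 : iteratedDeriv k (fun s : ℂ =>
              (-(fun v : ℂ × ℂ => ∑ j ∈ Finset.range k, NZ.tc F j v.1 * v.2 ^ j)) (x, s)) 0 =
              -iteratedDeriv k (fun s : ℂ =>
                (fun v : ℂ × ℂ => ∑ j ∈ Finset.range k, NZ.tc F j v.1 * v.2 ^ j) (x, s)) 0 := by
            have := iteratedDeriv_fun_neg k (fun s : ℂ =>
                (fun v : ℂ × ℂ => ∑ j ∈ Finset.range k, NZ.tc F j v.1 * v.2 ^ j) (x, s)) (0 : ℂ)
            exact this
          show iteratedDeriv k _ 0 / _ = -(iteratedDeriv k _ 0 / _)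
          rw [h5, neg_div]
        rw [h4] at h3
        rw [sub_eq_add_neg]
        exact h3
      have h6 : NZ.tc (fun v : ℂ × ℂ => ∑ j ∈ Finset.range k, NZ.tc F j v.1 * v.2 ^ j) k x = 0 := by
        have h7 : (fun s : ℂ => ∑ j ∈ Finset.range k, NZ.tc F j x * s ^ j) =
            fun s : ℂ => (∑ j ∈ Finset.range k, Polynomial.C (NZ.tc F j x) * Polynomial.X ^ j :
              Polynomial ℂ).eval s := by
          funext s
          simp [Polynomial.eval_finset_sum]
        show iteratedDeriv k (fun s : ℂ => ∑ j ∈ Finset.range k, NZ.tc F j x * s ^ j) 0 / _ = 0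
        have h8 : iteratedDeriv k (fun s : ℂ => ∑ j ∈ Finset.range k, NZ.tc F j x * s ^ j) 0 = 0 := by
          rw [iteratedDeriv_fun_sum]
          · refine Finset.sum_eq_zero fun j hj => ?_
            have hj' : j < k := Finset.mem_range.1 hj
            rw [iteratedDeriv_const_mul_field, iteratedDeriv_fun_pow_zero, if_neg hj'.ne']
            simp
          · intro j _
            exact (contDiff_const.mul (contDiff_id.pow j)).contDiffAt
        rw [h8, zero_div]
      rw [h2, h6, sub_zero] at h1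
      exact h1.symm
    have hGa : AnalyticAt ℂ (fun v : ℂ × ℂ => G v - NZ.tc F k v.1) (z, 0) :=
      aG.sub (AnalyticAt.fun_comp (g := NZ.tc F k) (f := fun v : ℂ × ℂ => v.1)
          (NZ.analyticAt_tc hF k) analyticAt_fst)
    obtain ⟨G', aG', eG', -⟩ := bd_of_axis hGa (by
      filter_upwards [hG0] with x hx
      show G (x, 0) - NZ.tc F k x = 0
      rw [hx, sub_self])
    refine ⟨G', aG', ?_⟩
    filter_upwards [eG, eG'] with v a b
    rw [a, Finset.sum_range_succ]
    have b' : G v = NZ.tc F k v.1 + v.2 * G' v := by linear_combination b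
    rw [b']
    ring

/-- the recursion for the Taylor coefficients of an invariant function -/
theorem inv_rec (hc : c ≠ 0) (h : Crv Φ q c z) {F : ℂ × ℂ → ℂ} (hF : AnalyticAt ℂ F (z, 0))
    (hi : ∀ᶠ v in 𝓝 ((z, 0) : ℂ × ℂ), F (SX Φ q c v) = F v) (k : ℕ) :
    ∑ j ∈ Finset.range (k + 1), NZ.tc (Af Φ q c (NZ.tc F j) j) (k + 1) z = 0 := by
  obtain ⟨G, aG, eG⟩ := taylor_rem hF (k + 1)
  obtain ⟨g2, ag2, e2, z2⟩ := bd_of_axis (SX2_an hc h) (Filter.Eventually.of_forall fun z => by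
    rw [SX_axis])
  have g20 : g2 (z, 0) = 1 := by rw [z2.self_of_nhds, deriv_SX2 hc h]
  have hS := SX_an hc h
  have hS0 : Tendsto (SX Φ q c) (𝓝 ((z, 0) : ℂ × ℂ)) (𝓝 (z, 0)) := by
    have := hS.continuousAt.tendsto
    rwa [SX_axis] at this
  have aGS : AnalyticAt ℂ (fun v => G (SX Φ q c v)) (z, 0) := by
    refine AnalyticAt.fun_comp (g := G) (f := SX Φ q c) ?_ hS
    rw [SX_axis]
    exact aG
  have aB : AnalyticAt ℂ (fun v => g2 v ^ (k + 1) * G (SX Φ q c v) - G v) (z, 0) :=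
    ((ag2.pow (k + 1)).mul aGS).sub aG
  -- the sum of the defects
  have hsum : ∀ᶠ v in 𝓝 ((z, 0) : ℂ × ℂ), (fun v => ∑ j ∈ Finset.range (k + 1),
      Af Φ q c (NZ.tc F j) j v) v = v.2 ^ (k + 1) *
        (fun v => -(g2 v ^ (k + 1) * G (SX Φ q c v) - G v)) v := by
    filter_upwards [eG, hS0.eventually eG, hi, e2] with v a b d e
    have e' : (SX Φ q c v).2 = v.2 * g2 v := e
    have e'' : (SX Φ q c v).2 ^ (k + 1) = v.2 ^ (k + 1) * g2 v ^ (k + 1) := by rw [e', mul_pow]
    have d' := d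
    rw [a, b] at d'
    have h1 : ∑ j ∈ Finset.range (k + 1), Af Φ q c (NZ.tc F j) j v =
        ∑ j ∈ Finset.range (k + 1), NZ.tc F j (SX Φ q c v).1 * (SX Φ q c v).2 ^ j -
        ∑ j ∈ Finset.range (k + 1), NZ.tc F j v.1 * v.2 ^ j := by
      rw [← Finset.sum_sub_distrib]
      rfl
    show ∑ j ∈ Finset.range (k + 1), Af Φ q c (NZ.tc F j) j v =
      v.2 ^ (k + 1) * -(g2 v ^ (k + 1) * G (SX Φ q c v) - G v)
    rw [h1]
    rw [e''] at d'
    linear_combination d'
  have h2 := (tc_pow_mul_eq aB.neg (k + 1) hsum).2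
  have h3 : NZ.tc (fun v => ∑ j ∈ Finset.range (k + 1), Af Φ q c (NZ.tc F j) j v) (k + 1) z =
      ∑ j ∈ Finset.range (k + 1), NZ.tc (Af Φ q c (NZ.tc F j) j) (k + 1) z := by
    have ha : ∀ j, AnalyticAt ℂ (fun s : ℂ => Af Φ q c (NZ.tc F j) j (z, s)) 0 := fun j =>
      NZ.analyticAt_pair2 (Af_an hc h (NZ.analyticAt_tc hF j) j)
    show iteratedDeriv (k + 1) (fun s : ℂ => ∑ j ∈ Finset.range (k + 1),
      Af Φ q c (NZ.tc F j) j (z, s)) 0 / _ = ∑ j ∈ Finset.range (k + 1),
        (iteratedDeriv (k + 1) (fun s : ℂ => Af Φ q c (NZ.tc F j) j (z, s)) 0 / _)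
    rw [iteratedDeriv_fun_sum (fun j _ => (ha j).contDiffAt), Finset.sum_div]
  rw [← h3, h2]
  show -(g2 (z, 0) ^ (k + 1) * G (SX Φ q c (z, 0)) - G (z, 0)) = 0
  rw [g20, SX_axis]
  ring

theorem Af_congr (hc : c ≠ 0) (h : Crv Φ q c z) {f f' : ℂ → ℂ} (he : f =ᶠ[𝓝 z] f') (k : ℕ) :
    ∀ᶠ v in 𝓝 ((z, 0) : ℂ × ℂ), Af Φ q c f k v = Af Φ q c f' k v := by
  have hS := SX_an hc h
  have h1 : Tendsto (fun v => (SX Φ q c v).1) (𝓝 ((z, 0) : ℂ × ℂ)) (𝓝 z) := by
    have h2 := hS.continuousAt.fst.tendsto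
    have h3 : (SX Φ q c (z, 0)).1 = z := by rw [SX_axis]
    rwa [h3] at h2
  have h2 : Tendsto (fun v : ℂ × ℂ => v.1) (𝓝 ((z, 0) : ℂ × ℂ)) (𝓝 z) :=
    continuous_fst.tendsto (z, 0)
  filter_upwards [h1.eventually he, h2.eventually he] with v a b
  rw [Af, Af, a, b]

/-- **REG-B1** -/
theorem regB1 : RegB1 := by
  intro Φ q c V x₁ F hc hVo hVc hV hx₁ hL
  have step : ∀ (g : ℕ → ℂ → ℂ) (k : ℕ), ∃ u : ℂ → ℂ, u x₁ = NZ.tc F k x₁ ∧
      ((∀ j < k, DifferentiableOn ℂ (g j) V) → ∀ z ∈ V, HasDerivAt u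
        (-(1 / 2) * ∑ j ∈ Finset.range k, NZ.tc (Af Φ q c (g j) j) (k + 1) z) z) := by
    intro g k
    by_cases hg : ∀ j < k, DifferentiableOn ℂ (g j) V
    · have hd : DifferentiableOn ℂ (fun z => -(1 / 2) * ∑ j ∈ Finset.range k,
          NZ.tc (Af Φ q c (g j) j) (k + 1) z) V := by
        refine DifferentiableOn.const_mul ?_ _
        refine DifferentiableOn.fun_sum fun j hj z hz => ?_
        have hj' : j < k := Finset.mem_range.1 hj
        have ha : AnalyticAt ℂ (g j) z := (hg j hj').analyticAt (hVo.mem_nhds hz)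
        exact (NZ.analyticAt_tc (Af_an hc (hV z hz) ha j) (k + 1)).differentiableAt
          |>.differentiableWithinAt
      obtain ⟨u, hu⟩ := prim_convex hVo hVc hd
      refine ⟨fun z => u z + (NZ.tc F k x₁ - u x₁), by simp, fun _ z hz => ?_⟩
      exact (hu z hz).add_const _
    · exact ⟨fun _ => NZ.tc F k x₁, rfl, fun h => absurd h hg⟩
  choose P hP1 hP2 using step
  let G : ℕ → (ℕ → ℂ → ℂ) := fun n => Nat.rec (motive := fun _ => ℕ → ℂ → ℂ) (fun _ _ => 0)
    (fun k g => Function.update g k (P g k)) n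
  have hG : ∀ n, G (n + 1) = Function.update (G n) n (P (G n) n) := fun n => rfl
  let f : ℕ → ℂ → ℂ := fun k => P (G k) k
  have hstab : ∀ n j, j < n → G n j = f j := by
    intro n
    induction n with
    | zero => intro j hj; omega
    | succ n ih =>
      intro j hj
      rw [hG]
      rcases Nat.lt_succ_iff_lt_or_eq.1 hj with h | h
      · rw [Function.update_of_ne h.ne]
        exact ih j h
      · rw [h, Function.update_self]
  have hder : ∀ k, ∀ z ∈ V, HasDerivAt (f k)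
      (-(1 / 2) * ∑ j ∈ Finset.range k, NZ.tc (Af Φ q c (f j) j) (k + 1) z) z := by
    intro k
    induction k using Nat.strong_induction_on with
    | _ k ih =>
      intro z hz
      have h1 : ∀ j < k, DifferentiableOn ℂ (G k j) V := by
        intro j hj
        rw [hstab k j hj]
        exact fun y hy => (ih j hj y hy).differentiableAt.differentiableWithinAt
      have h2 := hP2 (G k) k h1 z hz
      have h3 : ∑ j ∈ Finset.range k, NZ.tc (Af Φ q c (G k j) j) (k + 1) z =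
          ∑ j ∈ Finset.range k, NZ.tc (Af Φ q c (f j) j) (k + 1) z := by
        refine Finset.sum_congr rfl fun j hj => ?_
        rw [hstab k j (Finset.mem_range.1 hj)]
      rw [h3] at h2
      exact h2
  have hdf : ∀ k, DifferentiableOn ℂ (f k) V := fun k z hz =>
    (hder k z hz).differentiableAt.differentiableWithinAt
  refine ⟨f, hdf, ?_⟩
  -- near `x₁`
  have hnear : ∀ᶠ z in 𝓝 x₁, z ∈ V ∧ AnalyticAt ℂ F (z, 0) ∧
      (∀ᶠ v in 𝓝 ((z, 0) : ℂ × ℂ), F (SX Φ q c v) = F v) ∧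
      (∀ᶠ v in 𝓝 ((z, 0) : ℂ × ℂ), F (v.1, -v.2) = -F v) ∧ deriv (fun η => F (z, η)) 0 = 2 := by
    filter_upwards [hVo.mem_nhds hx₁, NZ.eventually_axis hL.an.eventually_analyticAt,
      NZ.eventually_axis hL.inv.eventually_nhds, NZ.eventually_axis hL.odd.eventually_nhds,
      hL.nrm] with z a b d e g using ⟨a, b, d, e, g⟩
  obtain ⟨r, hr, hB⟩ := Metric.eventually_nhds_iff_ball.1 hnear
  have h0 : ∀ z ∈ ball x₁ r, NZ.tc F 0 z = 0 := by
    intro z hz
    have h1 := (hB z hz).2.2.2.1.self_of_nhds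
    have h2 : F (z, -0) = -F (z, 0) := h1
    rw [neg_zero] at h2
    have h3 : NZ.tc F 0 z = F (z, 0) := H650.tc_zero F z
    rw [h3]
    linear_combination (1 / 2) * h2
  have h1 : ∀ z ∈ ball x₁ r, NZ.tc F 1 z = 2 := by
    intro z hz
    have h2 := (hB z hz).2.2.2.2
    rw [NZ.tc, iteratedDeriv_one, h2]
    simp
  have hrec : ∀ z ∈ ball x₁ r, ∀ k, 2 * deriv (NZ.tc F k) z =
      -∑ j ∈ Finset.range k, NZ.tc (Af Φ q c (NZ.tc F j) j) (k + 1) z := by
    intro z hz
    have hbn := isOpen_ball.mem_nhds hz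
    obtain ⟨hzV, hFa, hFi, -, -⟩ := hB z hz
    obtain ⟨e, he⟩ := ord hc (hV z hzV)
    have hk : ∀ k, ∑ j ∈ Finset.range k, NZ.tc (Af Φ q c (NZ.tc F j) j) (k + 1) z +
        (2 * deriv (NZ.tc F k) z + k * e * NZ.tc F k z) = 0 := by
      intro k
      have h2 := inv_rec hc (hV z hzV) hFa hFi k
      rwa [Finset.sum_range_succ, he _ k (NZ.analyticAt_tc hFa k)] at h2
    have he0 : e = 0 := by
      have h2 := hk 1
      have h3 : NZ.tc F 0 =ᶠ[𝓝 z] fun _ => 0 := by
        filter_upwards [hbn] with y hy using h0 y hy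
      have h4 : NZ.tc F 1 =ᶠ[𝓝 z] fun _ => 2 := by
        filter_upwards [hbn] with y hy using h1 y hy
      have h5 : NZ.tc (Af Φ q c (NZ.tc F 0) 0) 2 z = 0 := by
        rw [(NZ.tc_congr (Af_congr hc (hV z hzV) h3 0)).self_of_nhds 2]
        have h6 : Af Φ q c (fun _ => 0) 0 = fun _ => 0 := by
          funext v
          simp [Af]
        rw [h6, NZ.tc]
        simp
      rw [Finset.sum_range_one, h5, h4.deriv_eq, deriv_const, h1 z hz] at h2
      push_cast at h2
      linear_combination (1 / 2) * h2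
    intro k
    have h2 := hk k
    rw [he0] at h2
    linear_combination h2
  have hall : ∀ k, ∀ z ∈ ball x₁ r, f k z = NZ.tc F k z := by
    intro k
    induction k using Nat.strong_induction_on with
    | _ k ih =>
      have hEq : Set.EqOn (f k) (NZ.tc F k) (ball x₁ r) := by
        refine isOpen_ball.eqOn_of_deriv_eq (convex_ball x₁ r).isPreconnected
          ((hdf k).mono fun y hy => (hB y hy).1) ?_ ?_ (mem_ball_self hr) (hP1 (G k) k)
        · intro y hy
          exact (NZ.analyticAt_tc (hB y hy).2.1 k).differentiableAt.differentiableWithinAt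
        · intro y hy
          have hbn := isOpen_ball.mem_nhds hy
          rw [(hder k y (hB y hy).1).deriv]
          have h2 := hrec y hy k
          have h3 : ∑ j ∈ Finset.range k, NZ.tc (Af Φ q c (f j) j) (k + 1) y =
              ∑ j ∈ Finset.range k, NZ.tc (Af Φ q c (NZ.tc F j) j) (k + 1) y := by
            refine Finset.sum_congr rfl fun j hj => ?_
            have hj' : j < k := Finset.mem_range.1 hj
            have h4 : f j =ᶠ[𝓝 y] NZ.tc F j := by
              filter_upwards [hbn] with x hx using ih j hj' x hx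
            exact (NZ.tc_congr (Af_congr hc (hV y (hB y hy).1) h4 j)).self_of_nhds (k + 1)
          rw [h3]
          linear_combination -(1 / 2) * h2
      exact hEq
  filter_upwards [ball_mem_nhds x₁ hr] with z hz k
  exact hall k z hz

end

end Vale.Agent.P097.SC
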