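import Vale.Agent.P097.H82.NatL
import Vale.Agent.P097.H82.Emb2
import Vale.Agent.P097.H82.AlgL

/-!
# P097 (helper82): the field of the natural word and its second embedding
-/

set_option linter.unusedSectionVars false
set_option linter.all false

open Filter Topology PowerSeries
open Vale.Agent.P097.H320 Vale.Agent.P097.H435.S10 Vale.Agent.P097.H456 Vale.Agent.P097.H456.Fct
open Vale.Agent.P097.TA Vale.Agent.P097.H202

namespace Vale.Agent.P097.H82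

variable {κ Λ : ℝ} {H Φ : ℂ → ℂ} {r ε : ℝ} {α p : ℂ → ℂ → ℂ} {J : ℂ → ℂ}
variable {k : Type*} [Field k] [CharZero k] [Algebra OP k] {d : k → k}
  {L : Type*} [Field L] [Algebra k⟦X⟧ L] [IsFractionRing k⟦X⟧ L] {Dt Ds : L → L}
variable {Ω : Set (ℂ × ℂ)}

/-- a function analytic on `Ω` and periodic near the real line is periodic -/
theorem per_of_real (hΩ : Fct.Dom Ω) {f : ℂ × ℂ → ℂ} (hf : AnalyticOnNhd ℂ f Ω)
    (h : ∀ᶠ u in 𝓝 (((0 : ℝ) : ℂ), (0 : ℂ)), f (u.1 + 1, u.2) = f u) : PerAn Ω f := by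
  refine ⟨hf, fun u hu => ?_⟩
  have h1 : AnalyticOnNhd ℂ (fun u : ℂ × ℂ => f (u.1 + 1, u.2) - f u) Ω := by
    intro v hv
    have h2 : AnalyticAt ℂ (fun u : ℂ × ℂ => (u.1 + 1, u.2)) v :=
      (analyticAt_fst.add analyticAt_const).prod analyticAt_snd
    have h3 : AnalyticAt ℂ f ((fun u : ℂ × ℂ => (u.1 + 1, u.2)) v) := hf _ ((hΩ.per v).1 hv)
    exact (AnalyticAt.comp (g := f) (f := fun u : ℂ × ℂ => (u.1 + 1, u.2)) h3 h2).sub (hf v hv)
  have h4 : (fun u : ℂ × ℂ => f (u.1 + 1, u.2) - f u) =ᶠ[𝓝 (((0 : ℝ) : ℂ), (0 : ℂ))] 0 := by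
    filter_upwards [h] with v hv
    change f (v.1 + 1, v.2) - f v = 0
    rw [hv, sub_self]
  have h5 := h1.eqOn_zero_of_preconnected_of_eventuallyEq_zero hΩ.pc (hΩ.re 0) h4 hu
  exact sub_eq_zero.1 h5

/-- `e^{i α_i}` -/
noncomputable def XA (T : Ctx κ Λ H Φ r ε α p J) (i : ℤ) : AR :=
  ⟨fun u => Complex.exp (Complex.I * zn α i u), fun t =>
    ⟨(analyticAt_const.mul (zn_an T.ln.jα T.ln i t)).cexp, by
      filter_upwards [zn_per T i t] with u hu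
      have h1 : Complex.I * (zn α i u + 2 * Real.pi) =
        Complex.I * zn α i u + 2 * Real.pi * Complex.I := by ring
      rw [hu, h1, Complex.exp_periodic (Complex.I * zn α i u)]⟩⟩

/-- `p_i` -/
noncomputable def pp (T : Ctx κ Λ H Φ r ε α p J) (i : ℤ) : AR :=
  ⟨zn p i, fun t => ⟨zn_an T.ln.jp T.ln i t, zn_pper T i t⟩⟩

theorem eA_eq (T : Ctx κ Λ H Φ r ε α p J) (i : ℤ) : eA T i = AR.const Complex.I * XA T i := rfl

theorem mA_eq (T : Ctx κ Λ H Φ r ε α p J) (i : ℤ) : mA T i = AR.const 2 * pp T i * XA T i := rfl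

theorem const_mem (c : ℂ) : TL k L (AR.const c) ∈ KO k L Ω :=
  TL_mem (show PerAn Ω _ from ⟨fun _ _ => analyticAt_const, fun _ _ => rfl⟩)

theorem XA_ne (W : World k d L Dt Ds) (T : Ctx κ Λ H Φ r ε α p J) (i : ℤ) :
    TL k L (XA T i) ≠ 0 := by
  intro h
  rw [TL_eq_zero_iff W] at h
  exact Complex.exp_ne_zero _ (h 0).self_of_nhds

theorem const_ne (W : World k d L Dt Ds) {c : ℂ} (hc : c ≠ 0) : TL k L (AR.const c) ≠ 0 := by
  intro h
  rw [TL_eq_zero_iff W] at h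
  exact hc (h 0).self_of_nhds

theorem outer_e (W : World k d L Dt Ds) (T : Ctx κ Λ H Φ r ε α p J) (hΩ : Fct.Dom Ω)
    {a : ℂ × ℂ → ℂ} (ha : AnalyticOnNhd ℂ a Ω) {i : ℤ}
    (h : ∀ t : ℝ, ∀ᶠ u in 𝓝 ((t : ℂ), (0 : ℂ)), a u = zn α i u) :
    TL k L (XA T i) ∈ KO k L Ω := by
  have h1 : PerAn Ω (fun u => Complex.exp (Complex.I * a u)) := by
    refine per_of_real hΩ (fun u hu => (analyticAt_const.mul (ha u hu)).cexp) ?_
    have hc : ContinuousAt (fun u : ℂ × ℂ => (u.1 + 1, u.2)) (((0 : ℝ) : ℂ), (0 : ℂ)) := by fun_prop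
    have h2 : Tendsto (fun u : ℂ × ℂ => (u.1 + 1, u.2)) (𝓝 (((0 : ℝ) : ℂ), (0 : ℂ)))
        (𝓝 (((1 : ℝ) : ℂ), (0 : ℂ))) := by
      have := hc.tendsto
      simpa using this
    filter_upwards [h2.eventually (h 1), h 0, zn_per T i 0] with u a1 a2 a3
    rw [a1, a2, a3]
    have h1 : Complex.I * (zn α i u + 2 * Real.pi) =
        Complex.I * zn α i u + 2 * Real.pi * Complex.I := by ring
    rw [h1, Complex.exp_periodic (Complex.I * zn α i u)]
  have h2 : TL k L (XA T i) = TL k L ⟨_, perAn_AR hΩ h1⟩ := by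
    refine TL_eqv W fun t => ?_
    filter_upwards [h t] with u hu
    change Complex.exp (Complex.I * zn α i u) = Complex.exp (Complex.I * a u)
    rw [hu]
  rw [h2]
  exact TL_mem h1

theorem outer_p (W : World k d L Dt Ds) (T : Ctx κ Λ H Φ r ε α p J) (hΩ : Fct.Dom Ω)
    {a : ℂ × ℂ → ℂ} (ha : AnalyticOnNhd ℂ a Ω) {i : ℤ}
    (h : ∀ t : ℝ, ∀ᶠ u in 𝓝 ((t : ℂ), (0 : ℂ)), a u = zn p i u) :
    TL k L (pp T i) ∈ KO k L Ω := by
  have h1 : PerAn Ω a := by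
    refine per_of_real hΩ ha ?_
    have hc : ContinuousAt (fun u : ℂ × ℂ => (u.1 + 1, u.2)) (((0 : ℝ) : ℂ), (0 : ℂ)) := by fun_prop
    have h2 : Tendsto (fun u : ℂ × ℂ => (u.1 + 1, u.2)) (𝓝 (((0 : ℝ) : ℂ), (0 : ℂ)))
        (𝓝 (((1 : ℝ) : ℂ), (0 : ℂ))) := by
      have := hc.tendsto
      simpa using this
    filter_upwards [h2.eventually (h 1), h 0, zn_pper T i 0] with u a1 a2 a3
    rw [a1, a2, a3]
  have h2 : TL k L (pp T i) = TL k L ⟨_, perAn_AR hΩ h1⟩ := by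
    refine TL_eqv W fun t => ?_
    filter_upwards [h t] with u hu
    exact hu.symm
  rw [h2]
  exact TL_mem h1

theorem eA_mem {T : Ctx κ Λ H Φ r ε α p J} {i : ℤ} (h : TL k L (XA T i) ∈ KO k L Ω) :
    TL k L (eA T i) ∈ KO k L Ω := by
  rw [eA_eq, map_mul]
  exact mul_mem (const_mem _) h

theorem mA_mem {T : Ctx κ Λ H Φ r ε α p J} {i : ℤ} (h : TL k L (XA T i) ∈ KO k L Ω)
    (h' : TL k L (pp T i) ∈ KO k L Ω) : TL k L (mA T i) ∈ KO k L Ω := by
  rw [mA_eq, map_mul, map_mul]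
  exact mul_mem (mul_mem (const_mem _) h') h

theorem XA_of_eA (W : World k d L Dt Ds) {T : Ctx κ Λ H Φ r ε α p J} {i : ℤ}
    (h : TL k L (eA T i) ∈ KO k L Ω) : TL k L (XA T i) ∈ KO k L Ω := by
  have h1 : TL k L (XA T i) = TL k L (eA T i) / TL k L (AR.const Complex.I) := by
    rw [eA_eq, map_mul, mul_div_cancel_left₀ _ (const_ne W Complex.I_ne_zero)]
  rw [h1]
  exact div_mem h (const_mem _)

theorem pp_of_mA (W : World k d L Dt Ds) {T : Ctx κ Λ H Φ r ε α p J} {i : ℤ}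
    (h : TL k L (eA T i) ∈ KO k L Ω) (h' : TL k L (mA T i) ∈ KO k L Ω) :
    TL k L (pp T i) ∈ KO k L Ω := by
  have h1 : TL k L (pp T i) = TL k L (mA T i) / (TL k L (AR.const 2) * TL k L (XA T i)) := by
    have h2 := const_ne W (two_ne_zero (α := ℂ))
    have h3 := XA_ne W T i
    rw [mA_eq, map_mul, map_mul]
    field_simp
  rw [h1]
  exact div_mem h' (mul_mem (const_mem _) (XA_of_eA W h))

/-! ### the field -/

/-- generators -/
noncomputable def gen (T : Ctx κ Λ H Φ r ε α p J) (k L : Type*) [Field k] [Algebra OP k] [Field L]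
    [Algebra k⟦X⟧ L] (n : ℕ) (x : Fin (n + 1) × Fin 3) : L :=
  if x.2 = 0 then TL k L (eA T (x.1 : ℕ)) else if x.2 = 1 then TL k L (mA T (x.1 : ℕ)) else
    if (x.1 : ℕ) < n then TL k L (EA T (x.1 : ℕ)) else 0

/-- the field of the natural word -/
noncomputable def FF (T : Ctx κ Λ H Φ r ε α p J) (k L : Type*) [Field k] [Algebra OP k] [Field L]
    [Algebra k⟦X⟧ L] (Ω : Set (ℂ × ℂ)) (n : ℕ) : IntermediateField (KO k L Ω) L :=
  IntermediateField.adjoin (KO k L Ω) (Set.range (gen T k L n))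

theorem e_mem (T : Ctx κ Λ H Φ r ε α p J) {n j : ℕ} (hj : j ≤ n) :
    TL k L (eA T j) ∈ FF T k L Ω n := by
  refine IntermediateField.subset_adjoin _ _ ⟨(⟨j, by omega⟩, 0), ?_⟩
  simp [gen]

theorem m_mem (T : Ctx κ Λ H Φ r ε α p J) {n j : ℕ} (hj : j ≤ n) :
    TL k L (mA T j) ∈ FF T k L Ω n := by
  refine IntermediateField.subset_adjoin _ _ ⟨(⟨j, by omega⟩, 1), ?_⟩
  simp [gen]

theorem E_mem (T : Ctx κ Λ H Φ r ε α p J) {n j : ℕ} (hj : j < n) :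
    TL k L (EA T j) ∈ FF T k L Ω n := by
  refine IntermediateField.subset_adjoin _ _ ⟨(⟨j, by omega⟩, 2), ?_⟩
  simp [gen, hj]

theorem const_memF (T : Ctx κ Λ H Φ r ε α p J) {n : ℕ} (c : ℂ) :
    TL k L (AR.const c) ∈ FF T k L Ω n :=
  (FF T k L Ω n).algebraMap_mem ⟨_, const_mem c⟩

theorem sq_ne (W : World k d L Dt Ds) (T : Ctx κ Λ H Φ r ε α p J) (i : ℤ) :
    TL k L (eA T i) ^ 2 - TL k L (eA T (i + 1)) ^ 2 ≠ 0 := by
  intro h
  apply eA_sq_ne W T i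
  apply map_inj (L := L)
  rw [map_pow, map_pow]
  exact sub_eq_zero.1 h

theorem q_form (W : World k d L Dt Ds) (T : Ctx κ Λ H Φ r ε α p J) (i : ℤ) :
    TL k L (qA T i) = (TL k L (mA T (i + 1)) - TL k L (mA T i)) /
      (TL k L (eA T i) ^ 2 - TL k L (eA T (i + 1)) ^ 2) := by
  rw [eq_div_iff (sq_ne W T i)]
  have h1 := congrArg (algebraMap k⟦X⟧ L) (nat_inc W T i)
  have h2 := congrArg (algebraMap k⟦X⟧ L) (nat_inc' W T i)
  rw [map_add, map_mul, map_pow] at h1 h2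
  simp only [TL_apply]
  linear_combination h1 * (-1) + h2

theorem q_mem (W : World k d L Dt Ds) (T : Ctx κ Λ H Φ r ε α p J) {n j : ℕ} (hj : j < n) :
    TL k L (qA T j) ∈ FF T k L Ω n := by
  rw [q_form W T j]
  have h1 : TL k L (eA T ((j : ℤ) + 1)) ∈ FF T k L Ω n := by
    have := e_mem (k := k) (L := L) (Ω := Ω) T (show j + 1 ≤ n by omega)
    push_cast at this
    exact this
  have h2 : TL k L (mA T ((j : ℤ) + 1)) ∈ FF T k L Ω n := by
    have := m_mem (k := k) (L := L) (Ω := Ω) T (show j + 1 ≤ n by omega)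
    push_cast at this
    exact this
  exact div_mem (sub_mem h2 (m_mem T hj.le)) (sub_mem (pow_mem (e_mem T hj.le) 2) (pow_mem h1 2))

theorem p_mem (W : World k d L Dt Ds) (T : Ctx κ Λ H Φ r ε α p J) {n j : ℕ} (hj : j < n) :
    TL k L (pA T j) ∈ FF T k L Ω n := by
  have h1 := congrArg (algebraMap k⟦X⟧ L) (nat_inc W T j)
  rw [map_add, map_mul, map_pow] at h1
  have h2 : TL k L (pA T j) = TL k L (eA T j) ^ 2 * TL k L (qA T j) + TL k L (mA T j) := h1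
  rw [h2]
  exact add_mem (mul_mem (pow_mem (e_mem T hj.le) 2) (q_mem W T hj)) (m_mem T hj.le)

theorem gen_alg (W : World k d L Dt Ds) (T : Ctx κ Λ H Φ r ε α p J) (hΩ : Fct.Dom Ω) {n : ℕ}
    (halg : ∀ j ≤ n, AlgOn Ω (fun u => Complex.exp (Complex.I * nat α 1 j u)) ∧
      AlgOn Ω (nat p 1 j)) (x : Fin (n + 1) × Fin 3) :
    IsAlgebraic (KO k L Ω) (gen T k L n x) := by
  have hX : ∀ j ≤ n, IsAlgebraic (KO k L Ω) (TL k L (XA T j)) := by
    intro j hj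
    refine algebraic_of_algOn W hΩ ?_
    have := (halg j hj).1
    rw [nat_eq_zn] at this
    exact this
  have hp : ∀ j ≤ n, IsAlgebraic (KO k L Ω) (TL k L (pp T j)) := by
    intro j hj
    refine algebraic_of_algOn W hΩ ?_
    have := (halg j hj).2
    rw [nat_eq_zn] at this
    exact this
  have hc : ∀ c : ℂ, IsAlgebraic (KO k L Ω) (TL k L (AR.const c)) := fun c =>
    isAlgebraic_algebraMap (⟨_, const_mem c⟩ : KO k L Ω)
  have he : ∀ j ≤ n, IsAlgebraic (KO k L Ω) (TL k L (eA T j)) := by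
    intro j hj
    rw [eA_eq, map_mul]
    exact (hc _).mul (hX j hj)
  rcases x with ⟨⟨j, hj⟩, b⟩
  simp only [gen]
  split_ifs with h1 h2 h3
  · exact he j (by omega)
  · rw [mA_eq, map_mul, map_mul]
    exact ((hc _).mul (hp j (by omega))).mul (hX j (by omega))
  · refine IsAlgebraic.of_pow (n := 2) (by norm_num) ?_
    have h4 := congrArg (algebraMap k⟦X⟧ L) (nat_EE W T j)
    rw [map_pow, map_neg, map_mul] at h4
    have h5 : TL k L (EA T j) ^ 2 = -(TL k L (eA T j) * TL k L (eA T ((j : ℤ) + 1))) := h4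
    rw [h5]
    have h6 := he (j + 1) (by omega)
    push_cast at h6
    exact ((he j (by omega)).mul h6).neg
  · exact isAlgebraic_zero

theorem FF_fin (W : World k d L Dt Ds) (T : Ctx κ Λ H Φ r ε α p J) (hΩ : Fct.Dom Ω) {n : ℕ}
    (halg : ∀ j ≤ n, AlgOn Ω (fun u => Complex.exp (Complex.I * nat α 1 j u)) ∧
      AlgOn Ω (nat p 1 j)) : FiniteDimensional (KO k L Ω) (FF T k L Ω n) := by
  refine IntermediateField.finiteDimensional_adjoin fun x hx => ?_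
  obtain ⟨y, rfl⟩ := hx
  exact (gen_alg W T hΩ halg y).isIntegral

/-- the second embedding -/
structure SE (T : Ctx κ Λ H Φ r ε α p J) (k : Type*) [Field k] [CharZero k] [Algebra OP k] (L : Type*) [Field L]
    [Algebra k⟦X⟧ L] [IsFractionRing k⟦X⟧ L] (Dt Ds : L → L) (Ω : Set (ℂ × ℂ)) (n N : ℕ)
    (hN : N ≠ 0) (σ : FF T k L Ω n →+* L) (dt dw : FF T k L Ω n → FF T k L Ω n) : Prop where
  K : ∀ y : FF T k L Ω n, (y : L) ∈ KO k L Ω → σ y = expL k L N hN y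
  t : ∀ x, Dt (σ x) = σ (dt x)
  s : ∀ x, Ds (σ x) = algebraMap k⟦X⟧ L ((N : k⟦X⟧) * X ^ (N - 1)) * σ (dw x)
  vt : ∀ x, ((dt x : FF T k L Ω n) : L) = Dt x
  vw : ∀ x, ((dw x : FF T k L Ω n) : L) = Ds x
  mv : ∃ j : ℕ, ∃ hj : j ≤ n, σ ⟨_, e_mem T hj⟩ ≠ expL k L N hN (TL k L (eA T j)) ∨
    σ ⟨_, m_mem T hj⟩ ≠ expL k L N hN (TL k L (mA T j))

theorem exists_SE [IsAlgClosed k] (W : World k d L Dt Ds) (T : Ctx κ Λ H Φ r ε α p J)
    (hΩ : Fct.Dom Ω) {n : ℕ}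
    (halg : ∀ j ≤ n, AlgOn Ω (fun u => Complex.exp (Complex.I * nat α 1 j u)) ∧
      AlgOn Ω (nat p 1 j))
    (hnot : ¬ ∀ j ≤ n, QuoOn Ω (fun u => Complex.exp (Complex.I * nat α 1 j u)) ∧
      QuoOn Ω (nat p 1 j)) :
    ∃ (N : ℕ) (hN : N ≠ 0) (σ : FF T k L Ω n →+* L) (dt dw : FF T k L Ω n → FF T k L Ω n),
      SE T k L Dt Ds Ω n N hN σ dt dw := by
  have hL : CharZero L := charZero_of_injective_ringHom
    (f := (algebraMap k⟦X⟧ L).comp (C (R := k)))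
    ((IsFractionRing.injective k⟦X⟧ L).comp C_injective)
  have hfin := FF_fin (k := k) (L := L) W T hΩ halg
  have halgF : Algebra.IsAlgebraic (KO k L Ω) (FF T k L Ω n) := Algebra.IsAlgebraic.of_finite _ _
  -- a generator outside of the base field
  obtain ⟨j0, hj0, hmem⟩ : ∃ j : ℕ, ∃ hj : j ≤ n, TL k L (eA T j) ∉ KO k L Ω ∨
      TL k L (mA T j) ∉ KO k L Ω := by
    by_contra hcon
    push Not at hcon
    apply hnot
    intro j hj
    have h1 := hcon j hj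
    constructor
    · have h2 := quoOn_of_mem W hΩ (XA_of_eA W h1.1)
      rw [nat_eq_zn]
      exact h2
    · have h2 := quoOn_of_mem W hΩ (pp_of_mA W h1.1 h1.2)
      rw [nat_eq_zn]
      exact h2
  obtain ⟨dt, hdt, hvt⟩ := der_mem W.t_der (KO_Dt W hΩ) (FF T k L Ω n)
  obtain ⟨dw, hdw, hvw⟩ := der_mem W.s_der (KO_Ds W hΩ) (FF T k L Ω n)
  let v : FF T k L Ω n →+* L := (FF T k L Ω n).val.toRingHom
  have hKK : ∀ y : FF T k L Ω n, (y : L) ∈ KO k L Ω →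
      ∃ z : KO k L Ω, algebraMap (KO k L Ω) (FF T k L Ω n) z = y := fun y hy =>
    ⟨⟨y, hy⟩, Subtype.ext rfl⟩
  have hfin2 : ∀ (N : ℕ) (hN : N ≠ 0) (σ : FF T k L Ω n →+* L),
      (∀ y : KO k L Ω, σ (algebraMap (KO k L Ω) (FF T k L Ω n) y) =
        expL k L N hN (v (algebraMap (KO k L Ω) (FF T k L Ω n) y))) →
      (σ ⟨_, e_mem T hj0⟩ ≠ expL k L N hN (TL k L (eA T j0)) ∨
        σ ⟨_, m_mem T hj0⟩ ≠ expL k L N hN (TL k L (mA T j0))) →
      SE T k L Dt Ds Ω n N hN σ dt dw := by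
    intro N hN σ hσ hmv
    have hder := second_embedding_der (K := KO k L Ω) W.toDers hσ hdt hdw
      (fun x => hvt x) (fun x => hvw x)
      (fun x => ⟨⟨Dt x, KO_Dt W hΩ _ x.2⟩, Subtype.ext (hvt _)⟩)
      (fun x => ⟨⟨Ds x, KO_Ds W hΩ _ x.2⟩, Subtype.ext (hvw _)⟩)
    refine ⟨fun y hy => ?_, hder.1, hder.2, hvt, hvw, j0, hj0, hmv⟩
    obtain ⟨z, hz⟩ := hKK y hy
    rw [← hz, hσ]
    rfl
  rcases hmem with hmem | hmem
  · obtain ⟨N, hN, σ, h1, h2⟩ := exists_second_moving (κ := k) (K := KO k L Ω)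
      (F := FF T k L Ω n) (x := ⟨_, e_mem T hj0⟩) (fun ⟨z, hz⟩ => hmem (by
        have : (z : L) = TL k L (eA T j0) := congrArg Subtype.val hz
        rw [← this]
        exact z.2)) v
    exact ⟨N, hN, σ, dt, dw, hfin2 N hN σ h1 (Or.inl h2)⟩
  · obtain ⟨N, hN, σ, h1, h2⟩ := exists_second_moving (κ := k) (K := KO k L Ω)
      (F := FF T k L Ω n) (x := ⟨_, m_mem T hj0⟩) (fun ⟨z, hz⟩ => hmem (by
        have : (z : L) = TL k L (mA T j0) := congrArg Subtype.val hz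
        rw [← this]
        exact z.2)) v
    exact ⟨N, hN, σ, dt, dw, hfin2 N hN σ h1 (Or.inr h2)⟩

end Vale.Agent.P097.H82
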