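import Vale.Agent.P097.H82.SE

/-!
# P097 (helper82): the star chain in `k⟦X⟧`
-/

set_option linter.unusedSectionVars false
set_option linter.all false

open Filter Topology PowerSeries
open Vale.Agent.P097.H320 Vale.Agent.P097.H435.S10 Vale.Agent.P097.H456 Vale.Agent.P097.H456.Fct
open Vale.Agent.P097.TA Vale.Agent.P097.H202

namespace Vale.Agent.P097.H82

variable {κ Λ : ℝ} {H Φ : ℂ → ℂ} {r ε : ℝ} {α p : ℂ → ℂ → ℂ} {J : ℂ → ℂ}
variable {k : Type*} [Field k] [CharZero k] [Algebra OP k] {d : k → k}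
  {L : Type*} [Field L] [Algebra k⟦X⟧ L] [IsFractionRing k⟦X⟧ L] {Dt Ds : L → L}
variable {Ω : Set (ℂ × ℂ)}

variable (k) in
/-- the series of a regular element -/
noncomputable def pull (y : L) : k⟦X⟧ := by
  classical
  exact if h : Reg k y then h.choose else 0

theorem alg_pull {y : L} (h : Reg k y) : algebraMap k⟦X⟧ L (pull k y) = y := by
  unfold pull
  rw [dif_pos h]
  exact h.choose_spec

theorem pull_alg (f : k⟦X⟧) : pull k (algebraMap k⟦X⟧ L f) = f :=
  map_inj (L := L) (alg_pull ⟨f, rfl⟩)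

theorem reg_sqrt {y : L} {u : k⟦X⟧} (h : y ^ 2 = algebraMap k⟦X⟧ L u) (hu : constantCoeff u ≠ 0) :
    Reg k y := by
  rcases reg_or_inv (κ := k) y with h1 | ⟨g, hg0, hgc, hg⟩
  · exact h1
  · exfalso
    have hgL : algebraMap k⟦X⟧ L g ≠ 0 := by
      intro h2
      exact hg0 (map_inj (L := L) (by rw [h2, map_zero]))
    have h2 : algebraMap k⟦X⟧ L (g ^ 2 * u) = algebraMap k⟦X⟧ L 1 := by
      rw [map_mul, map_pow, ← h, hg, map_one]
      field_simp
    have h3 := congrArg constantCoeff (map_inj (L := L) h2)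
    rw [map_mul, map_pow, hgc, map_one] at h3
    simp at h3

theorem alg_inv {x : k⟦X⟧} (hx : constantCoeff x ≠ 0) :
    algebraMap k⟦X⟧ L x⁻¹ = (algebraMap k⟦X⟧ L x)⁻¹ := by
  have h1 : x * x⁻¹ = 1 := PowerSeries.mul_inv_cancel x hx
  have h2 := congrArg (algebraMap k⟦X⟧ L) h1
  rw [map_mul, map_one] at h2
  exact eq_inv_of_mul_eq_one_right h2

variable (k) in
/-- `i` -/
noncomputable def cI : k⟦X⟧ := tk k (AR.const Complex.I)

/-- jets in `k⟦X⟧` -/
noncomputable def sjet (d : k → k) (E P Q : k⟦X⟧) : ℕ → k⟦X⟧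
  | 0 => (P * E⁻¹ + Q * E) * (2 : k⟦X⟧)⁻¹
  | 1 => cI k * (Q * E - P * E⁻¹) * (2 : k⟦X⟧)⁻¹
  | (l + 2) => ct d (sjet d E P Q (l + 1)) * (cI k * E) * (ct d E)⁻¹

theorem alg_sjet (hD : Ders k d L Dt Ds) {E P Q : k⟦X⟧} (hE : constantCoeff E ≠ 0)
    (hE' : d (constantCoeff E) ≠ 0) (l : ℕ) : algebraMap k⟦X⟧ L (sjet d E P Q l) =
      ajet Dt (TL k L (AR.const Complex.I)) (algebraMap k⟦X⟧ L E) (algebraMap k⟦X⟧ L P)
        (algebraMap k⟦X⟧ L Q) l := by
  have h2 : algebraMap k⟦X⟧ L (2 : k⟦X⟧)⁻¹ = (2 : L)⁻¹ := by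
    rw [alg_inv, map_ofNat]
    rw [map_ofNat]
    exact two_ne_zero
  have hc : algebraMap k⟦X⟧ L (cI k) = TL k L (AR.const Complex.I) := rfl
  induction l with
  | zero =>
    rw [sjet, ajet, map_mul, map_add, map_mul, map_mul, alg_inv hE, h2]
    field_simp
  | succ l ih =>
    rcases l with _ | l
    · rw [sjet, ajet, map_mul, map_mul, map_sub, map_mul, map_mul, alg_inv hE, h2, hc]
      field_simp
    · rw [sjet, ajet, map_mul, map_mul, map_mul, alg_inv (by rw [constantCoeff_ct]; exact hE'), hc,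
        ← hD.t_alg, ← hD.t_alg, ih]
      field_simp

variable (k) in
/-- constants in `k⟦X⟧` -/
noncomputable def cK : ℂ →+* k⟦X⟧ := (tk k).comp AR.constH

theorem tk_const (c : ℂ) : tk k (AR.const c) = C (constantCoeff (tk k (AR.const c))) := by
  refine PowerSeries.ext fun l => ?_
  rw [coeff_C]
  split_ifs with h
  · rw [h, coeff_zero_eq_constantCoeff_apply]
  · rw [coeff_tk]
    have h1 : AR.cfO (AR.const c) l = 0 := by
      refine OP.ext' fun x => ?_
      rw [AR.cfO_apply]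
      have h2 : cf (AR.const c).1 l (x : ℂ) = cf (fun _ => c) l (x : ℂ) := rfl
      rw [h2, cf_const, if_neg h]
      rfl
    rw [h1, map_zero]

/-- evaluation `w = s ^ N` -/
noncomputable def thN (k : Type*) [Field k] [Algebra OP k] (N : ℕ) (hN : N ≠ 0) : AR →+* k⟦X⟧ :=
  (PowerSeries.expand (R := k) N hN).toRingHom.comp (tk k)

theorem thN_apply (N : ℕ) (hN : N ≠ 0) (F : AR) : thN k N hN F = expand N hN (tk k F) := rfl

/-- algebraic over the periodic functions -/
def AlgN (k : Type*) [Field k] [Algebra OP k] (N : ℕ) (hN : N ≠ 0) (x : k⟦X⟧) : Prop :=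
  ∃ Pp : Polynomial AR, Pp.map (thN k N hN) ≠ 0 ∧ Pp.eval₂ (thN k N hN) x = 0

/-- the star chain -/
structure StarS (T : Ctx κ Λ H Φ r ε α p J) (k : Type*) [Field k] [CharZero k] [Algebra OP k]
    (d : k → k) (n N : ℕ) (hN : N ≠ 0) (e P Q E : ℕ → k⟦X⟧) : Prop where
  e0 : e 0 = expand N hN (tk k (eA T 0))
  m0 : 0 < n → P 0 - e 0 ^ 2 * Q 0 = expand N hN (tk k (mA T 0))
  en : e n = expand N hN (tk k (eA T n))
  mn : ∀ j, j + 1 = n → P j - e n ^ 2 * Q j = expand N hN (tk k (mA T n))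
  ecc : ∀ j ≤ n, constantCoeff (e j) ≠ 0
  inc : ∀ j, j + 1 < n → P (j + 1) - e (j + 1) ^ 2 * Q (j + 1) = P j - e (j + 1) ^ 2 * Q j
  lawt : ∀ j < n, ct d (P j) = e j * e (j + 1) * ct d (Q j)
  laws : ∀ j < n, d⁄dX k (P j) = e j * e (j + 1) * d⁄dX k (Q j)
  dq : ∀ j < n, d (constantCoeff (Q j)) ≠ 0
  EE : ∀ j < n, E j ^ 2 = -(e j * e (j + 1))
  Ecc : ∀ j < n, constantCoeff (E j) ≠ 0
  dE : ∀ j < n, d (constantCoeff (E j)) ≠ 0
  tv : ∃ j < n, constantCoeff (e (j + 1) - e j) ≠ 0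
  ae : ∀ j ≤ n, AlgN k N hN (e j)
  ade : ∀ j < n, AlgN k N hN (e (j + 1) - e j)
  aP : ∀ j < n, AlgN k N hN (P j)
  aQ : ∀ j < n, AlgN k N hN (Q j)
  aE : ∀ j < n, AlgN k N hN (E j)
  adQ : ∀ j < n, AlgN k N hN (ct d (Q j))
  adE : ∀ j < n, AlgN k N hN (ct d (E j))
  rel : ∀ j < n, ∀ (m : ℕ) (Pm : MvPolynomial (Fin (m + 2)) ℂ),
    (∀ z ∈ Str κ, H456.Fct.Rel m Pm H z) → MvPolynomial.eval₂ (cK k)
      (Fin.cons (E j) fun l : Fin (m + 1) => sjet d (E j) (P j) (Q j) l) Pm = 0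

/-- everything in the image of the second embedding is algebraic -/
theorem algN_of {T : Ctx κ Λ H Φ r ε α p J} {n N : ℕ} {hN : N ≠ 0} {σ : FF T k L Ω n →+* L}
    {dt dw : FF T k L Ω n → FF T k L Ω n} (S : SE T k L Dt Ds Ω n N hN σ dt dw)
    [hfin : FiniteDimensional (KO k L Ω) (FF T k L Ω n)] {x : k⟦X⟧} {y : FF T k L Ω n}
    (h : algebraMap k⟦X⟧ L x = σ y) : AlgN k N hN x := by
  have halgF : Algebra.IsAlgebraic (KO k L Ω) (FF T k L Ω n) := Algebra.IsAlgebraic.of_finite _ _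
  refine alg_lift (thN k N hN) (algebraMap k⟦X⟧ L) (IsFractionRing.injective k⟦X⟧ L) ?_
  rw [h]
  apply alg_closure
  refine alg_image (K := KO k L Ω) σ (fun z => ?_) (Algebra.IsAlgebraic.isAlgebraic y)
  rw [S.K _ z.2]
  obtain ⟨F, hF, G, hG, hz⟩ := mem_KO.1 z.2
  have h1 : ((algebraMap (KO k L Ω) (FF T k L Ω n) z : FF T k L Ω n) : L) = z := rfl
  rw [h1, ← hz, map_div₀]
  refine div_mem (Subfield.subset_closure ⟨F, ?_⟩) (Subfield.subset_closure ⟨G, ?_⟩)
  · rw [TL_apply, expL_alg]; rfl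
  · rw [TL_apply, expL_alg]; rfl

theorem cast_succ' (j : ℕ) : (((j + 1 : ℕ) : ℤ)) = (j : ℤ) + 1 := by push_cast; rfl

theorem star_series [IsAlgClosed k] (W : World k d L Dt Ds) (T : Ctx κ Λ H Φ r ε α p J)
    (hex : ∀ G, om d (algebraMap OP k (AR.cfO (eA T 0) 0)) (algebraMap OP k (AR.cfO (mA T 0) 0)) ≠
      d G)
    (hΩ : Fct.Dom Ω) {n : ℕ} {a0 q0 an qn : ℂ × ℂ → ℂ} (hO : Outer Ω α p n a0 q0 an qn)
    [hfin : FiniteDimensional (KO k L Ω) (FF T k L Ω n)] {N : ℕ} {hN : N ≠ 0}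
    {σ : FF T k L Ω n →+* L} {dt dw : FF T k L Ω n → FF T k L Ω n}
    (S : SE T k L Dt Ds Ω n N hN σ dt dw) :
    ∃ e P Q E : ℕ → k⟦X⟧, StarS T k d n N hN e P Q E := by
  classical
  have hd := W.d_der
  -- outer lines in the base field
  have hX0 : TL k L (XA T ((0 : ℕ) : ℤ)) ∈ KO k L Ω := outer_e W T hΩ hO.ha0 fun t => by
    filter_upwards [hO.eq t] with u hu
    rw [hu.1, nat_eq_zn]
  have hp0 : TL k L (pp T ((0 : ℕ) : ℤ)) ∈ KO k L Ω := outer_p W T hΩ hO.hq0 fun t => by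
    filter_upwards [hO.eq t] with u hu
    rw [hu.2.1, nat_eq_zn]
  have hXn : TL k L (XA T (n : ℤ)) ∈ KO k L Ω := outer_e W T hΩ hO.han fun t => by
    filter_upwards [hO.eq t] with u hu
    rw [hu.2.2.1, nat_eq_zn]
  have hpn : TL k L (pp T (n : ℤ)) ∈ KO k L Ω := outer_p W T hΩ hO.hqn fun t => by
    filter_upwards [hO.eq t] with u hu
    rw [hu.2.2.2, nat_eq_zn]
  -- the natural chain in the field
  let eF : ℕ → FF T k L Ω n := fun j => if h : j ≤ n then ⟨_, e_mem T h⟩ else 0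
  let mF : ℕ → FF T k L Ω n := fun j => if h : j ≤ n then ⟨_, m_mem T h⟩ else 0
  let pF : ℕ → FF T k L Ω n := fun j => if h : j < n then ⟨_, p_mem W T h⟩ else 0
  let qF : ℕ → FF T k L Ω n := fun j => if h : j < n then ⟨_, q_mem W T h⟩ else 0
  let EF : ℕ → FF T k L Ω n := fun j => if h : j < n then ⟨_, E_mem T h⟩ else 0
  have heF : ∀ j ≤ n, ((eF j : FF T k L Ω n) : L) = TL k L (eA T j) := fun j hj => by
    simp only [eF, dif_pos hj]
  have hmF : ∀ j ≤ n, ((mF j : FF T k L Ω n) : L) = TL k L (mA T j) := fun j hj => by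
    simp only [mF, dif_pos hj]
  have hpF : ∀ j < n, ((pF j : FF T k L Ω n) : L) = TL k L (pA T j) := fun j hj => by
    simp only [pF, dif_pos hj]
  have hqF : ∀ j < n, ((qF j : FF T k L Ω n) : L) = TL k L (qA T j) := fun j hj => by
    simp only [qF, dif_pos hj]
  have hEF : ∀ j < n, ((EF j : FF T k L Ω n) : L) = TL k L (EA T j) := fun j hj => by
    simp only [EF, dif_pos hj]
  have hcc0 : ∀ i : ℤ, TL k L (eA T i) ≠ 0 := by
    intro i h
    have h1 : tk k (eA T i) = 0 := map_inj (L := L) (by rw [map_zero]; exact h)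
    have h2 := cc_eA (k := k) T i
    rw [h1, map_zero] at h2
    exact nat_e0 W T h2.symm
  have hBC : BChain dt dw n pF qF eF mF := by
    refine ⟨fun j hj h => ?_, fun j hj => ?_, fun j hj => ?_, fun j hj => ?_, fun j hj => ?_,
      fun j hj h => ?_⟩
    · have := heF j hj
      rw [h] at this
      exact hcc0 j this.symm
    · apply Subtype.ext
      have h1 := congrArg (algebraMap k⟦X⟧ L) (nat_inc W T j)
      rw [map_add, map_mul, map_pow] at h1
      change ((pF j : FF T k L Ω n) : L) = (eF j : L) ^ 2 * (qF j : L) + (mF j : L)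
      rw [hpF j hj, heF j hj.le, hqF j hj, hmF j hj.le]
      exact h1
    · apply Subtype.ext
      have h1 := congrArg (algebraMap k⟦X⟧ L) (nat_inc' W T j)
      rw [map_add, map_mul, map_pow, ← cast_succ'] at h1
      change ((pF j : FF T k L Ω n) : L) = (eF (j + 1) : L) ^ 2 * (qF j : L) + (mF (j + 1) : L)
      rw [hpF j hj, heF (j + 1) hj, hqF j hj, hmF (j + 1) hj]
      exact h1
    · apply Subtype.ext
      have h1 := congrArg (algebraMap k⟦X⟧ L) (nat_lawt W T j)
      rw [map_mul, map_mul, ← W.t_alg, ← W.t_alg, ← cast_succ'] at h1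
      change ((dt (pF j) : FF T k L Ω n) : L) = (eF j : L) * (eF (j + 1) : L) *
        ((dt (qF j) : FF T k L Ω n) : L)
      rw [S.vt, S.vt, hpF j hj, heF j hj.le, heF (j + 1) hj, hqF j hj]
      exact h1
    · apply Subtype.ext
      have h1 := congrArg (algebraMap k⟦X⟧ L) (nat_laws W T j)
      rw [map_mul, map_mul, ← W.s_alg, ← W.s_alg, ← cast_succ'] at h1
      change ((dw (pF j) : FF T k L Ω n) : L) = (eF j : L) * (eF (j + 1) : L) *
        ((dw (qF j) : FF T k L Ω n) : L)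
      rw [S.vw, S.vw, hpF j hj, heF j hj.le, heF (j + 1) hj, hqF j hj]
      exact h1
    · have h1 : ((dt (qF j) : FF T k L Ω n) : L) = 0 := by rw [h]; rfl
      rw [S.vt, hqF j hj, TL_apply, W.t_alg] at h1
      have h2 : ct d (tk k (qA T j)) = 0 := map_inj (L := L) (by rw [map_zero]; exact h1)
      have h3 := congrArg constantCoeff h2
      rw [constantCoeff_ct, cc_qA, map_zero] at h3
      exact nat_dq0 W T h3
  have hc := BChain.map_second S.t S.s hBC
  -- the first and the last line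
  have hσe0 : σ (eF 0) = algebraMap k⟦X⟧ L (expand N hN (tk k (eA T 0))) := by
    have h1 : ((eF 0 : FF T k L Ω n) : L) ∈ KO k L Ω := by
      rw [heF 0 (Nat.zero_le _)]
      exact eA_mem hX0
    rw [S.K _ h1, heF 0 (Nat.zero_le _), TL_apply, expL_alg]
    rfl
  have hσm0 : σ (mF 0) = algebraMap k⟦X⟧ L (expand N hN (tk k (mA T 0))) := by
    have h1 : ((mF 0 : FF T k L Ω n) : L) ∈ KO k L Ω := by
      rw [hmF 0 (Nat.zero_le _)]
      exact mA_mem hX0 hp0
    rw [S.K _ h1, hmF 0 (Nat.zero_le _), TL_apply, expL_alg]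
    rfl
  have hσen : σ (eF n) = algebraMap k⟦X⟧ L (expand N hN (tk k (eA T n))) := by
    have h1 : ((eF n : FF T k L Ω n) : L) ∈ KO k L Ω := by
      rw [heF n le_rfl]
      exact eA_mem hXn
    rw [S.K _ h1, heF n le_rfl, TL_apply, expL_alg]
  have hσmn : σ (mF n) = algebraMap k⟦X⟧ L (expand N hN (tk k (mA T n))) := by
    have h1 : ((mF n : FF T k L Ω n) : L) ∈ KO k L Ω := by
      rw [hmF n le_rfl]
      exact mA_mem hXn hpn
    rw [S.K _ h1, hmF n le_rfl, TL_apply, expL_alg]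
  have hreg := chain_regular (κ := k) W.toDers hc (E := expand N hN (tk k (eA T 0)))
    (M := expand N hN (tk k (mA T 0))) hσe0.symm hσm0.symm
    (by rw [constantCoeff_expand, cc_eA]; exact nat_e0 W T)
    (by
      intro G
      rw [constantCoeff_expand, constantCoeff_expand, cc_eA, cc_tk]
      exact hex G)
  obtain ⟨hline, hvert⟩ := hreg
  -- series
  let e : ℕ → k⟦X⟧ := fun j => pull k (σ (eF j))
  let m : ℕ → k⟦X⟧ := fun j => pull k (σ (mF j))
  let P : ℕ → k⟦X⟧ := fun j => pull k (σ (pF j))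
  let Q : ℕ → k⟦X⟧ := fun j => pull k (σ (qF j))
  let E : ℕ → k⟦X⟧ := fun j => pull k (σ (EF j))
  have ae : ∀ j ≤ n, algebraMap k⟦X⟧ L (e j) = σ (eF j) := fun j hj => by
    obtain ⟨x, y, hx, -⟩ := hline j hj
    exact alg_pull ⟨x, hx⟩
  have am : ∀ j ≤ n, algebraMap k⟦X⟧ L (m j) = σ (mF j) := fun j hj => by
    obtain ⟨x, y, -, hy, -⟩ := hline j hj
    exact alg_pull ⟨y, hy⟩
  have aP : ∀ j < n, algebraMap k⟦X⟧ L (P j) = σ (pF j) := fun j hj => by
    obtain ⟨x, y, hx, -⟩ := hvert j hj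
    exact alg_pull ⟨x, hx⟩
  have aQ : ∀ j < n, algebraMap k⟦X⟧ L (Q j) = σ (qF j) := fun j hj => by
    obtain ⟨x, y, -, hy, -⟩ := hvert j hj
    exact alg_pull ⟨y, hy⟩
  have ecc : ∀ j ≤ n, constantCoeff (e j) ≠ 0 := fun j hj => by
    obtain ⟨x, y, hx, -, h0, -⟩ := hline j hj
    have : e j = x := map_inj (L := L) (by rw [ae j hj, hx])
    rw [this]
    exact h0
  have hdq : ∀ j < n, d (constantCoeff (Q j)) ≠ 0 := fun j hj => by
    obtain ⟨x, y, -, hy, -, h0⟩ := hvert j hj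
    have : Q j = y := map_inj (L := L) (by rw [aQ j hj, hy])
    rw [this]
    exact h0
  have i1 : ∀ j < n, P j = e j ^ 2 * Q j + m j := fun j hj => by
    apply map_inj (L := L)
    rw [map_add, map_mul, map_pow, aP j hj, aQ j hj, ae j hj.le, am j hj.le]
    exact hc.inc j hj
  have i2 : ∀ j < n, P j = e (j + 1) ^ 2 * Q j + m (j + 1) := fun j hj => by
    apply map_inj (L := L)
    rw [map_add, map_mul, map_pow, aP j hj, aQ j hj, ae (j + 1) hj, am (j + 1) hj]
    exact hc.inc' j hj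
  have l1 : ∀ j < n, ct d (P j) = e j * e (j + 1) * ct d (Q j) := fun j hj => by
    apply map_inj (L := L)
    rw [map_mul, map_mul, ← W.t_alg, ← W.t_alg, aP j hj, aQ j hj, ae j hj.le, ae (j + 1) hj]
    exact hc.lawt j hj
  have l2 : ∀ j < n, d⁄dX k (P j) = e j * e (j + 1) * d⁄dX k (Q j) := fun j hj => by
    apply map_inj (L := L)
    rw [map_mul, map_mul, ← W.s_alg, ← W.s_alg, aP j hj, aQ j hj, ae j hj.le, ae (j + 1) hj]
    exact hc.laws j hj
  -- the square roots
  have hEE : ∀ j < n, σ (EF j) ^ 2 = algebraMap k⟦X⟧ L (-(e j * e (j + 1))) := fun j hj => by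
    have h1 : EF j ^ 2 = -(eF j * eF (j + 1)) := by
      apply Subtype.ext
      have h2 := congrArg (algebraMap k⟦X⟧ L) (nat_EE W T j)
      rw [map_pow, map_neg, map_mul, ← cast_succ'] at h2
      change ((EF j : FF T k L Ω n) : L) ^ 2 = -((eF j : L) * (eF (j + 1) : L))
      rw [hEF j hj, heF j hj.le, heF (j + 1) hj]
      exact h2
    rw [← map_pow, h1, map_neg, map_mul, map_neg, map_mul, ae j hj.le, ae (j + 1) hj]
  have hccee : ∀ j < n, constantCoeff (-(e j * e (j + 1))) ≠ 0 := fun j hj => by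
    rw [map_neg, map_mul]
    exact neg_ne_zero.2 (mul_ne_zero (ecc j hj.le) (ecc (j + 1) hj))
  have aE : ∀ j < n, algebraMap k⟦X⟧ L (E j) = σ (EF j) := fun j hj =>
    alg_pull (reg_sqrt (hEE j hj) (hccee j hj))
  have EE : ∀ j < n, E j ^ 2 = -(e j * e (j + 1)) := fun j hj => by
    apply map_inj (L := L)
    rw [map_pow, aE j hj]
    exact hEE j hj
  have Ecc : ∀ j < n, constantCoeff (E j) ≠ 0 := fun j hj h => by
    have h1 := congrArg constantCoeff (EE j hj)
    rw [map_pow, h] at h1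
    exact hccee j hj (by rw [← h1]; simp)
  have hmove : ∀ j < n, d (constantCoeff (e j * e (j + 1))) ≠ 0 := fun j hj => by
    refine prod_moves W.toDers (l1 j hj) (l2 j hj) (hdq j hj) fun h0 => ?_
    have h1 : Dt (σ (eF j * eF (j + 1))) = 0 := by
      rw [map_mul, ← ae j hj.le, ← ae (j + 1) hj, ← map_mul, W.t_alg, h0, map_zero]
    rw [S.t] at h1
    have h2 : dt (eF j * eF (j + 1)) = 0 := (map_eq_zero σ).1 h1
    have h3 : ((dt (eF j * eF (j + 1)) : FF T k L Ω n) : L) = 0 := by rw [h2]; rfl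
    rw [S.vt] at h3
    have h4 : Dt (algebraMap k⟦X⟧ L (tk k (eA T j) * tk k (eA T ((j + 1 : ℕ) : ℤ)))) = 0 := by
      rw [map_mul]
      change Dt (((eF j : FF T k L Ω n) : L) * ((eF (j + 1) : FF T k L Ω n) : L)) = 0 at h3
      rw [heF j hj.le, heF (j + 1) hj] at h3
      exact h3
    rw [W.t_alg] at h4
    have h5 := congrArg constantCoeff
      (map_inj (L := L) (h4.trans (map_zero (algebraMap k⟦X⟧ L)).symm))
    rw [constantCoeff_ct, map_mul, cc_eA, cc_eA, hd.mul, map_zero] at h5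
    simp only [RingHom.id_apply] at h5
    have h6 : (2 : k) * (algebraMap OP k (AR.cfO (eA T 0) 0) *
        d (algebraMap OP k (AR.cfO (eA T 0) 0))) = 0 := by linear_combination h5
    exact mul_ne_zero two_ne_zero (mul_ne_zero (nat_e0 W T) (nat_de0 W T)) h6
  have hdE : ∀ j < n, d (constantCoeff (E j)) ≠ 0 := fun j hj h => by
    apply hmove j hj
    have h1 := congrArg constantCoeff (EE j hj)
    rw [map_pow, map_neg] at h1
    have h2 : constantCoeff (e j * e (j + 1)) = -(constantCoeff (E j) ^ 2) := by rw [h1, neg_neg]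
    rw [h2, hd.neg, hd.pow, h]
    simp
  refine ⟨e, P, Q, E, ?_⟩
  refine ⟨?_, ?_, ?_, ?_, ecc, ?_, l1, l2, hdq, EE, Ecc, hdE, ?_, ?_, ?_, ?_, ?_, ?_, ?_, ?_, ?_⟩
  · exact map_inj (L := L) (by rw [ae 0 (Nat.zero_le _), hσe0])
  · intro hn
    rw [i1 0 hn, add_sub_cancel_left]
    exact map_inj (L := L) (by rw [am 0 (Nat.zero_le _), hσm0])
  · exact map_inj (L := L) (by rw [ae n le_rfl, hσen])
  · intro j hj
    have hj' : j < n := by omega
    have h1 := i2 j hj'
    rw [hj] at h1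
    rw [h1, add_sub_cancel_left]
    exact map_inj (L := L) (by rw [am n le_rfl, hσmn])
  · intro j hj
    have h1 := i2 j (by omega)
    have h2 := i1 (j + 1) hj
    linear_combination h2 - h1
  · -- a transversal letter
    by_contra hcon
    push Not at hcon
    have hcce : ∀ j ≤ n, constantCoeff (e j) = algebraMap OP k (AR.cfO (eA T 0) 0) := by
      intro j
      induction j with
      | zero =>
        intro _
        have h1 : e 0 = expand N hN (tk k (eA T 0)) :=
          map_inj (L := L) (by rw [ae 0 (Nat.zero_le _), hσe0])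
        rw [h1, constantCoeff_expand, cc_eA]
      | succ j ih =>
        intro hj
        have h1 := hcon j (by omega)
        rw [map_sub, ih (by omega)] at h1
        exact sub_eq_zero.1 h1
    have hgl := H830.Glance.glance (isD_of hd) (Dt := ct d) (Ds := fun f => d⁄dX k f)
      (fun f n => coeff_ct f n) (fun f n => by
        change coeff n (d⁄dX k f) = _
        rw [coeff_derivative]) (Nat.pos_of_ne_zero hN)
      (nat_e0 W T) (nat_de0 W T) (nat_dq0 W T) (nat' W T hN) (n := n) (p := P) (q := Q) (e := e)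
      (m := m) (fun j hj => by rw [i1 j hj]; ring) (fun j hj => by rw [i2 j hj]; ring) l1 l2
      (map_inj (L := L) (by rw [ae 0 (Nat.zero_le _), hσe0]))
      (map_inj (L := L) (by rw [am 0 (Nat.zero_le _), hσm0]))
      (map_inj (L := L) (by rw [ae n le_rfl, hσen]))
      (fun j hj => hcce (j + 1) hj) hdq
    obtain ⟨j, hj, hmv⟩ := S.mv
    have h1 := hgl.1 j hj
    have e1 : eF j = ⟨_, e_mem T hj⟩ := by simp only [eF, dif_pos hj]
    have e2 : mF j = ⟨_, m_mem T hj⟩ := by simp only [mF, dif_pos hj]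
    rcases hmv with h2 | h2
    · apply h2
      rw [← e1, ← ae j hj, h1.1, TL_apply, expL_alg]
    · apply h2
      rw [← e2, ← am j hj, h1.2, TL_apply, expL_alg]
  · exact fun j hj => algN_of S (ae j hj)
  · intro j hj
    refine algN_of S (y := eF (j + 1) - eF j) ?_
    rw [map_sub, map_sub, ae j hj.le, ae (j + 1) hj]
  · exact fun j hj => algN_of S (aP j hj)
  · exact fun j hj => algN_of S (aQ j hj)
  · exact fun j hj => algN_of S (aE j hj)
  · intro j hj
    refine algN_of S (y := dt (qF j)) ?_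
    rw [← W.t_alg, aQ j hj, S.t]
  · intro j hj
    refine algN_of S (y := dt (EF j)) ?_
    rw [← W.t_alg, aE j hj, S.t]
  · -- relations
    intro j hj l Pm hPm
    let v : FF T k L Ω n →+* L := (FF T k L Ω n).val.toRingHom
    let cF : ℂ →+* FF T k L Ω n := (cL k L).codRestrict (FF T k L Ω n).toSubfield
      (fun c => const_memF T c)
    have hvc : v.comp cF = cL k L := RingHom.ext fun c => rfl
    have h1 : MvPolynomial.eval₂ cF (Fin.cons (EF j) fun i : Fin (l + 1) =>
        ajet dt (cF Complex.I) (EF j) (pF j) (qF j) i) Pm = 0 := by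
      apply v.injective
      rw [map_zero, MvPolynomial.hom_eval₂, hvc, ← nat_rel W T j hPm]
      congr 1
      funext i
      refine Fin.cases ?_ (fun i => ?_) i
      · exact hEF j hj
      · change v (ajet dt (cF Complex.I) (EF j) (pF j) (qF j) i) = TL k L (hA T j i)
        rw [← ajet_map (Dt := Dt) v (fun x => (S.vt x).symm)]
        have a1 : v (cF Complex.I) = TL k L (AR.const Complex.I) := rfl
        have a2 : v (EF j) = TL k L (EA T j) := hEF j hj
        have a3 : v (pF j) = TL k L (pA T j) := hpF j hj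
        have a4 : v (qF j) = TL k L (qA T j) := hqF j hj
        rw [a1, a2, a3, a4]
        exact nat_jet W T j i
    have hσc : σ.comp cF = cL k L := by
      refine RingHom.ext fun c => ?_
      change σ (cF c) = TL k L (AR.const c)
      have h2 : ((cF c : FF T k L Ω n) : L) = TL k L (AR.const c) := rfl
      rw [S.K _ (by rw [h2]; exact const_mem c), h2, TL_apply, expL_alg, tk_const, expand_C]
    have h2 := congrArg σ h1
    rw [map_zero, MvPolynomial.hom_eval₂, hσc] at h2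
    apply map_inj (L := L)
    rw [map_zero, MvPolynomial.hom_eval₂, ← h2]
    congr 1
    funext i
    refine Fin.cases ?_ (fun i => ?_) i
    · exact aE j hj
    · change algebraMap k⟦X⟧ L (sjet d (E j) (P j) (Q j) i) =
        σ (ajet dt (cF Complex.I) (EF j) (pF j) (qF j) i)
      rw [alg_sjet W.toDers (Ecc j hj) (hdE j hj), ← ajet_map (Dt := Dt) σ S.t, aE j hj, aP j hj,
        aQ j hj]
      have a1 : σ (cF Complex.I) = TL k L (AR.const Complex.I) :=
        congrArg (fun f : ℂ →+* L => f Complex.I) hσc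
      rw [a1]

end Vale.Agent.P097.H82
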