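import Vale.Agent.P097.H82.Wpow

/-!
# P097 (helper82): the star chain is a chain of power series in `w = s ^ N`; every letter is
transversal or glancing of order exactly one in `w`.
-/

open PowerSeries

set_option linter.unusedSectionVars false

namespace Vale.Agent.P097.H82

section step

variable {κ : Type*} [Field κ] [CharZero κ] {d : κ → κ}

theorem ct_two (hd : IsDer (RingHom.id κ) d) : ct d (2 : κ⟦X⟧) = 0 := by
  have := (ct_isDer hd).natCast 2
  simpa using this

/-- invariance of the Jacobian of a line at a vertex -/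
theorem jac_step (hd : IsDer (RingHom.id κ) d) {E E' M M' P Q : κ⟦X⟧} (hP : P = E ^ 2 * Q + M)
    (hP' : P = E' ^ 2 * Q + M') (h1 : ct d P = E * E' * ct d Q)
    (h2 : d⁄dX κ P = E * E' * d⁄dX κ Q) :
    E' ^ 2 * Jc d E M = E ^ 2 * Jc d E' M' := by
  have hc := ct_isDer hd
  have k1 : ct d M = E * (E' - E) * ct d Q - 2 * E * ct d E * Q := by
    have h3 : ct d P = E ^ 2 * ct d Q + 2 * E * ct d E * Q + ct d M := by
      rw [hP, hc.add, hc.mul, hc.pow]
      simp only [RingHom.id_apply, Nat.cast_ofNat]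
      norm_num
      ring
    linear_combination h1 - h3
  have k2 : d⁄dX κ M = E * (E' - E) * d⁄dX κ Q - 2 * E * d⁄dX κ E * Q := by
    have h3 : d⁄dX κ P = E ^ 2 * d⁄dX κ Q + 2 * E * d⁄dX κ E * Q + d⁄dX κ M := by
      rw [hP]
      simp only [map_add, Derivation.leibniz, Derivation.leibniz_pow, smul_eq_mul, nsmul_eq_mul]
      norm_num
      ring
    linear_combination h2 - h3
  have k3 : ct d M' = E' * (E - E') * ct d Q - 2 * E' * ct d E' * Q := by
    have h3 : ct d P = E' ^ 2 * ct d Q + 2 * E' * ct d E' * Q + ct d M' := by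
      rw [hP', hc.add, hc.mul, hc.pow]
      simp only [RingHom.id_apply, Nat.cast_ofNat]
      norm_num
      ring
    linear_combination h1 - h3
  have k4 : d⁄dX κ M' = E' * (E - E') * d⁄dX κ Q - 2 * E' * d⁄dX κ E' * Q := by
    have h3 : d⁄dX κ P = E' ^ 2 * d⁄dX κ Q + 2 * E' * d⁄dX κ E' * Q + d⁄dX κ M' := by
      rw [hP']
      simp only [map_add, Derivation.leibniz, Derivation.leibniz_pow, smul_eq_mul, nsmul_eq_mul]
      norm_num
      ring
    linear_combination h2 - h3
  -- closedness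
  have k5 : (ct d E * E' + E * ct d E') * d⁄dX κ Q = (d⁄dX κ E * E' + E * d⁄dX κ E') * ct d Q := by
    have h3 : d⁄dX κ (ct d P) = d⁄dX κ (E * E' * ct d Q) := by rw [h1]
    have h4 := congrArg (ct d) h2
    rw [ct_ds _ hd] at h4
    rw [h4] at h3
    rw [hc.mul, hc.mul, ct_ds _ hd] at h3
    simp only [Derivation.leibniz, smul_eq_mul, RingHom.id_apply] at h3
    linear_combination h3
  rw [Jc, Jc, k1, k2, k3, k4]
  linear_combination (E * E' * (E' - E)) * k5

theorem cc_ne_zero_of_mul {f g h : κ⟦X⟧} (he : f * g = h) (hh : constantCoeff h ≠ 0) :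
    constantCoeff g ≠ 0 := by
  intro h0
  apply hh
  rw [← he, map_mul, h0, mul_zero]

end step

section chain

variable {κ : Type*} [Field κ] [CharZero κ] {d : κ → κ} {L : Type*} [Field L] [Algebra κ⟦X⟧ L]
  [IsFractionRing κ⟦X⟧ L] {Dt Ds : L → L}

/-- what is known about the `j`-th line, in `w = s ^ N` -/
def LineW (L : Type*) [Field L] [Algebra κ⟦X⟧ L] (d : κ → κ) (N : ℕ) (hN : N ≠ 0) (om0 : κ)
    (e m : L) : Prop :=
  ∃ E M : κ⟦X⟧, algebraMap κ⟦X⟧ L (expand N hN E) = e ∧ algebraMap κ⟦X⟧ L (expand N hN M) = m ∧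
    GoodLine d E M ∧ ∃ G : κ, om0 = om d (constantCoeff E) (constantCoeff M) + d G

/-- what is known about the `j`-th vertex, in `w = s ^ N` -/
def VertW (L : Type*) [Field L] [Algebra κ⟦X⟧ L] (d : κ → κ) (N : ℕ) (hN : N ≠ 0) (p q : L) :
    Prop :=
  ∃ P Q : κ⟦X⟧, algebraMap κ⟦X⟧ L (expand N hN P) = p ∧ algebraMap κ⟦X⟧ L (expand N hN Q) = q ∧
    d (constantCoeff P) ≠ 0 ∧ d (constantCoeff Q) ≠ 0

/-- a letter is transversal or glancing of order exactly one -/
def LetW (L : Type*) [Field L] [Algebra κ⟦X⟧ L] (N : ℕ) (hN : N ≠ 0) (e e' : L) :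
    Prop :=
  ∃ W : κ⟦X⟧, algebraMap κ⟦X⟧ L (expand N hN W) = e' - e ∧
    (constantCoeff W ≠ 0 ∨ (constantCoeff W = 0 ∧ coeff 1 W ≠ 0))

theorem step_w (hD : Ders κ d L Dt Ds) {om0 : κ} (hex : ∀ G, om0 ≠ d G) {N : ℕ} {hN : N ≠ 0}
    {p q e m e' m' : L} (hl : LineW L d N hN om0 e m) (hinc : p = e ^ 2 * q + m)
    (hinc' : p = e' ^ 2 * q + m') (ht : Dt p = e * e' * Dt q) (hs : Ds p = e * e' * Ds q)
    (hnc : Dt q ≠ 0) (he' : e' ≠ 0) :
    VertW L d N hN p q ∧ LineW L d N hN om0 e' m' ∧ LetW (κ := κ) L N hN e e' := by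
  obtain ⟨E, M, hE, hM, hgl, G, hG⟩ := hl
  have hd := hD.d_der
  have hE0 := hgl.e0
  have hct := ct_isDer hd
  have hok := step_ok (κ := κ) hD hex (p := p) (q := q) (e := e) (m := m) (e' := e') (m' := m')
    ⟨expand N hN E, expand N hN M, hE, hM, by rw [constantCoeff_expand]; exact hE0, G, by
      rw [constantCoeff_expand, constantCoeff_expand]; exact hG⟩ hinc hinc' ht hs hnc he'
  obtain ⟨⟨P, Q, hPp, hQ, hdP, hdQ⟩, E'', M'', hE'', hM'', hE''0, G', hG'⟩ := hok
  have hrank : Dt p * Ds q = Ds p * Dt q := rank_L hD ht hs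
  have hPe : P = (expand N hN E) ^ 2 * Q + expand N hN M := by
    apply map_inj (L := L)
    rw [map_add, map_mul, map_pow, hE, hQ, hM, hPp, hinc]
  have hr1 : ct d P * d⁄dX κ Q = d⁄dX κ P * ct d Q := by
    apply map_inj (L := L)
    rw [map_mul, map_mul, ← hD.t_alg, ← hD.s_alg, ← hD.t_alg, ← hD.s_alg, hPp, hQ, hrank]
  obtain ⟨y, hy⟩ := vertex_wpow hd hN hgl (rank_AB hd hPe hr1) hdQ
  set x : κ⟦X⟧ := E ^ 2 * y + M with hx
  have hxP : expand N hN x = P := by
    rw [hx, map_add, map_mul, map_pow, hy, hPe]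
  have hy0 : d (constantCoeff y) ≠ 0 := by
    rw [← constantCoeff_expand N hN, hy]; exact hdQ
  have hx0 : d (constantCoeff x) ≠ 0 := by
    rw [← constantCoeff_expand N hN, hxP]; exact hdP
  -- relation in w
  have hNne : (N : κ⟦X⟧) ≠ 0 := by
    have h1 : (N : κ⟦X⟧) = C (N : κ) := by simp
    rw [h1, Ne, ← map_zero (C (R := κ)), (C_injective (R := κ)).eq_iff]
    exact_mod_cast hN
  have hw : ct d x * d⁄dX κ y = d⁄dX κ x * ct d y := by
    apply expand_injective (κ := κ) N hN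
    change expand N hN (ct d x * d⁄dX κ y) = expand N hN (d⁄dX κ x * ct d y)
    rw [← hxP, ← hy, ct_expand hd, ct_expand hd, derivative_expand, derivative_expand] at hr1
    rw [map_mul, map_mul]
    have h2 : ((N : κ⟦X⟧) * X ^ (N - 1)) ≠ 0 := mul_ne_zero hNne (pow_ne_zero _ X_ne_zero)
    apply mul_left_cancel₀ h2
    linear_combination hr1
  -- new line
  have hc : constantCoeff (E * ct d y) ≠ 0 := by
    rw [map_mul, constantCoeff_ct]
    exact mul_ne_zero hE0 hy0
  set E' : κ⟦X⟧ := ct d x * (E * ct d y)⁻¹ with hE'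
  have h3 : E' * (E * ct d y) = ct d x := by
    rw [hE', mul_assoc, PowerSeries.inv_mul_cancel _ hc, mul_one]
  have hxp : algebraMap κ⟦X⟧ L (expand N hN x) = p := by rw [hxP, hPp]
  have hyq : algebraMap κ⟦X⟧ L (expand N hN y) = q := by rw [hy, hQ]
  have h4 : algebraMap κ⟦X⟧ L (expand N hN E') = e' := by
    have he : e ≠ 0 := by
      rintro rfl
      have : expand N hN E = 0 := map_inj (L := L) (by rw [hE, map_zero])
      rw [← constantCoeff_expand N hN, this, map_zero] at hE0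
      exact hE0 rfl
    have h5a : algebraMap κ⟦X⟧ L (expand N hN (E * ct d y)) = e * Dt q := by
      rw [map_mul, map_mul, hE, ← ct_expand hd, ← hD.t_alg, hyq]
    have h5 : algebraMap κ⟦X⟧ L (expand N hN E') * (e * Dt q) = e * e' * Dt q := by
      rw [← h5a, ← map_mul, ← map_mul, h3, ← ct_expand hd, ← hD.t_alg, hxp, ht]
    have h6 : (algebraMap κ⟦X⟧ L (expand N hN E') - e') * (e * Dt q) = 0 := by
      linear_combination h5
    exact sub_eq_zero.1 ((mul_eq_zero.1 h6).resolve_right (mul_ne_zero he hnc))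
  set M' : κ⟦X⟧ := x - E' ^ 2 * y with hM'
  have h6 : algebraMap κ⟦X⟧ L (expand N hN M') = m' := by
    rw [hM', map_sub, map_mul, map_pow, map_sub, map_mul, map_pow, h4, hyq, hxp, hinc']
    ring
  have hEE : constantCoeff E' = constantCoeff E'' := by
    have : expand N hN E' = E'' := map_inj (L := L) (by rw [h4, hE''])
    rw [← constantCoeff_expand N hN, this]
  have hMM : constantCoeff M' = constantCoeff M'' := by
    have : expand N hN M' = M'' := map_inj (L := L) (by rw [h6, hM''])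
    rw [← constantCoeff_expand N hN, this]
  have hE'0 : constantCoeff E' ≠ 0 := by rw [hEE]; exact hE''0
  have hdE'0 : d (constantCoeff E') ≠ 0 := by
    intro h7
    apply hex G'
    rw [hG', ← hEE, om, h7]
    simp
  -- laws in w
  have l1 : ct d x = E * E' * ct d y := by rw [← h3]; ring
  have hcty : ct d y ≠ 0 := by
    intro h
    apply hy0
    rw [← constantCoeff_ct (d := d), h, map_zero]
  have l2 : d⁄dX κ x = E * E' * d⁄dX κ y := by
    apply mul_right_cancel₀ hcty
    rw [← hw, l1]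
    ring
  have hx' : x = E' ^ 2 * y + M' := by rw [hM']; ring
  have hjac := jac_step hd hx hx' l1 l2
  have hj0 : constantCoeff (Jc d E' M') = 0 := by
    have h7 := congrArg constantCoeff hjac
    rw [map_mul, map_mul, hgl.j0, mul_zero, map_pow] at h7
    exact (mul_eq_zero.1 h7.symm).resolve_left (pow_ne_zero _ hE0)
  have hj1 : coeff 1 (Jc d E' M') ≠ 0 := by
    intro h8
    have h7 := congrArg (coeff 1) hjac
    rw [coeff_one_mul', coeff_one_mul', hgl.j0, hj0, h8, map_pow] at h7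
    apply hgl.j1
    have h9 : constantCoeff E' ^ 2 * coeff 1 (Jc d E M) = 0 := by linear_combination h7
    exact (mul_eq_zero.1 h9).resolve_left (pow_ne_zero _ hE'0)
  refine ⟨⟨x, y, hxp, hyq, hx0, hy0⟩, ⟨E', M', h4, h6, ⟨hE'0, hdE'0, hj0, hj1⟩, G', by
    rw [hEE, hMM]; exact hG'⟩, E' - E, by rw [map_sub, map_sub, h4, hE], ?_⟩
  -- dichotomy
  have hA : E * ct d y * (E' - E) = Aq d E M y := by
    have h7 : ct d x = E ^ 2 * ct d y + Aq d E M y := by
      rw [hx, hct.add, hct.mul, hct.pow, Aq]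
      simp only [RingHom.id_apply, Nat.cast_ofNat]
      norm_num
      ring
    linear_combination l1 * (-1) + h7
  by_cases h0 : constantCoeff (E' - E) = 0
  · right
    refine ⟨h0, fun h1 => ?_⟩
    have hA0 : constantCoeff (Aq d E M y) = 0 := by rw [← hA, map_mul, h0, mul_zero]
    apply glance_order hgl (rank_AB hd hx hw) hy0 hA0
    rw [← hA, coeff_one_mul', h0, h1]
    ring
  · exact Or.inl h0

/-- **The star chain in `w`.** -/
theorem chain_w (hD : Ders κ d L Dt Ds) {n : ℕ} {p q e m : ℕ → L}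
    (hc : BChain Dt Ds n p q e m) {N : ℕ} {hN : N ≠ 0} {E M : κ⟦X⟧}
    (hE : algebraMap κ⟦X⟧ L (expand N hN E) = e 0) (hM : algebraMap κ⟦X⟧ L (expand N hN M) = m 0)
    (hl : GoodLine d E M) (hex : ∀ G, om d (constantCoeff E) (constantCoeff M) ≠ d G) :
    (∀ j ≤ n, LineW L d N hN (om d (constantCoeff E) (constantCoeff M)) (e j) (m j)) ∧
      ∀ j < n, VertW L d N hN (p j) (q j) ∧ LetW (κ := κ) L N hN (e j) (e (j + 1)) := by
  have h1 : ∀ j ≤ n, LineW L d N hN (om d (constantCoeff E) (constantCoeff M)) (e j) (m j) := by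
    intro j
    induction j with
    | zero =>
      intro _
      exact ⟨E, M, hE, hM, hl, 0, by rw [hD.d_der.zero, add_zero]⟩
    | succ j ih =>
      intro hj
      exact (step_w hD hex (ih (by omega)) (hc.inc j (by omega)) (hc.inc' j (by omega))
        (hc.lawt j (by omega)) (hc.laws j (by omega)) (hc.nc j (by omega)) (hc.e_ne _ hj)).2.1
  refine ⟨h1, fun j hj => ?_⟩
  have h2 := step_w hD hex (h1 j hj.le) (hc.inc j hj) (hc.inc' j hj)
    (hc.lawt j hj) (hc.laws j hj) (hc.nc j hj) (hc.e_ne _ hj)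
  exact ⟨h2.1, h2.2.2⟩

/-- the product `e e'` moves at `s = 0` -/
theorem prod_moves (hD : Ders κ d L Dt Ds) {E E' P Q : κ⟦X⟧}
    (h1 : ct d P = E * E' * ct d Q) (h2 : d⁄dX κ P = E * E' * d⁄dX κ Q)
    (hQ : d (constantCoeff Q) ≠ 0) (hne : ct d (E * E') ≠ 0) :
    d (constantCoeff (E * E')) ≠ 0 := by
  intro h0
  apply hne
  have hd := hD.d_der
  refine ct_eq_zero_of_rank hd (x := E * E') (y := Q) ?_ h0 hQ
  have hc := ct_isDer hd
  have h3 : d⁄dX κ (ct d P) = d⁄dX κ (E * E' * ct d Q) := by rw [h1]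
  have h4 := congrArg (ct d) h2
  rw [ct_ds _ hd, h3, hc.mul (E * E') (d⁄dX κ Q), ct_ds _ hd] at h4
  simp only [Derivation.leibniz _ (E * E') (ct d Q), smul_eq_mul, RingHom.id_apply] at h4
  linear_combination -h4

end chain

end Vale.Agent.P097.H82
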