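import Vale.Agent.P097.H435.Tay2
import Vale.Agent.P097.H320.PerC
import Vale.Agent.P097.H82.Step

/-!
# P097 (helper82): the ring `AR` of functions analytic near `ℝ × {0}`, periodic in `t`, and its
Taylor homomorphism
-/

set_option linter.unusedSectionVars false

open Filter Topology PowerSeries
open Vale.Agent.P097.H320 Vale.Agent.P097.H435.S10

namespace Vale.Agent.P097.H82

/-- functions analytic near the real line `ℝ × {0}`, `1`-periodic in `t` there -/
def AR : Subring (ℂ × ℂ → ℂ) where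
  carrier := {F | ∀ t : ℝ, AnalyticAt ℂ F ((t : ℂ), 0) ∧
    ∀ᶠ u in 𝓝 ((t : ℂ), (0 : ℂ)), F (u.1 + 1, u.2) = F u}
  mul_mem' := fun {F G} hF hG t => ⟨(hF t).1.mul (hG t).1, by
    filter_upwards [(hF t).2, (hG t).2] with u h1 h2
    simp only [Pi.mul_apply, h1, h2]⟩
  one_mem' := fun t => ⟨analyticAt_const, Eventually.of_forall fun u => rfl⟩
  add_mem' := fun {F G} hF hG t => ⟨(hF t).1.add (hG t).1, by
    filter_upwards [(hF t).2, (hG t).2] with u h1 h2
    simp only [Pi.add_apply, h1, h2]⟩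
  zero_mem' := fun t => ⟨analyticAt_const, Eventually.of_forall fun u => rfl⟩
  neg_mem' := fun {F} hF t => ⟨(hF t).1.neg, by
    filter_upwards [(hF t).2] with u h1
    simp only [Pi.neg_apply, h1]⟩

namespace AR

theorem an (F : AR) (t : ℝ) : AnalyticAt ℂ F.1 ((t : ℂ), 0) := (F.2 t).1

theorem per (F : AR) (t : ℝ) : ∀ᶠ u in 𝓝 ((t : ℂ), (0 : ℂ)), F.1 (u.1 + 1, u.2) = F.1 u := (F.2 t).2

theorem analyticAt_ofReal {g : ℂ → ℂ} {x : ℝ} (h : AnalyticAt ℂ g (x : ℂ)) :
    AnalyticAt ℝ (fun y : ℝ => g (y : ℂ)) x := by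
  have h1 : AnalyticAt ℝ g (x : ℂ) := h.restrictScalars
  exact AnalyticAt.comp (g := g) (f := fun y : ℝ => (y : ℂ)) h1 (Complex.ofRealCLM.analyticAt x)

/-- Taylor coefficient -/
noncomputable def cfO (F : AR) (l : ℕ) : OP := ⟨fun x : ℝ => cf F.1 l (x : ℂ),
  fun x => analyticAt_ofReal (cf_analyticAt (an F x) l), fun x => by
    have h1 : (fun s => F.1 ((x : ℂ) + 1, s)) =ᶠ[𝓝 0] fun s => F.1 ((x : ℂ), s) :=
      eventually_s (per F x)
    have h2 : ((x + 1 : ℝ) : ℂ) = (x : ℂ) + 1 := by push_cast; ring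
    simp only [cf, h2, h1.iteratedDeriv_eq l]⟩

theorem cfO_apply (F : AR) (l : ℕ) (x : ℝ) : (cfO F l).1 x = cf F.1 l (x : ℂ) := rfl

theorem op_sum (s : Finset (ℕ × ℕ)) (f : ℕ × ℕ → OP) (x : ℝ) :
    (∑ i ∈ s, f i : OP).1 x = ∑ i ∈ s, (f i).1 x := by
  classical
  induction s using Finset.induction_on with
  | empty => rfl
  | insert a s ha ih =>
    rw [Finset.sum_insert ha, Finset.sum_insert ha, ← ih]
    rfl

/-- the Taylor homomorphism -/
noncomputable def tau : AR →+* OP⟦X⟧ where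
  toFun F := PowerSeries.mk (cfO F)
  map_one' := by
    refine PowerSeries.ext fun l => ?_
    rw [coeff_mk, coeff_one]
    refine OP.ext' fun x => ?_
    rw [cfO_apply]
    have h1 := cf_const (1 : ℂ) l (t := (x : ℂ))
    have h2 : cf (1 : AR).1 l (x : ℂ) = cf (fun _ => (1 : ℂ)) l (x : ℂ) := rfl
    rw [h2, h1]
    split_ifs <;> rfl
  map_mul' F G := by
    refine PowerSeries.ext fun l => ?_
    rw [coeff_mk, coeff_mul]
    refine OP.ext' fun x => ?_
    rw [cfO_apply, op_sum]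
    have h1 := cf_mul (an F x) (an G x) l
    have h2 : cf (F * G : AR).1 l (x : ℂ) = cf (fun u => F.1 u * G.1 u) l (x : ℂ) := rfl
    rw [h2, h1]
    refine Finset.sum_congr rfl fun i _ => ?_
    rw [coeff_mk, coeff_mk]
    rfl
  map_zero' := by
    refine PowerSeries.ext fun l => ?_
    rw [coeff_mk, map_zero]
    refine OP.ext' fun x => ?_
    rw [cfO_apply]
    have h1 := cf_const (0 : ℂ) l (t := (x : ℂ))
    have h2 : cf (0 : AR).1 l (x : ℂ) = cf (fun _ => (0 : ℂ)) l (x : ℂ) := rfl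
    rw [h2, h1]
    simp only [ite_self]
    rfl
  map_add' F G := by
    refine PowerSeries.ext fun l => ?_
    rw [coeff_mk, map_add, coeff_mk, coeff_mk]
    refine OP.ext' fun x => ?_
    rw [cfO_apply]
    exact cf_add (an F x) (an G x) l

theorem coeff_tau (F : AR) (l : ℕ) : coeff l (tau F) = cfO F l := by
  simp [tau]

/-- vanishing near the real line -/
def Nul (F : ℂ × ℂ → ℂ) : Prop := ∀ t : ℝ, ∀ᶠ u in 𝓝 ((t : ℂ), (0 : ℂ)), F u = 0

theorem ev_real {g : ℂ → ℂ} {t : ℝ} (hg : AnalyticAt ℂ g (t : ℂ))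
    (h : ∀ᶠ x : ℝ in 𝓝 t, g (x : ℂ) = 0) : ∀ᶠ z in 𝓝 (t : ℂ), g z = 0 := by
  refine hg.eventually_eq_zero_or_eventually_ne_zero.resolve_right fun hne => ?_
  have h1 : Tendsto (fun x : ℝ => (x : ℂ)) (𝓝[≠] t) (𝓝[≠] (t : ℂ)) := by
    refine tendsto_nhdsWithin_of_tendsto_nhds_of_eventually_within _ ?_ ?_
    · exact (Complex.continuous_ofReal.tendsto t).mono_left nhdsWithin_le_nhds
    · filter_upwards [self_mem_nhdsWithin] with x hx
      simpa using hx
  have h2 := h1.eventually hne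
  have h3 : ∀ᶠ x : ℝ in 𝓝[≠] t, g (x : ℂ) = 0 := h.filter_mono nhdsWithin_le_nhds
  obtain ⟨x, hx1, hx2⟩ := (h2.and h3).exists
  exact hx1 hx2

theorem tau_eq_zero_iff (F : AR) : tau F = 0 ↔ Nul F.1 := by
  constructor
  · intro h t
    refine eq_zero_of_cf (an F t) fun l => ?_
    refine ev_real (cf_analyticAt (an F t) l) (Eventually.of_forall fun x => ?_)
    have h1 : cfO F l = 0 := by rw [← coeff_tau, h, map_zero]
    rw [← cfO_apply, h1]
    rfl
  · intro h
    refine PowerSeries.ext fun l => ?_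
    rw [coeff_tau, map_zero]
    refine OP.ext' fun x => ?_
    rw [cfO_apply]
    have h1 : F.1 =ᶠ[𝓝 ((x : ℂ), (0 : ℂ))] fun _ => 0 := h x
    rw [(cf_congr h1 l).eq_of_nhds, cf_const]
    simp only [ite_self]
    rfl

theorem tau_eq_iff (F G : AR) :
    tau F = tau G ↔ ∀ t : ℝ, ∀ᶠ u in 𝓝 ((t : ℂ), (0 : ℂ)), F.1 u = G.1 u := by
  rw [← sub_eq_zero, ← map_sub, tau_eq_zero_iff]
  refine forall_congr' fun t => eventually_congr (Eventually.of_forall fun u => ?_)
  change F.1 u - G.1 u = 0 ↔ _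
  exact sub_eq_zero

/-- shift -/
theorem shift_per {F : ℂ × ℂ → ℂ} {D : (ℂ × ℂ → ℂ) → ℂ × ℂ → ℂ} {v : ℂ × ℂ}
    (hD : ∀ G u, D G u = fderiv ℂ G u v) {t : ℝ}
    (h : ∀ᶠ u in 𝓝 ((t : ℂ), (0 : ℂ)), F (u.1 + 1, u.2) = F u) :
    ∀ᶠ u in 𝓝 ((t : ℂ), (0 : ℂ)), D F (u.1 + 1, u.2) = D F u := by
  have h1 : (fun u : ℂ × ℂ => F (u + ((1 : ℂ), (0 : ℂ)))) =ᶠ[𝓝 ((t : ℂ), (0 : ℂ))] F := by
    filter_upwards [h] with u hu
    rw [← hu]
    congr 1
    ext <;> simp
  filter_upwards [h1.fderiv (𝕜 := ℂ)] with u hu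
  rw [hD, hD, ← hu, fderiv_comp_add_right]
  have h2 : ((u.1 + 1, u.2) : ℂ × ℂ) = u + ((1 : ℂ), (0 : ℂ)) := by ext <;> simp
  rw [h2]

/-- `∂_t` -/
noncomputable def dT (F : AR) : AR := ⟨DT F.1, fun t => ⟨analyticAt_DT (an F t),
  shift_per (D := DT) (v := (1, 0)) (fun _ _ => rfl) (per F t)⟩⟩

/-- `∂_w` -/
noncomputable def dS (F : AR) : AR := ⟨DS F.1, fun t => ⟨analyticAt_DS (an F t),
  shift_per (D := DS) (v := (0, 1)) (fun _ _ => rfl) (per F t)⟩⟩

theorem cfO_dT (F : AR) (l : ℕ) : cfO (dT F) l = OP.D (cfO F l) := by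
  refine OP.ext' fun x => ?_
  have h1 : cf (DT F.1) l x = deriv (cf F.1 l) x := (cf_DT (an F x) l).eq_of_nhds
  have h2 : HasDerivAt (cf F.1 l) (deriv (cf F.1 l) x) (x : ℂ) :=
    (cf_analyticAt (an F x) l).differentiableAt.hasDerivAt
  have h3 : HasDerivAt (fun y : ℝ => cf F.1 l (y : ℂ)) (deriv (cf F.1 l) x) x := h2.comp_ofReal
  rw [OP.D_apply]
  have h4 : deriv (cfO F l).1 x = deriv (cf F.1 l) x := h3.deriv
  rw [h4, ← h1]
  rfl

theorem cfO_dS (F : AR) (l : ℕ) : cfO (dS F) l = ((l + 1 : ℕ) : OP) * cfO F (l + 1) := by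
  refine OP.ext' fun x => ?_
  have h1 := cf_DS F.1 (an F x) l
  have h2 : ∀ n : ℕ, ((n : OP) : OP).1 x = (n : ℂ) := by
    intro n
    induction n with
    | zero => simp
    | succ n ih =>
      have h3 : (((n + 1 : ℕ) : OP) : OP).1 x = ((n : OP) : OP).1 x + (1 : OP).1 x := by
        rw [Nat.cast_succ]
        rfl
      rw [h3, ih]
      push_cast
      rfl
  have h4 : (((l + 1 : ℕ) : OP) * cfO F (l + 1)).1 x = (((l + 1 : ℕ) : OP) : OP).1 x * cf F.1 (l + 1) x := rfl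
  rw [h4, h2]
  push_cast
  exact h1

/-- constants -/
noncomputable def const (c : ℂ) : AR :=
  ⟨fun _ => c, fun _ => ⟨analyticAt_const, Eventually.of_forall fun _ => rfl⟩⟩

/-- constants, as a homomorphism -/
noncomputable def constH : ℂ →+* AR where
  toFun := const
  map_one' := rfl
  map_mul' _ _ := rfl
  map_zero' := rfl
  map_add' _ _ := rfl

end AR

/-! ### the world -/

section world

variable {k : Type*} [Field k] [CharZero k] [Algebra OP k] {d : k → k}
  {L : Type*} [Field L] [Algebra k⟦X⟧ L] [IsFractionRing k⟦X⟧ L] {Dt Ds : L → L}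

/-- the field `k` of constants contains the periodic functions, with compatible derivations -/
structure World (k : Type*) [Field k] [Algebra OP k] (d : k → k) (L : Type*) [Field L]
    [Algebra k⟦X⟧ L] (Dt Ds : L → L) : Prop extends Ders k d L Dt Ds where
  inj : Function.Injective (algebraMap OP k)
  dO : ∀ f : OP, d (algebraMap OP k f) = algebraMap OP k (OP.D f)

variable (k) in
/-- Taylor series with coefficients in `k` -/
noncomputable def tk : AR →+* k⟦X⟧ := (PowerSeries.map (algebraMap OP k)).comp AR.tau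

variable (k L) in
/-- Taylor series in `L` -/
noncomputable def TL : AR →+* L := (algebraMap k⟦X⟧ L).comp (tk k)

theorem coeff_tk (F : AR) (l : ℕ) : coeff l (tk k F) = algebraMap OP k (AR.cfO F l) := by
  simp [tk, AR.coeff_tau]

theorem TL_apply (F : AR) : TL k L F = algebraMap k⟦X⟧ L (tk k F) := rfl

theorem tk_eq_zero_iff (W : World k d L Dt Ds) (F : AR) : tk k F = 0 ↔ AR.Nul F.1 := by
  rw [← AR.tau_eq_zero_iff]
  constructor
  · intro h
    refine PowerSeries.ext fun l => ?_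
    apply W.inj
    rw [map_zero, map_zero, AR.coeff_tau, ← coeff_tk, h, map_zero]
  · intro h
    rw [tk, RingHom.comp_apply, h, map_zero]

theorem TL_eq_zero_iff (W : World k d L Dt Ds) (F : AR) : TL k L F = 0 ↔ AR.Nul F.1 := by
  rw [← tk_eq_zero_iff W, TL_apply]
  constructor
  · intro h
    exact map_inj (L := L) (by rw [h, map_zero])
  · intro h
    rw [h, map_zero]

theorem TL_eq_iff (W : World k d L Dt Ds) (F G : AR) : TL k L F = TL k L G ↔
    ∀ t : ℝ, ∀ᶠ u in 𝓝 ((t : ℂ), (0 : ℂ)), F.1 u = G.1 u := by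
  rw [← sub_eq_zero, ← map_sub, TL_eq_zero_iff W]
  refine forall_congr' fun t => eventually_congr (Eventually.of_forall fun u => ?_)
  change F.1 u - G.1 u = 0 ↔ _
  exact sub_eq_zero

theorem ct_tk (W : World k d L Dt Ds) (F : AR) : ct d (tk k F) = tk k (AR.dT F) := by
  ext l
  rw [coeff_ct, coeff_tk, coeff_tk, W.dO, AR.cfO_dT]

theorem ds_tk (F : AR) : d⁄dX k (tk k F) = tk k (AR.dS F) := by
  ext l
  rw [coeff_derivative, coeff_tk, coeff_tk, AR.cfO_dS, map_mul, map_natCast]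
  push_cast
  ring

theorem Dt_TL (W : World k d L Dt Ds) (F : AR) : Dt (TL k L F) = TL k L (AR.dT F) := by
  rw [TL_apply, W.t_alg, ct_tk W, TL_apply]

theorem Ds_TL (W : World k d L Dt Ds) (F : AR) : Ds (TL k L F) = TL k L (AR.dS F) := by
  rw [TL_apply, W.s_alg, ds_tk, TL_apply]

theorem cc_tk (F : AR) : constantCoeff (tk k F) = algebraMap OP k (AR.cfO F 0) := by
  rw [← coeff_zero_eq_constantCoeff_apply, coeff_tk]

end world

end Vale.Agent.P097.H82
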