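import Vale.Agent.P097.H82.Emb

/-!
# P097 (helper82): the star chain is a chain of power series in `w = s ^ N`, and every letter is
transversal or glancing of order exactly one.
-/

open PowerSeries

set_option linter.unusedSectionVars false

namespace Vale.Agent.P097.H82

variable {κ : Type*} [Field κ] [CharZero κ] {d : κ → κ}

/-- Jacobian of a line -/
noncomputable def Jc (d : κ → κ) (E M : κ⟦X⟧) : κ⟦X⟧ := ct d E * d⁄dX κ M - d⁄dX κ E * ct d M

/-- `A(q)` -/
noncomputable def Aq (d : κ → κ) (E M Q : κ⟦X⟧) : κ⟦X⟧ := 2 * E * ct d E * Q + ct d M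

/-- `B(q)` -/
noncomputable def Bq (E M Q : κ⟦X⟧) : κ⟦X⟧ := 2 * E * d⁄dX κ E * Q + d⁄dX κ M

theorem ds_two : d⁄dX κ (2 : κ⟦X⟧) = 0 := by
  have : (2 : κ⟦X⟧) = C (2 : κ) := (map_ofNat C 2).symm
  rw [this, derivative_C]

theorem ct_ds (f : κ⟦X⟧) (hd : IsDer (RingHom.id κ) d) :
    ct d (d⁄dX κ f) = d⁄dX κ (ct d f) := by
  ext n
  rw [coeff_ct, coeff_derivative, coeff_derivative, coeff_ct, hd.mul]
  have h1 : d ((n : κ) + 1) = 0 := by
    have := hd.natCast (n + 1)
    push_cast at this
    exact this
  simp only [RingHom.id_apply, h1, mul_zero, zero_add]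
  ring

theorem rank_AB (hd : IsDer (RingHom.id κ) d) {E M P Q : κ⟦X⟧} (hP : P = E ^ 2 * Q + M)
    (hr : ct d P * d⁄dX κ Q = d⁄dX κ P * ct d Q) :
    Aq d E M Q * d⁄dX κ Q = Bq E M Q * ct d Q := by
  have h1 : ct d P = E ^ 2 * ct d Q + Aq d E M Q := by
    have hc := ct_isDer hd
    rw [hP, hc.add, hc.mul, hc.pow, Aq]
    simp only [RingHom.id_apply, Nat.cast_ofNat]
    norm_num
    ring
  have h2 : d⁄dX κ P = E ^ 2 * d⁄dX κ Q + Bq E M Q := by
    rw [hP, Bq]
    simp only [map_add, Derivation.leibniz, Derivation.leibniz_pow, smul_eq_mul, nsmul_eq_mul]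
    norm_num
    ring
  rw [h1, h2] at hr
  linear_combination hr

theorem ctE_B (E M Q : κ⟦X⟧) :
    ct d E * Bq E M Q - d⁄dX κ E * Aq d E M Q = Jc d E M := by
  rw [Aq, Bq, Jc]
  ring

theorem ds_A (hd : IsDer (RingHom.id κ) d) (E M Q : κ⟦X⟧) :
    d⁄dX κ (Aq d E M Q) = ct d (Bq E M Q) +
      2 * E * (ct d E * d⁄dX κ Q - d⁄dX κ E * ct d Q) := by
  have hc := ct_isDer hd
  have h2 : ct d (2 : κ⟦X⟧) = 0 := by
    have := hc.natCast 2
    simpa using this
  rw [Aq, Bq, hc.add, hc.mul, hc.mul, hc.mul, h2, ct_ds _ hd, ct_ds _ hd]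
  simp only [map_add, Derivation.leibniz, smul_eq_mul, ds_two, RingHom.id_apply]
  ring

/-- a line: `w`-power series data with simple zero of the Jacobian -/
structure GoodLine (d : κ → κ) (E M : κ⟦X⟧) : Prop where
  e0 : constantCoeff E ≠ 0
  de0 : d (constantCoeff E) ≠ 0
  j0 : constantCoeff (Jc d E M) = 0
  j1 : coeff 1 (Jc d E M) ≠ 0

/-- glancing letters glance to order exactly one -/
theorem glance_order {E M Q : κ⟦X⟧} (hl : GoodLine d E M)
    (hr : Aq d E M Q * d⁄dX κ Q = Bq E M Q * ct d Q) (hq : d (constantCoeff Q) ≠ 0)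
    (h0 : constantCoeff (Aq d E M Q) = 0) : coeff 1 (Aq d E M Q) ≠ 0 := by
  have hJ := ctE_B (d := d) E M Q
  have hB0 : constantCoeff (Bq E M Q) = 0 := by
    have h1 := congrArg constantCoeff hJ
    rw [map_sub, map_mul, map_mul, h0, mul_zero, sub_zero, constantCoeff_ct, hl.j0] at h1
    exact (mul_eq_zero.1 h1).resolve_left hl.de0
  intro h1
  have c1 : ∀ f g : κ⟦X⟧, coeff 1 (f * g) =
      constantCoeff f * coeff 1 g + coeff 1 f * constantCoeff g := by
    intro f g
    rw [coeff_mul, show Finset.HasAntidiagonal.antidiagonal 1 = {((0 : ℕ), (1 : ℕ)), (1, 0)} from rfl]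
    rw [Finset.sum_insert (by simp), Finset.sum_singleton]
    simp
  have h2 := congrArg (coeff 1) hr
  rw [c1, c1, h0, h1, hB0] at h2
  have h3 : coeff 1 (Bq E M Q) = 0 := by
    have h4 : coeff 1 (Bq E M Q) * d (constantCoeff Q) = 0 := by
      rw [constantCoeff_ct] at h2
      linear_combination -h2
    exact (mul_eq_zero.1 h4).resolve_right hq
  have h4 := congrArg (coeff 1) hJ
  rw [map_sub, c1, c1, h0, h1, hB0, h3] at h4
  apply hl.j1
  linear_combination -h4

theorem coeff_one_mul' (f g : κ⟦X⟧) : coeff 1 (f * g) =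
    constantCoeff f * coeff 1 g + coeff 1 f * constantCoeff g := by
  rw [coeff_mul, show Finset.HasAntidiagonal.antidiagonal 1 = {((0 : ℕ), (1 : ℕ)), (1, 0)} from rfl]
  rw [Finset.sum_insert (by simp), Finset.sum_singleton]
  simp

/-- a vertex on a line which is a power series in `w = s ^ N` is a power series in `w` -/
theorem vertex_wpow (hd : IsDer (RingHom.id κ) d) {N : ℕ} (hN : N ≠ 0) {E1 M1 Q : κ⟦X⟧}
    (hl : GoodLine d E1 M1)
    (hr : Aq d (expand N hN E1) (expand N hN M1) Q * d⁄dX κ Q =
      Bq (expand N hN E1) (expand N hN M1) Q * ct d Q)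
    (hq : d (constantCoeff Q) ≠ 0) : ∃ q : κ⟦X⟧, expand N hN q = Q := by
  by_contra hcon
  -- the first bad exponent
  have hex : ∃ r, ¬ N ∣ r ∧ coeff r Q ≠ 0 := by
    by_contra h1
    push Not at h1
    apply hcon
    refine ⟨PowerSeries.mk fun i => coeff (N * i) Q, ?_⟩
    ext n
    rw [coeff_expand]
    split_ifs with h2
    · obtain ⟨c, rfl⟩ := h2
      rw [Nat.mul_div_cancel_left _ (Nat.pos_of_ne_zero hN), coeff_mk]
    · exact (h1 n h2).symm
  classical
  set r := Nat.find hex with hrdef
  obtain ⟨hNr, hα⟩ := Nat.find_spec hex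
  rw [← hrdef] at hNr hα
  have hmin : ∀ i < r, ¬ N ∣ i → coeff i Q = 0 := by
    intro i hi hNi
    by_contra h1
    exact Nat.find_min hex hi ⟨hNi, h1⟩
  have hr0 : 0 < r := by
    rcases Nat.eq_zero_or_pos r with h | h
    · exact absurd (h ▸ dvd_zero N) hNr
    · exact h
  have hN1 : 1 < N := by
    rcases Nat.lt_or_ge 1 N with h | h
    · exact h
    · exfalso
      apply hNr
      have : N = 1 := by omega
      rw [this]
      exact one_dvd r
  set α := coeff r Q with hαdef
  set q : κ⟦X⟧ := PowerSeries.mk fun i => if N * i < r then coeff (N * i) Q else 0 with hqdef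
  set y : κ⟦X⟧ := PowerSeries.mk fun i => coeff (i + r) (Q - expand N hN q) with hydef
  have hyc : ∀ i, coeff i y = coeff (i + r) (Q - expand N hN q) := fun i => coeff_mk _ _
  have hQ : Q = expand N hN q + X ^ r * y := by
    ext n
    rw [map_add, coeff_X_pow_mul', coeff_expand]
    by_cases h1 : r ≤ n
    · rw [if_pos h1, hyc, Nat.sub_add_cancel h1, map_sub, coeff_expand]
      ring
    · rw [if_neg h1, add_zero]
      split_ifs with h2
      · obtain ⟨c, rfl⟩ := h2
        rw [Nat.mul_div_cancel_left _ (Nat.pos_of_ne_zero hN), hqdef, coeff_mk,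
          if_pos (by omega)]
      · exact hmin n (by omega) h2
  have hy0 : constantCoeff y = α := by
    rw [← coeff_zero_eq_constantCoeff_apply, hydef, coeff_mk, zero_add, map_sub, coeff_expand,
      if_neg hNr, sub_zero]
  have hq0 : constantCoeff q = constantCoeff Q := by
    rw [hQ, map_add, map_mul, map_pow, constantCoeff_X, zero_pow hr0.ne', zero_mul, add_zero,
      constantCoeff_expand]
  have hdq0 : d (constantCoeff q) ≠ 0 := by rw [hq0]; exact hq
  have hct := ct_isDer hd
  -- derivatives
  have hdsX : d⁄dX κ (X ^ r * y) = X ^ (r - 1) * (C (r : κ) * y + X * d⁄dX κ y) := by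
    obtain ⟨r', hr'⟩ : ∃ r', r = r' + 1 := ⟨r - 1, by omega⟩
    rw [hr']
    simp only [Derivation.leibniz, Derivation.leibniz_pow, smul_eq_mul, nsmul_eq_mul,
      derivative_X, Nat.add_sub_cancel]
    have h1 : ((r' + 1 : ℕ) : κ⟦X⟧) = C ((r' + 1 : ℕ) : κ) := by simp
    rw [h1, pow_succ]
    ring
  have hctX : ct d (X ^ r * y) = X ^ r * ct d y := by
    ext n
    rw [coeff_ct, coeff_X_pow_mul', coeff_X_pow_mul', coeff_ct]
    split_ifs
    · rfl
    · exact hd.zero
  have hdsE : ∀ f : κ⟦X⟧, d⁄dX κ (expand N hN f) = X ^ (N - 1) * (C (N : κ) * expand N hN (d⁄dX κ f)) := by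
    intro f
    rw [derivative_expand]
    have h1 : (N : κ⟦X⟧) = C (N : κ) := by simp
    rw [h1]
    ring
  have hctE : ∀ f : κ⟦X⟧, ct d (expand N hN f) = expand N hN (ct d f) := ct_expand hd N hN
  have hA : Aq d (expand N hN E1) (expand N hN M1) Q =
      expand N hN (Aq d E1 M1 q) + X ^ r * (2 * expand N hN E1 * expand N hN (ct d E1) * y) := by
    have h2 : expand N hN (2 : κ⟦X⟧) = 2 := map_ofNat _ 2
    rw [Aq, Aq, hctE, hctE, hQ, map_add, map_mul, map_mul, map_mul, h2]
    ring
  have hB : Bq (expand N hN E1) (expand N hN M1) Q =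
      X ^ (N - 1) * (C (N : κ) * expand N hN (Bq E1 M1 q)) +
        X ^ (N - 1 + r) * (2 * expand N hN E1 * (C (N : κ) * expand N hN (d⁄dX κ E1)) * y) := by
    have h2 : expand N hN (2 : κ⟦X⟧) = 2 := map_ofNat _ 2
    rw [Bq, Bq, hdsE, hdsE, hQ, map_add, map_mul, map_mul, map_mul, h2, pow_add]
    ring
  have hdsQ : d⁄dX κ Q = X ^ (N - 1) * (C (N : κ) * expand N hN (d⁄dX κ q)) +
      X ^ (r - 1) * (C (r : κ) * y + X * d⁄dX κ y) := by
    rw [hQ, map_add, hdsX, hdsE]
  have hctQ : ct d Q = expand N hN (ct d q) + X ^ r * ct d y := by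
    rw [hQ, hct.add, hctX, hctE]
  set a := Aq d E1 M1 q with ha
  set b := Bq E1 M1 q with hb
  -- the full equation
  set I0 : κ⟦X⟧ := a * d⁄dX κ q - b * ct d q with hI0
  set Y : κ⟦X⟧ := C (r : κ) * y + X * d⁄dX κ y with hY
  set e1 := expand N hN E1 with he1
  have hfull :
      X ^ (N - 1) * (C (N : κ) * expand N hN I0) + X ^ (r - 1) * (expand N hN a * Y) +
      X ^ (r + (N - 1)) * (2 * e1 * expand N hN (ct d E1) * y * (C (N : κ) * expand N hN (d⁄dX κ q)))
      + X ^ (r + (r - 1)) * (2 * e1 * expand N hN (ct d E1) * y * Y) =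
      X ^ (N - 1 + r) * (C (N : κ) * expand N hN b * ct d y) +
      X ^ (N - 1 + r) * (2 * e1 * (C (N : κ) * expand N hN (d⁄dX κ E1)) * y * expand N hN (ct d q))
      + X ^ (N - 1 + r + r) * (2 * e1 * (C (N : κ) * expand N hN (d⁄dX κ E1)) * y * ct d y) := by
    rw [hA, hB, hdsQ, hctQ] at hr
    rw [hI0, map_sub, map_mul, map_mul]
    simp only [pow_add] at hr ⊢
    linear_combination hr
  have hcY : constantCoeff Y = r * α := by
    rw [hY, map_add, map_mul, map_mul, constantCoeff_X, zero_mul, add_zero, constantCoeff_C, hy0]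
  have hrne : (r : κ) ≠ 0 := by exact_mod_cast hr0.ne'
  have hNne : (N : κ) ≠ 0 := by exact_mod_cast hN
  by_cases ha0 : constantCoeff a = 0
  swap
  · -- transversal
    have h1 := congrArg (coeff (r - 1)) hfull
    simp only [map_add, coeff_X_pow_mul'] at h1
    rw [if_neg (show ¬ (r + (N - 1) ≤ r - 1) by omega), if_neg (show ¬ (r + (r - 1) ≤ r - 1) by omega),
      if_neg (show ¬ (N - 1 + r ≤ r - 1) by omega), if_neg (show ¬ (N - 1 + r + r ≤ r - 1) by omega),
      if_pos (show r - 1 ≤ r - 1 from le_rfl), if_neg (show ¬ (N - 1 + r ≤ r - 1) by omega),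
      Nat.sub_self, coeff_zero_eq_constantCoeff_apply] at h1
    have hh : constantCoeff (expand N hN a * Y) = constantCoeff a * (r * α) := by
      rw [map_mul, hcY, constantCoeff_expand]
    rw [hh] at h1
    have h2 : (if N - 1 ≤ r - 1 then coeff (r - 1 - (N - 1)) (C (N : κ) * expand N hN I0) else 0)
        = 0 := by
      split_ifs with h3
      · rw [coeff_C_mul, coeff_expand, if_neg, mul_zero]
        intro h4
        apply hNr
        have h5 : r = (r - 1 - (N - 1)) + N := by omega
        rw [h5]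
        exact dvd_add h4 dvd_rfl
      · rfl
    rw [h2] at h1
    have h3 : constantCoeff a * (r * α) = 0 := by linear_combination h1
    exact (mul_ne_zero ha0 (mul_ne_zero hrne hα)) h3
  · -- glancing
    have hJ := ctE_B (d := d) E1 M1 q
    rw [← ha, ← hb] at hJ
    have hb0 : constantCoeff b = 0 := by
      have h1 := congrArg constantCoeff hJ
      rw [map_sub, map_mul, map_mul, ha0, mul_zero, sub_zero, constantCoeff_ct, hl.j0] at h1
      exact (mul_eq_zero.1 h1).resolve_left hl.de0
    have hI00 : constantCoeff I0 = 0 := by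
      rw [hI0, map_sub, map_mul, map_mul, ha0, hb0]
      ring
    have hI0' : ∀ k, k ≤ 2 * N - 2 → coeff k (X ^ (N - 1) * (C (N : κ) * expand N hN I0)) = 0 := by
      intro k hk
      rw [coeff_X_pow_mul']
      split_ifs with h1
      · rw [coeff_C_mul, coeff_expand]
        split_ifs with h2
        · obtain ⟨c, hc⟩ := h2
          have hc0 : c = 0 := by
            by_contra h3
            have h4 : N * 1 ≤ N * c := Nat.mul_le_mul_left N (by omega)
            omega
          rw [hc, hc0, mul_zero, Nat.zero_div, coeff_zero_eq_constantCoeff_apply, hI00, mul_zero]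
        · ring
      · rfl
    have hexpa : ∀ k, k < N → coeff k (expand N hN a) = 0 := by
      intro k hk
      rw [coeff_expand]
      split_ifs with h1
      · obtain ⟨c, hc⟩ := h1
        have hc0 : c = 0 := by
          by_contra h3
          have h4 : N * 1 ≤ N * c := Nat.mul_le_mul_left N (by omega)
          omega
        rw [hc, hc0, mul_zero, Nat.zero_div, coeff_zero_eq_constantCoeff_apply, ha0]
      · rfl
    have hexpaY : ∀ f : κ⟦X⟧, ∀ k, k < N → coeff k (expand N hN a * f) = 0 := by
      intro f k hk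
      rw [coeff_mul]
      refine Finset.sum_eq_zero fun i hi => ?_
      have := Finset.HasAntidiagonal.mem_antidiagonal.1 hi
      rw [hexpa i.1 (by omega), zero_mul]
    rcases lt_trichotomy r N with hrN | hrN | hrN
    · -- r < N
      have h1 := congrArg (coeff (r + (r - 1))) hfull
      rw [map_add, map_add, map_add, hI0' _ (by omega), map_add, map_add] at h1
      simp only [coeff_X_pow_mul'] at h1
      rw [if_pos (show r - 1 ≤ r + (r - 1) by omega),
        if_neg (show ¬ (r + (N - 1) ≤ r + (r - 1)) by omega), if_pos le_rfl,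
        if_neg (show ¬ (N - 1 + r ≤ r + (r - 1)) by omega),
        if_neg (show ¬ (N - 1 + r ≤ r + (r - 1)) by omega),
        if_neg (show ¬ (N - 1 + r + r ≤ r + (r - 1)) by omega),
        show r + (r - 1) - (r - 1) = r by omega, hexpaY _ r hrN, Nat.sub_self,
        coeff_zero_eq_constantCoeff_apply] at h1
      simp only [map_mul, hcY, hy0, he1, constantCoeff_expand, constantCoeff_ct, map_ofNat] at h1
      have h2 : 2 * constantCoeff E1 * d (constantCoeff E1) * α * (r * α) = 0 := by
        linear_combination h1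
      have h3 : (2 : κ) ≠ 0 := two_ne_zero
      exact (mul_ne_zero (mul_ne_zero (mul_ne_zero (mul_ne_zero h3 hl.e0) hl.de0) hα)
        (mul_ne_zero hrne hα)) h2
    · exact hNr (hrN ▸ dvd_rfl)
    · -- r > N
      have hcoefa : ∀ f : κ⟦X⟧, coeff N (expand N hN a * f) = coeff 1 a * constantCoeff f := by
        intro f
        rw [coeff_mul, Finset.sum_eq_single (N, 0)]
        · simp only [coeff_zero_eq_constantCoeff_apply]
          rw [coeff_expand, if_pos dvd_rfl, Nat.div_self (Nat.pos_of_ne_zero hN)]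
        · intro i hi hne
          have hi' := Finset.HasAntidiagonal.mem_antidiagonal.1 hi
          rw [hexpa i.1, zero_mul]
          rcases lt_or_eq_of_le (show i.1 ≤ N by omega) with h5 | h5
          · exact h5
          · exfalso
            apply hne
            ext
            · exact h5
            · simp only
              omega
        · intro h
          exact absurd (Finset.HasAntidiagonal.mem_antidiagonal.2 (by simp)) h
      -- coefficient N + r - 1
      have h1 := congrArg (coeff (N - 1 + r)) hfull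
      simp only [map_add, coeff_X_pow_mul'] at h1
      rw [if_pos (show N - 1 ≤ N - 1 + r by omega), if_pos (show r - 1 ≤ N - 1 + r by omega),
        if_pos (show r + (N - 1) ≤ N - 1 + r by omega),
        if_neg (show ¬ (r + (r - 1) ≤ N - 1 + r) by omega), if_pos le_rfl,
        if_neg (show ¬ (N - 1 + r + r ≤ N - 1 + r) by omega),
        show N - 1 + r - (N - 1) = r by omega, show N - 1 + r - (r - 1) = N by omega,
        show N - 1 + r - (r + (N - 1)) = 0 by omega, Nat.sub_self, hcoefa,
        coeff_C_mul, coeff_expand, if_neg hNr, mul_zero, if_pos le_rfl] at h1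
      simp only [coeff_zero_eq_constantCoeff_apply, map_mul, hcY, hy0, he1, constantCoeff_expand,
        constantCoeff_ct, constantCoeff_C, map_ofNat, hb0] at h1
      -- coefficient 2 N - 1
      have h2 := congrArg (coeff (2 * N - 1)) hfull
      simp only [map_add, coeff_X_pow_mul'] at h2
      rw [if_pos (show N - 1 ≤ 2 * N - 1 by omega),
        if_neg (show ¬ (r + (N - 1) ≤ 2 * N - 1) by omega),
        if_neg (show ¬ (r + (r - 1) ≤ 2 * N - 1) by omega),
        if_neg (show ¬ (N - 1 + r ≤ 2 * N - 1) by omega),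
        if_neg (show ¬ (N - 1 + r ≤ 2 * N - 1) by omega),
        if_neg (show ¬ (N - 1 + r + r ≤ 2 * N - 1) by omega),
        show 2 * N - 1 - (N - 1) = N by omega, coeff_C_mul, coeff_expand, if_pos dvd_rfl,
        Nat.div_self (Nat.pos_of_ne_zero hN)] at h2
      have h3 : (if r - 1 ≤ 2 * N - 1 then coeff (2 * N - 1 - (r - 1)) (expand N hN a * Y) else 0)
          = 0 := by
        split_ifs with h4
        · exact hexpaY _ _ (by omega)
        · rfl
      rw [h3] at h2
      have h4 : coeff 1 I0 = 0 := by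
        have h5 : (N : κ) * coeff 1 I0 = 0 := by linear_combination h2
        exact (mul_eq_zero.1 h5).resolve_left hNne
      rw [hI0, map_sub, coeff_one_mul', coeff_one_mul', ha0, hb0, constantCoeff_ct] at h4
      have h5 := congrArg (coeff 1) hJ
      rw [map_sub, coeff_one_mul', coeff_one_mul', ha0, hb0, constantCoeff_ct] at h5
      have h6 := congrArg constantCoeff (ds_A hd E1 M1 q)
      rw [← ha, ← hb] at h6
      simp only [map_add, map_mul, map_sub, constantCoeff_ct, map_ofNat, hb0, hd.zero] at h6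
      rw [← coeff_zero_eq_constantCoeff_apply (d⁄dX κ a), coeff_derivative] at h6
      simp only [zero_add, Nat.cast_zero, mul_one] at h6
      have hqq : constantCoeff (d⁄dX κ q) = coeff 1 q := by
        rw [← coeff_zero_eq_constantCoeff_apply, coeff_derivative]
        simp
      have hEE : constantCoeff (d⁄dX κ E1) = coeff 1 E1 := by
        rw [← coeff_zero_eq_constantCoeff_apply, coeff_derivative]
        simp
      rw [hqq, hEE] at h6 h1
      rw [hqq] at h4
      rw [hEE] at h5
      -- coeff 1 a ≠ 0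
      have ha1 : coeff 1 a ≠ 0 := by
        intro h7
        rw [h7] at h4 h5
        have h8 : coeff 1 b = 0 := by
          have : coeff 1 b * d (constantCoeff q) = 0 := by linear_combination -h4
          exact (mul_eq_zero.1 this).resolve_right hdq0
        rw [h8] at h5
        apply hl.j1
        linear_combination -h5
      have h7 : coeff 1 a * (((N + r : ℕ) : κ) * α) = 0 := by
        push_cast
        linear_combination h1 + N * α * h6
      have h8 : ((N + r : ℕ) : κ) ≠ 0 := by exact_mod_cast (by omega : N + r ≠ 0)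
      exact (mul_ne_zero ha1 (mul_ne_zero h8 hα)) h7

end Vale.Agent.P097.H82
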